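import Vale.Agent.P305.Bits

/-! Skew-symmetric matrices and perfect matchings. -/

namespace Vale.Agent.P305

open Finset Matrix

set_option linter.unusedSectionVars false

variable {V F : Type} [Fintype V] [DecidableEq V] [Field F]

/-- The relation contains a perfect matching. -/
def PM (E : V → V → Prop) : Prop := ∃ μ : V → V, ∀ v, μ (μ v) = v ∧ μ v ≠ v ∧ E v (μ v)

theorem PM.mono {E E' : V → V → Prop} (h : PM E) (h' : ∀ a b, E a b → E' a b) : PM E' :=
  h.imp fun _ hμ v => ⟨(hμ v).1, (hμ v).2.1, h' _ _ (hμ v).2.2⟩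

theorem skew_inv {T : Matrix V V F} (hT : ∀ a b, T a b = -T b a) (a b : V) :
    T⁻¹ a b = -T⁻¹ b a := by
  have h1 : Tᵀ = -T := by
    ext a b
    rw [transpose_apply, hT, neg_apply]
  have h2 : T⁻¹ᵀ = -T⁻¹ := by
    rw [transpose_nonsing_inv, h1]
    by_cases h : IsUnit T.det
    · refine inv_eq_right_inv ?_
      rw [neg_mul_neg, mul_nonsing_inv _ h]
    · rw [nonsing_inv_apply_not_isUnit _ h, nonsing_inv_apply_not_isUnit, neg_zero]
      rwa [← h1, det_transpose]
  exact congrFun (congrFun h2 b) a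

theorem sing_upd (h2 : (2 : F) ≠ 0) {T T' : Matrix V V F} (hT : ∀ a b, T a b = -T b a)
    (hT' : ∀ a b, T' a b = -T' b a) (hd : T.det ≠ 0) (hd' : T'.det = 0) {r s : V}
    (h : ∀ a b, ¬ (a = r ∧ b = s) → ¬ (a = s ∧ b = r) → T' a b = T a b) :
    (T' r s - T r s) * T⁻¹ r s = 1 := by
  have z0 : ∀ {M : Matrix V V F}, (∀ a b, M a b = -M b a) → ∀ a, M a a = 0 := fun hM a =>
    (mul_eq_zero.1 (by linear_combination hM a a)).resolve_left h2
  by_cases hrs : r = s
  · refine absurd ?_ hd
    rw [← hd']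
    congr 1
    ext a b
    by_cases e : a = b
    · rw [e, z0 hT, z0 hT']
    · exact (h a b (fun c => e (by rw [c.1, c.2, hrs])) fun c => e (by rw [c.1, c.2, hrs])).symm
  obtain ⟨z, hz, hz'⟩ := exists_mulVec_eq_zero_iff.2 hd'
  set d := T' r s - T r s with hdd
  have e1 : T *ᵥ z = (d * z r) • Pi.single s 1 - (d * z s) • Pi.single r 1 := by
    rw [← sub_zero (T *ᵥ z), ← hz', ← sub_mulVec]
    ext a
    simp only [mulVec, dotProduct, Matrix.sub_apply, Pi.sub_apply, Pi.smul_apply, smul_eq_mul]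
    by_cases a1 : a = r
    · rw [sum_eq_single s (fun b _ hb => by
        rw [h a b (fun c => hb c.2) (fun c => hrs (a1 ▸ c.1)), sub_self, zero_mul]) (by simp), a1]
      simp only [Pi.single_eq_same, Pi.single_eq_of_ne hrs]
      ring
    by_cases a2 : a = s
    · rw [sum_eq_single r (fun b _ hb => by
        rw [h a b (fun c => a1 c.1) (fun c => hb c.2), sub_self, zero_mul]) (by simp), a2]
      simp only [Pi.single_eq_same, Pi.single_eq_of_ne (Ne.symm hrs)]
      rw [hT s r, hT' s r]
      ring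
    · rw [sum_eq_zero fun b _ => by
        rw [h a b (fun c => a1 c.1) (fun c => a2 c.1), sub_self, zero_mul]]
      simp [a1, a2]
  have e2 : ∀ a, z a = d * z r * T⁻¹ a s - d * z s * T⁻¹ a r := fun a => by
    have := congrArg (fun y => (T⁻¹ *ᵥ y) a) e1
    simpa [mulVec_mulVec, nonsing_inv_mul _ (isUnit_iff_ne_zero.2 hd), mulVec_sub, mulVec_smul]
      using this
  by_contra hc
  have hc' : 1 - d * T⁻¹ r s ≠ 0 := fun e => hc (by linear_combination -e)
  have n0 := z0 (skew_inv hT)
  have f1 : z r = 0 := (mul_eq_zero.1 (by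
    have := e2 r
    rw [n0] at this
    linear_combination this)).resolve_left hc'
  have f2 : z s = 0 := (mul_eq_zero.1 (by
    have := e2 s
    rw [n0, skew_inv hT s r] at this
    linear_combination this)).resolve_left hc'
  exact hz (funext fun a => by rw [e2, f1, f2]; simp)

theorem det_pm {T : Matrix V V F} {μ : V → V} (h1 : ∀ v, μ (μ v) = v) (h2 : ∀ v, T v (μ v) ≠ 0)
    (h3 : ∀ a b, b ≠ μ a → T a b = 0) : T.det ≠ 0 := fun h => by
  obtain ⟨z, hz, hz'⟩ := exists_mulVec_eq_zero_iff.2 h
  refine hz (funext fun a => ?_)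
  have := congrFun hz' (μ a)
  simp only [mulVec, dotProduct, Pi.zero_apply] at this
  rw [sum_eq_single (μ (μ a)) (fun b _ hb => by rw [h3 _ _ hb, zero_mul]) (by simp)] at this
  rw [← h1 a]
  exact (mul_eq_zero.1 this).resolve_left (h2 _)

theorem pm_det (h2 : (2 : F) ≠ 0) (hc : ∀ k : ℕ, k ≤ Fintype.card V → (k : F) = 1 → k = 1)
    (T : Matrix V V F) (hT : ∀ a b, T a b = -T b a) (hd : T.det ≠ 0) :
    PM fun a b => T a b ≠ 0 := by
  classical
  induction hn : (univ.filter fun x : V × V => T x.1 x.2 ≠ 0).card using Nat.strong_induction_on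
    generalizing T with
  | _ n ih =>
  by_cases h : ∀ r s, T r s ≠ 0 → -T r s * T⁻¹ r s = 1
  · have h4 : ∀ r, ∃ s, (univ.filter fun s => T r s ≠ 0) = {s} := fun r => by
      refine card_eq_one.1 (hc _ (card_le_univ _) ?_)
      have := congrFun (congrFun (mul_nonsing_inv T (isUnit_iff_ne_zero.2 hd)) r) r
      rw [one_apply_eq, mul_apply] at this
      rw [← this, card_filter, Nat.cast_sum]
      refine sum_congr rfl fun s _ => ?_
      split_ifs with e
      · rw [skew_inv hT s r, Nat.cast_one, ← h r s e]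
        ring
      · rw [not_not.1 e, zero_mul, Nat.cast_zero]
    choose μ hμ using h4
    have h5 : ∀ r s, T r s ≠ 0 ↔ s = μ r := fun r s => by
      rw [← mem_singleton, ← hμ, mem_filter]
      simp
    refine ⟨μ, fun v => ⟨((h5 _ _).1 ?_).symm, fun e => (h5 v v).2 e.symm ?_, (h5 _ _).2 rfl⟩⟩
    · rw [hT, neg_ne_zero]
      exact (h5 _ _).2 rfl
    · exact (mul_eq_zero.1 (by linear_combination hT v v)).resolve_left h2
  · push Not at h
    obtain ⟨r, s, h5, h6⟩ := h
    let T' : Matrix V V F := fun a b => if (a = r ∧ b = s) ∨ (a = s ∧ b = r) then 0 else T a b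
    have hT' : ∀ a b, T' a b = -T' b a := fun a b => by
      simp only [T']
      split_ifs with c1 c2 c2
      · exact neg_zero.symm
      · exact absurd (by tauto) c2
      · exact absurd (by tauto) c1
      · exact hT a b
    have k1 : ∀ a b, T' a b ≠ 0 → T a b ≠ 0 := fun a b e => by
      simp only [T'] at e
      split_ifs at e
      · exact absurd rfl e
      · exact e
    have k2 : T' r s = 0 := by simp [T']
    refine (ih _ ?_ T' hT' (fun e => h6 ?_) rfl).mono k1
    · rw [← hn]
      refine card_lt_card ⟨fun x hx => mem_filter.2 ⟨mem_univ _, k1 _ _ (mem_filter.1 hx).2⟩,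
        fun hx => (mem_filter.1 (hx (mem_filter.2 ⟨mem_univ (r, s), h5⟩))).2 k2⟩
    · have := sing_upd h2 hT hT' hd e (r := r) (s := s) fun a b c1 c2 => if_neg (by tauto)
      rwa [k2, zero_sub] at this

end Vale.Agent.P305
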