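import Vale.Agent.P305.Defs
import Vale.Agent.P305.Tutte

/-! Alternating matrices. Hints: A = mat N u, X = A⁻¹ (Matrix.mul_nonsing_inv). X is alternating: Aᵀ = -A gives Xᵀ = -X, and x ⬝ᵥ A *ᵥ x = 0 for x = column i gives X i i = 0 in every characteristic. J = single i j 1 - single j i 1, mat of up2 = A + d • J, J * X * J = -(X i j) • J; if c = 1 - d * X i j is not 0 the inverse is X - (d / c) • X * J * X, else column i of X is in the kernel. -/

namespace Vale.Agent.P305

open Vale.Agent.P315 Finset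

variable {K : Type} [Field K] {N : ℕ} {u u' tg : ℕ → ℕ → K}

theorem alg_skew (u : ℕ → ℕ → K) (i j : ℕ) : alt u i j = -alt u j i := by
  unfold alt
  rcases lt_trichotomy i j with h | h | h
  · simp [h, h.not_gt]
  · simp [h]
  · simp [h, h.not_gt]

open Matrix in
theorem alg_quad (u : ℕ → ℕ → K) (x : Fin N → K) : x ⬝ᵥ mat N u *ᵥ x = 0 := by
  have e : mat N u = (of fun i j : Fin N => if (i : ℕ) < j then u i j else 0) -
      (of fun i j : Fin N => if (i : ℕ) < j then u i j else 0)ᵀ := by
    ext i j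
    simp only [mat, alt, of_apply, Matrix.sub_apply, transpose_apply]
    rcases lt_trichotomy (i : ℕ) j with h | h | h
    · simp only [h, h.not_gt, if_true, if_false, sub_zero]
    · simp only [h, lt_irrefl, if_false, sub_zero]
    · simp only [h, h.not_gt, if_true, if_false, zero_sub]
  rw [e, sub_mulVec, dotProduct_sub, mulVec_transpose, dotProduct_mulVec, dotProduct_comm,
    sub_self]

theorem iv_diag (hu : Ns N u) (i : ℕ) : iv N u i i = 0 := by
  unfold iv
  split_ifs with h
  · have h1 := alg_quad u (((mat N u)⁻¹).mulVec (Pi.single ⟨i, h.1⟩ 1))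
    rw [Matrix.mulVec_mulVec, Matrix.mul_nonsing_inv _ (isUnit_iff_ne_zero.2 hu),
      Matrix.one_mulVec] at h1
    simpa using h1
  · rfl

theorem iv_skew (hu : Ns N u) (i j : ℕ) : iv N u j i = -iv N u i j := by
  unfold iv
  by_cases h : i < N ∧ j < N
  · rw [dif_pos h, dif_pos h.symm]
    exact skew_inv (T := mat N u) (fun a b => alg_skew u a b) ⟨j, h.2⟩ ⟨i, h.1⟩
  · rw [dif_neg h, dif_neg fun e => h e.symm, neg_zero]

theorem iv_mul (hu : Ns N u) {i j : ℕ} (hi : i < N) (hj : j < N) :
    ∑ t ∈ range N, alt u i t * iv N u t j = if i = j then 1 else 0 := by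
  have h := congrFun (congrFun (Matrix.mul_nonsing_inv _ (isUnit_iff_ne_zero.2 hu)) ⟨i, hi⟩) ⟨j, hj⟩
  rw [Matrix.mul_apply, Matrix.one_apply] at h
  simp only [Fin.mk.injEq] at h
  rw [← h, sum_range]
  exact sum_congr rfl fun t _ => by rw [iv, dif_pos ⟨t.2, hj⟩]; rfl

theorem ns_step (hu : Ns N u) (e : ℕ × ℕ) : Ns N (step N tg u e) := by
  unfold step
  split_ifs with h
  exacts [h.2, hu]

theorem ns_fold (hu : Ns N u) (l : List (ℕ × ℕ)) : Ns N (l.foldl (step N tg) u) := by
  induction l generalizing u with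
  | nil => exact hu
  | cons e l ih => exact ih (ns_step hu e)

theorem ns_congr (h : ∀ i j, i < j → j < N → u i j = u' i j) : Ns N u ↔ Ns N u' := by
  have e : mat N u = mat N u' := by
    ext i j
    simp only [mat, alt, Matrix.of_apply]
    split_ifs with h1 h2
    exacts [h _ _ h1 j.2, by rw [h _ _ h2 i.2], rfl]
  rw [Ns, Ns, e]

end Vale.Agent.P305
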