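import Vale.Agent.P305.Alg

/-! Alternating matrices. Hints: A = mat N u, X = A⁻¹ (Matrix.mul_nonsing_inv). X is alternating: Aᵀ = -A gives Xᵀ = -X, and x ⬝ᵥ A *ᵥ x = 0 for x = column i gives X i i = 0 in every characteristic. J = single i j 1 - single j i 1, mat of up2 = A + d • J, J * X * J = -(X i j) • J; if c = 1 - d * X i j is not 0 the inverse is X - (d / c) • X * J * X, else column i of X is in the kernel. -/

namespace Vale.Agent.P305

open Vale.Agent.P315 Finset

variable {K : Type} [Field K] {N : ℕ} {u u' tg : ℕ → ℕ → K}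

/-- The elementary alternating matrix. -/
def alg2_J (K : Type) [Field K] (a b : Fin N) : Matrix (Fin N) (Fin N) K :=
  Matrix.single a b 1 - Matrix.single b a 1

theorem alg2_up {a b : Fin N} (h : (a : ℕ) < b) (t : K) :
    mat N (up2 u a b t) = mat N u + (t - u a b) • alg2_J K a b := by
  ext x y
  simp only [mat, alg2_J, alt, up2, Matrix.of_apply, Matrix.add_apply, Matrix.smul_apply,
    Matrix.sub_apply, Matrix.single_apply, Fin.ext_iff, smul_eq_mul]
  by_cases h1 : (x : ℕ) = a ∧ (y : ℕ) = b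
  · obtain ⟨e1, e2⟩ := h1
    simp [e1, e2, h, h.ne, h.ne']
  · by_cases h2 : (y : ℕ) = a ∧ (x : ℕ) = b
    · obtain ⟨e1, e2⟩ := h2
      simp [e1, e2, h, h.ne, h.ne', h.le.not_gt]
      ring
    · rw [if_neg h1, if_neg h2, if_neg fun e : (a : ℕ) = x ∧ (b : ℕ) = y => h1 ⟨e.1.symm, e.2.symm⟩,
        if_neg fun e : (b : ℕ) = x ∧ (a : ℕ) = y => h2 ⟨e.2.symm, e.1.symm⟩, sub_self, mul_zero,
        add_zero]

theorem alg2_iv (a b : Fin N) : iv N u a b = (mat N u)⁻¹ a b := dif_pos ⟨a.2, b.2⟩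

theorem alg2_JXJ (hu : Ns N u) (a b : Fin N) :
    alg2_J K a b * (mat N u)⁻¹ * alg2_J K a b = -(iv N u a b • alg2_J K a b) := by
  simp only [alg2_J, Matrix.sub_mul, Matrix.mul_sub, Matrix.single_mul_mul_single, ← alg2_iv,
    iv_diag hu, iv_skew hu a b, one_mul, mul_one, Matrix.single_zero, smul_sub, Matrix.smul_single,
    smul_eq_mul, ← Matrix.single_neg]
  abel

theorem alg2_inv (hu : Ns N u) (a b : Fin N) {d : K} (hc : 1 - d * iv N u a b ≠ 0) :
    (mat N u + d • alg2_J K a b) * ((mat N u)⁻¹ - (d * (1 - d * iv N u a b)⁻¹) •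
      ((mat N u)⁻¹ * alg2_J K a b * (mat N u)⁻¹)) = 1 := by
  have h1 := Matrix.mul_nonsing_inv (mat N u) (Ne.isUnit hu)
  have e : d * (1 - d * iv N u a b)⁻¹ = d + d * (d * (1 - d * iv N u a b)⁻¹ * iv N u a b) := by
    field_simp
    ring
  simp only [Matrix.add_mul, Matrix.mul_sub, Matrix.mul_smul, Matrix.smul_mul, ← Matrix.mul_assoc,
    h1, Matrix.one_mul, alg2_JXJ hu, Matrix.neg_mul, smul_neg, smul_smul, smul_add]
  rw [congrArg (· • (alg2_J K a b * (mat N u)⁻¹)) e]
  module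

theorem alg2_ent (X : Matrix (Fin N) (Fin N) K) (a b x y : Fin N) :
    (X * Matrix.single a b (1 : K) * X) x y = X x a * X b y := by
  rw [Matrix.mul_apply, sum_eq_single b (fun k _ hk => by
    rw [Matrix.mul_single_apply_of_ne _ _ _ _ _ hk, zero_mul]) (by simp),
    Matrix.mul_single_apply_same, mul_one]

theorem leaf_iff (hu : Ns N u) {i j : ℕ} (hij : i < j) (hj : j < N) (t : K) :
    Ns N (up2 u i j t) ↔ 1 - (t - u i j) * iv N u i j ≠ 0 := by
  lift j to Fin N using hj with b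
  lift i to Fin N using hij.trans b.2 with a
  rw [Ns, alg2_up hij]
  refine ⟨fun h hc => ?_, fun hc => Matrix.det_ne_zero_of_right_inverse (alg2_inv hu a b hc)⟩
  have h1 := Matrix.mul_nonsing_inv (mat N u) (Ne.isUnit hu)
  have h2 : (mat N u + (t - u a b) • alg2_J K a b) * ((mat N u)⁻¹ * alg2_J K a b) = 0 := by
    rw [Matrix.add_mul, Matrix.smul_mul, ← Matrix.mul_assoc, ← Matrix.mul_assoc, h1,
      Matrix.one_mul, alg2_JXJ hu, smul_neg, smul_smul, ← sub_eq_zero.1 hc, one_smul,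
      add_neg_cancel]
  have h3 := congrArg (fun Y => mat N u * ((mat N u + (t - u a b) • alg2_J K a b)⁻¹ * Y)) h2
  rw [Matrix.nonsing_inv_mul_cancel_left _ _ (Ne.isUnit h), ← Matrix.mul_assoc, h1,
    Matrix.one_mul, Matrix.mul_zero, Matrix.mul_zero] at h3
  have h4 := congrFun (congrFun h3 a) b
  have h5 : b ≠ a := fun e => hij.ne' (congrArg Fin.val e)
  simp [alg2_J, h5] at h4

theorem leaf_iv (hu : Ns N u) {i j : ℕ} (hij : i < j) (hj : j < N) {t : K}
    (h : Ns N (up2 u i j t)) {x y : ℕ} (hx : x = i ∨ x = j) (hy : y = i ∨ y = j) :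
    iv N (up2 u i j t) x y = iv N u x y * (1 - (t - u i j) * iv N u i j)⁻¹ := by
  have hc := (leaf_iff hu hij hj t).1 h
  lift j to Fin N using hj with b
  lift i to Fin N using hij.trans b.2 with a
  have e : ∀ x y : Fin N, iv N (up2 u a b t) x y = iv N u x y -
      (t - u a b) * (1 - (t - u a b) * iv N u a b)⁻¹ *
        (iv N u x a * iv N u b y - iv N u x b * iv N u a y) := fun x y => by
    rw [alg2_iv, alg2_up hij, Matrix.inv_eq_right_inv (alg2_inv hu a b hc), Matrix.sub_apply,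
      Matrix.smul_apply, smul_eq_mul, alg2_J, Matrix.mul_sub, Matrix.sub_mul, Matrix.sub_apply,
      alg2_ent, alg2_ent]
    simp only [alg2_iv]
  have k := mul_inv_cancel₀ hc
  rcases hx with rfl | rfl <;> rcases hy with rfl | rfl <;>
    simp only [e, iv_diag hu, iv_skew hu a b]
  · ring
  · linear_combination (-(iv N u a b)) * k
  · linear_combination (iv N u a b) * k
  · ring

end Vale.Agent.P305
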