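import Vale.Agent.P305.Par

/-! Asymptotics. -/

namespace Vale.Agent.P305

open Vale.Agent.P315 Finset

theorem asy_poly (j : ℕ) {r : ℝ} (hr : 1 < r) :
    ∃ c : ℝ, 0 < c ∧ ∀ l : ℕ, ((l : ℝ) + 1) ^ j ≤ c * r ^ l := by
  obtain ⟨c, hc, h⟩ := Asymptotics.bound_of_isBigO_nat_atTop
    (isLittleO_pow_const_const_pow_of_one_lt (R := ℝ) j hr).isBigO
  refine ⟨c * r, by positivity, fun l => ?_⟩
  have := h (x := l + 1) (by positivity)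
  rw [Real.norm_of_nonneg (by positivity), Real.norm_of_nonneg (by positivity), pow_succ] at this
  push_cast at this
  linarith

theorem asy_time {S : Sch} (H : S.Ok) {τ1 τ : ℝ} (h2 : 2 ≤ τ1) (h : τ1 < τ)
    (hρ : (S.ρ : ℝ) ≤ (S.k : ℝ) ^ τ1) (κ : ℕ) : ∃ C : ℕ, ∀ n : ℕ,
    ((1000 * (S.L n + 1) * S.big n * kc S n κ : ℕ) : ℝ) ≤ C * ((n : ℝ) + 1) ^ τ := by
  have hk : (2 : ℝ) ≤ S.k := by exact_mod_cast k_two H
  obtain ⟨c, hc, hp⟩ := asy_poly (κ + 2) (r := (S.k : ℝ) ^ (τ - τ1))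
    (Real.one_lt_rpow (by linarith) (by linarith))
  set c1 := 2 * S.kap + S.D + S.ρ + 10 with hc1
  set c2 := S.ρ ^ 2 + 8 * 2 ^ (S.D + 4) with hc2
  refine ⟨⌈(1000 * κ * c1 ^ (κ + 1) * c2 : ℕ) * c * (2 * (S.k : ℝ)) ^ τ⌉₊, fun n => ?_⟩
  refine le_trans ?_ (mul_le_mul_of_nonneg_right (Nat.le_ceil _) (by positivity))
  have hN : (S.N n : ℝ) = (S.k : ℝ) ^ S.L n := by simp [Sch.N]
  have hN1 : (1 : ℝ) ≤ S.N n := hN ▸ one_le_pow₀ (by linarith)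
  have e1 : ∀ t : ℝ, ((S.k : ℝ) ^ t) ^ S.L n = (S.N n : ℝ) ^ t := fun t => by
    rw [hN, ← Real.rpow_natCast, ← Real.rpow_natCast, ← Real.rpow_mul (by linarith),
      ← Real.rpow_mul (by linarith), mul_comm]
  have a1 : S.w n + S.L n + 4 ≤ c1 * (S.L n + 1) := by
    unfold Sch.w
    rw [hc1]
    nlinarith [Nat.zero_le (S.D * S.L n), Nat.zero_le (S.ρ * S.L n)]
  have a2 : S.R n ≤ c1 * (S.L n + 1) := by
    unfold Sch.R Sch.w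
    rw [hc1]
    nlinarith [Nat.zero_le (S.D * S.L n), Nat.zero_le (S.ρ * S.L n)]
  have a3 : ((S.ρ ^ (S.L n + 2) + 8 * 2 ^ S.w n : ℕ) : ℝ) ≤ c2 * (S.N n : ℝ) ^ τ1 := by
    have b1 : (S.ρ : ℝ) ^ S.L n ≤ (S.N n : ℝ) ^ τ1 :=
      e1 τ1 ▸ pow_le_pow_left₀ (by positivity) hρ _
    have b2 : (S.N n : ℝ) * S.N n ≤ (S.N n : ℝ) ^ τ1 := by
      rw [← sq, ← Real.rpow_natCast]
      exact Real.rpow_le_rpow_of_exponent_le hN1 (by exact_mod_cast h2)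
    rw [two_w, hc2]
    push_cast
    rw [pow_add, add_mul, mul_comm ((S.ρ : ℝ) ^ 2)]
    have b3 := mul_le_mul_of_nonneg_right b1 (by positivity : (0 : ℝ) ≤ (S.ρ : ℝ) ^ 2)
    have b4 := mul_le_mul_of_nonneg_right b2 (by positivity : (0 : ℝ) ≤ (2 : ℝ) ^ (S.D + 4))
    linarith
  have a4 : 1000 * (S.L n + 1) * S.big n * kc S n κ ≤ 1000 * κ * c1 ^ (κ + 1) *
      (S.L n + 1) ^ (κ + 2) * (S.ρ ^ (S.L n + 2) + 8 * 2 ^ S.w n) := by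
    unfold Sch.big kc
    calc _ ≤ 1000 * (S.L n + 1) * (c1 * (S.L n + 1) * (S.ρ ^ (S.L n + 2) + 8 * 2 ^ S.w n)) *
          (κ * (c1 * (S.L n + 1)) ^ κ) := by gcongr
      _ = _ := by rw [mul_pow]; ring
  have a5 := hp (S.L n)
  rw [e1] at a5
  have a6 : (S.N n : ℝ) ^ τ ≤ (2 * (S.k : ℝ)) ^ τ * ((n : ℝ) + 1) ^ τ := by
    rw [← Real.mul_rpow (by positivity) (by positivity)]
    refine Real.rpow_le_rpow (by positivity) ?_ (by linarith)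
    have : (S.N n : ℝ) ≤ S.k * (2 * n + 2) := by exact_mod_cast N_le (n := n) H
    linarith
  have a7 : (S.N n : ℝ) ^ (τ - τ1) * (S.N n : ℝ) ^ τ1 = (S.N n : ℝ) ^ τ := by
    rw [← Real.rpow_add (by linarith), sub_add_cancel]
  calc ((1000 * (S.L n + 1) * S.big n * kc S n κ : ℕ) : ℝ)
      ≤ (1000 * κ * c1 ^ (κ + 1) : ℕ) * ((S.L n : ℝ) + 1) ^ (κ + 2) *
        ((S.ρ ^ (S.L n + 2) + 8 * 2 ^ S.w n : ℕ) : ℝ) := by exact_mod_cast a4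
    _ ≤ (1000 * κ * c1 ^ (κ + 1) : ℕ) * (c * (S.N n : ℝ) ^ (τ - τ1)) *
        (c2 * (S.N n : ℝ) ^ τ1) := by gcongr
    _ = (1000 * κ * c1 ^ (κ + 1) * c2 : ℕ) * c * (S.N n : ℝ) ^ τ := by
        rw [← a7]
        push_cast
        ring
    _ ≤ _ := by
        rw [mul_assoc _ ((2 * (S.k : ℝ)) ^ τ)]
        gcongr

theorem asy_word {S : Sch} (H : S.Ok) (κ : ℕ) : ∃ C w : ℕ, ∀ n : ℕ,
    (S.big n + S.R n + κ + 2) ^ κ < (n + C) ^ w := by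
  refine ⟨2 * S.k + S.ρ ^ 2 + S.ρ + 2 ^ (S.D + 4) + κ + 10, (2 * S.ρ + 14) * κ + 1, fun n => ?_⟩
  have hN := N_le (n := n) H
  have hw := two_w (S := S) (n := n)
  have hk := k_two H
  have hL : S.L n ≤ S.N n :=
    Nat.lt_two_pow_self.le.trans (Nat.pow_le_pow_left hk _)
  have hρ : S.ρ ^ S.L n ≤ S.N n ^ S.ρ := by
    rw [Sch.N, ← pow_mul, mul_comm, pow_mul]
    exact Nat.pow_le_pow_left (Nat.lt_two_pow_self.le.trans (Nat.pow_le_pow_left hk _)) _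
  obtain ⟨M, hM⟩ : ∃ M, M = n + (2 * S.k + S.ρ ^ 2 + S.ρ + 2 ^ (S.D + 4) + κ + 10) := ⟨_, rfl⟩
  rw [← hM]
  have hq : 0 < 2 ^ (S.D + 4) := by positivity
  have m10 : 10 ≤ M := by omega
  have mono : ∀ {a b : ℕ}, a ≤ b → M ^ a ≤ M ^ b := fun h => Nat.pow_le_pow_right (by omega) h
  have step : ∀ a : ℕ, 10 * M ^ a ≤ M ^ (a + 1) := fun a => by
    rw [pow_succ, mul_comm]
    exact Nat.mul_le_mul_left _ m10
  have b1 : S.N n ≤ M ^ 2 := by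
    have : 2 * S.k * (n + 1) ≤ M * M := Nat.mul_le_mul (by omega) (by omega)
    rw [sq]
    linarith
  have b2 : 2 ^ S.w n ≤ M ^ 5 := by
    rw [hw]
    calc _ ≤ M ^ 2 * M ^ 2 * M := Nat.mul_le_mul (Nat.mul_le_mul b1 b1) (by omega)
      _ = _ := by ring
  have b3 : S.w n ≤ M ^ 5 := Nat.lt_two_pow_self.le.trans b2
  have b4 : S.ρ ^ (S.L n + 2) ≤ M ^ (2 * S.ρ + 1) := by
    rw [pow_add, pow_succ M, pow_mul]
    exact Nat.mul_le_mul (hρ.trans (Nat.pow_le_pow_left b1 _)) (by omega)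
  have b5 : M ^ 1 ≤ M ^ 5 := mono (by omega)
  have b6 : M ^ 2 ≤ M ^ 5 := mono (by omega)
  have b7 : M ^ 5 ≤ M ^ (2 * S.ρ + 6) := mono (by omega)
  have b8 : M ^ (2 * S.ρ + 1) ≤ M ^ (2 * S.ρ + 6) := mono (by omega)
  have b9 := step 5
  have b10 := step (2 * S.ρ + 6)
  have b11 := step (2 * S.ρ + 13)
  have b12 : M ^ 5 ≤ M ^ (2 * S.ρ + 13) := mono (by omega)
  rw [pow_one] at b5
  have b13 : S.big n ≤ M ^ (2 * S.ρ + 13) := by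
    calc S.big n ≤ M ^ (5 + 1) * M ^ (2 * S.ρ + 6 + 1) := Nat.mul_le_mul (by omega) (by omega)
      _ = _ := by ring
  have b14 : S.big n + S.R n + κ + 2 ≤ M ^ (2 * S.ρ + 13 + 1) := by
    unfold Sch.R
    omega
  calc _ ≤ (M ^ (2 * S.ρ + 14)) ^ κ := Nat.pow_le_pow_left b14 _
    _ < _ := by
      rw [← pow_mul]
      exact Nat.pow_lt_pow_right (by omega) (by omega)

end Vale.Agent.P305
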