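import Mathlib

/-! Counting lemmas for blocks of random bits. -/

namespace Vale.Agent.P305

open Finset

theorem bits_card {R : ℕ} (o b : ℕ) (h : o + b ≤ R) (Bad : Finset (Fin R → Bool))
    (hu : ∀ r ∈ Bad, ∀ r' ∈ Bad, (∀ i : Fin R, (i.1 < o ∨ o + b ≤ i.1) → r i = r' i) → r = r') :
    Bad.card * 2 ^ b ≤ 2 ^ R := by
  let f : (Fin R → Bool) × (Fin b → Bool) → Fin R → Bool := fun x i =>
    if hi : o ≤ i.1 ∧ i.1 < o + b then x.2 ⟨i.1 - o, by omega⟩ else x.1 i
  have h1 : (Bad ×ˢ (univ : Finset (Fin b → Bool))).card ≤ (univ : Finset (Fin R → Bool)).card := by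
    refine card_le_card_of_injOn f (fun _ _ => mem_univ _) fun x hx y hy e => ?_
    have hx := (mem_product.1 hx).1
    have hy := (mem_product.1 hy).1
    refine Prod.ext (hu _ hx _ hy fun i hi => ?_) (funext fun j => ?_)
    · have := congrFun e i
      simp only [f] at this
      rwa [dif_neg (by omega), dif_neg (by omega)] at this
    · have := congrFun e ⟨o + j, by omega⟩
      simp only [f] at this
      rw [dif_pos (by omega), dif_pos (by omega)] at this
      simpa using this
  simpa using h1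

theorem chain_card {X : Type} [Fintype X] [DecidableEq X] (A : ℕ → X → Prop)
    [∀ t, DecidablePred (A t)] (h0 : ∀ x, A 0 x) (q c m : ℕ)
    (h : ∀ t < m, (univ.filter fun x => A t x ∧ ¬ A (t + 1) x).card * q ≤ c) :
    (univ.filter fun x => ¬ ∀ t ≤ m, A t x).card * q ≤ m * c := by
  have h1 : (univ.filter fun x => ¬ ∀ t ≤ m, A t x) ⊆
      (range m).biUnion fun t => univ.filter fun x => A t x ∧ ¬ A (t + 1) x := by
    intro x hx
    by_contra h2
    refine (mem_filter.1 hx).2 fun t ht => ?_
    induction t with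
    | zero => exact h0 x
    | succ t ih =>
      by_contra h3
      exact h2 (mem_biUnion.2 ⟨t, mem_range.2 ht, mem_filter.2 ⟨mem_univ _, ih (by omega), h3⟩⟩)
  refine (Nat.mul_le_mul_right q ((card_le_card h1).trans card_biUnion_le)).trans ?_
  rw [sum_mul]
  refine (sum_le_card_nsmul _ _ c fun t ht => h t (mem_range.1 ht)).trans_eq ?_
  rw [card_range, smul_eq_mul]

theorem bits_inj (b : ℕ) (f g : ℕ → ℕ) (hf : ∀ t, f t ≤ 1) (hg : ∀ t, g t ≤ 1)
    (h : ∑ t ∈ range b, f t * 2 ^ t = ∑ t ∈ range b, g t * 2 ^ t) : ∀ t < b, f t = g t := by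
  induction b generalizing f g with
  | zero => simp
  | succ b ih =>
    simp only [sum_range_succ', pow_succ, ← mul_assoc, ← sum_mul, pow_zero, mul_one] at h
    have h1 := hf 0
    have h2 := hg 0
    have h3 := ih (fun t => f (t + 1)) (fun t => g (t + 1)) (fun _ => hf _) (fun _ => hg _)
      (by omega)
    intro t ht
    cases t with
    | zero => omega
    | succ t => exact h3 t (by omega)

theorem bits_lt (b : ℕ) (f : ℕ → ℕ) (hf : ∀ t, f t ≤ 1) :
    ∑ t ∈ range b, f t * 2 ^ t < 2 ^ b := by
  induction b with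
  | zero => simp
  | succ b ih =>
    have := Nat.mul_le_mul_right (2 ^ b) (hf b)
    rw [sum_range_succ, pow_succ]
    omega

/-- The vertex set of a matching is covered by a maximum matching. -/
theorem exch {V : Type} [Fintype V] [DecidableEq V] (E : V → V → Prop)
    (μ : V → V) (h1 : ∀ v, μ (μ v) = v) (h2 : ∀ v, μ v ≠ v → E v (μ v)) :
    ∃ ν : V → V, (∀ v, ν (ν v) = v) ∧ (∀ v, ν v ≠ v → E v (ν v)) ∧ (∀ v, μ v ≠ v → ν v ≠ v) ∧
      ∀ σ : V → V, (∀ v, σ (σ v) = v) → (∀ v, σ v ≠ v → E v (σ v)) →
        (univ.filter fun v => σ v ≠ v).card ≤ (univ.filter fun v => ν v ≠ v).card := by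
  classical
  let S : Finset (V → V) := univ.filter fun σ => (∀ v, σ (σ v) = v) ∧ ∀ v, σ v ≠ v → E v (σ v)
  let c : (V → V) → ℕ := fun σ => (univ.filter fun v => σ v ≠ v).card
  let d : (V → V) → ℕ := fun σ => (univ.filter fun v => σ v = μ v ∧ μ v ≠ v).card
  have hS : μ ∈ S := mem_filter.2 ⟨mem_univ _, h1, h2⟩
  obtain ⟨ν, hν, hm⟩ := exists_max_image S (fun σ => toLex (c σ, d σ)) ⟨μ, hS⟩
  obtain ⟨n1, n2⟩ := (mem_filter.1 hν).2
  refine ⟨ν, n1, n2, fun v hv hn => ?_, fun σ s1 s2 => ?_⟩
  · let w := μ v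
    let u := ν w
    have hw : w ≠ v := hv
    have hu : u ≠ v := fun e => hw (by rw [← n1 w]; exact (congrArg ν e).trans hn)
    let σ : V → V := fun x => if x = v then w else if x = w then v else if x = u then u else ν x
    have e1 : ν u = w := n1 w
    have e2 : μ w = v := h1 v
    have sv : σ v = w := by simp [σ]
    have sw : σ w = v := by simp [σ, hw]
    have su : u ≠ w → σ u = u := fun h => by simp [σ, hu, h]
    have sx : ∀ x, x ≠ v → x ≠ w → x ≠ u → σ x = ν x := fun x a b c => by simp [σ, a, b, c]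
    have hσ : σ ∈ S := by
      refine mem_filter.2 ⟨mem_univ _, fun x => ?_, fun x hx => ?_⟩
      · by_cases a : x = v
        · rw [a, sv, sw]
        by_cases b : x = w
        · rw [b, sw, sv]
        by_cases c : x = u
        · rw [c, su (c ▸ b), su (c ▸ b)]
        rw [sx x a b c, sx _ (fun e => a (by rw [← n1 x, e, hn])) (fun e => c (by rw [← n1 x, e]))
          (fun e => b (by rw [← n1 x, e, e1])), n1]
      · by_cases a : x = v
        · rw [a, sv]
          exact h2 v hv
        by_cases b : x = w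
        · rw [b, sw, ← e2]
          exact h2 w (by rw [e2]; exact hw.symm)
        by_cases c : x = u
        · exact absurd (by rw [c, su (c ▸ b)]) hx
        rw [sx x a b c] at hx ⊢
        exact n2 x hx
    have k1 : c ν ≤ c σ := by
      have : (univ.filter fun x => ν x ≠ x) ⊆ insert u ((univ.filter fun x => σ x ≠ x).erase v) := by
        intro x hx
        have hx := (mem_filter.1 hx).2
        by_cases c : x = u
        · exact c ▸ mem_insert_self _ _
        have a : x ≠ v := fun e => hx (by rw [e, hn])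
        refine mem_insert_of_mem (mem_erase.2 ⟨a, mem_filter.2 ⟨mem_univ _, ?_⟩⟩)
        by_cases b : x = w
        · rw [b, sw]
          exact hw.symm
        · rwa [sx x a b c]
      refine (card_le_card this).trans ((card_insert_le _ _).trans_eq ?_)
      exact card_erase_add_one (mem_filter.2 ⟨mem_univ _, by rw [sv]; exact hw⟩)
    have k2 : d ν < d σ := by
      refine card_lt_card ⟨fun x hx => ?_, fun hx => ?_⟩
      · obtain ⟨x1, x2⟩ := (mem_filter.1 hx).2
        refine mem_filter.2 ⟨mem_univ _, ?_, x2⟩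
        have a : x ≠ v := fun e => x2 (by rw [← x1, e, hn])
        have b : x ≠ w := fun e => hu (by rw [← e2, ← e, ← x1, e])
        have c : x ≠ u := fun e => hu (by rw [← e, ← h1 x, ← x1, e, e1, e2])
        rw [sx x a b c, x1]
      · have := (mem_filter.1 (hx (mem_filter.2 ⟨mem_univ v, sv, hv⟩))).2.1
        exact hv (by rw [← this, hn])
    have := hm σ hσ
    rw [Prod.Lex.toLex_le_toLex] at this
    omega
  · have := hm σ (mem_filter.2 ⟨mem_univ _, s1, s2⟩)
    rw [Prod.Lex.toLex_le_toLex] at this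
    change c σ ≤ c ν
    omega

end Vale.Agent.P305
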