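import Vale.Agent.P305.Stmt

/-! Maximum involutions along edges are maximum matchings. -/

namespace Vale.Agent.P305

open Finset Vale.Agent.P315

variable {n : ℕ} {G : SimpleGraph (Fin n)}

open Classical in
theorem match_card {M : G.Subgraph} (h : M.IsMatching) :
    2 * M.edgeSet.ncard = (univ.filter fun v => v ∈ M.verts).card := by
  have h1 := SimpleGraph.sum_degrees_eq_twice_card_edges M.spanningCoe
  have h2 : M.edgeSet.ncard = M.spanningCoe.edgeFinset.card := by
    rw [← Set.ncard_coe_finset, SimpleGraph.coe_edgeFinset]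
    congr 1
  rw [h2, ← h1, card_filter]
  refine sum_congr rfl fun v _ => ?_
  rw [← SimpleGraph.card_neighborFinset_eq_degree]
  split_ifs with hv
  · obtain ⟨w, hw, hu⟩ := h hv
    refine card_eq_one.2 ⟨w, ?_⟩
    ext x
    simp only [SimpleGraph.mem_neighborFinset, SimpleGraph.Subgraph.spanningCoe_adj, mem_singleton]
    exact ⟨hu x, fun e => e ▸ hw⟩
  · refine card_eq_zero.2 (eq_empty_of_forall_notMem fun x hx => hv ?_)
    simp only [SimpleGraph.mem_neighborFinset, SimpleGraph.Subgraph.spanningCoe_adj] at hx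
    exact M.edge_vert hx

theorem out_of_inv {μ : Fin n → Fin n} (h1 : ∀ v, μ (μ v) = v) (h2 : ∀ v, μ v ≠ v → G.Adj v (μ v))
    (h3 : ∀ σ : Fin n → Fin n, (∀ v, σ (σ v) = v) → (∀ v, σ v ≠ v → G.Adj v (σ v)) →
      (univ.filter fun v => σ v ≠ v).card ≤ (univ.filter fun v => μ v ≠ v).card)
    {m : Mem} (hm : ∀ u : Fin n, m 4 u = if μ u = u then 0 else (μ u : ℕ) + 1) : Out G m := by
  classical
  let M : G.Subgraph :=
    { verts := {v | μ v ≠ v}
      Adj := fun u v => μ u = v ∧ μ u ≠ u
      adj_sub := fun h => h.1 ▸ h2 _ h.2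
      edge_vert := fun h => h.2
      symm := ⟨fun u v h => ⟨by rw [← h.1, h1], by rw [← h.1, h1]; exact h.2.symm⟩⟩ }
  have hM : M.IsMatching := fun v hv => ⟨μ v, ⟨rfl, hv⟩, fun w hw => hw.1.symm⟩
  refine ⟨M, hM, fun M' hM' => ?_, fun u v => ?_⟩
  · let σ : Fin n → Fin n := fun v => if h : v ∈ M'.verts then (hM' h).choose else v
    have s1 : ∀ v, v ∈ M'.verts → M'.Adj v (σ v) := fun v hv => by
      simp only [σ, dif_pos hv]
      exact (hM' hv).choose_spec.1
    have s2 : ∀ v, σ v ≠ v ↔ v ∈ M'.verts := fun v =>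
      ⟨fun h => by_contra fun hv => h (dif_neg hv), fun hv => (M'.adj_sub (s1 v hv)).ne'⟩
    have h4 := h3 σ (fun v => ?_) fun v hv => M'.adj_sub (s1 v ((s2 v).1 hv))
    · have h5 := match_card hM'
      have h6 := match_card hM
      rw [filter_congr fun v _ => s2 v] at h4
      have h8 : 2 * M'.edgeSet.ncard ≤ 2 * M.edgeSet.ncard := by
        rw [h5, h6]
        convert h4
      omega
    · by_cases hv : v ∈ M'.verts
      · exact hM'.eq_of_adj_left (s1 _ (M'.edge_vert (s1 v hv).symm)) (s1 v hv).symm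
      · have : σ v = v := dif_neg hv
        rw [this, this]
  · change μ u = v ∧ μ u ≠ u ↔ _
    rw [hm]
    split_ifs with h
    · simp [h]
    · simp [h, Fin.ext_iff]

end Vale.Agent.P305
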