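import Vale.Agent.P305.Tutte

/-! The ideal run of the three sweeps. -/

namespace Vale.Agent.P305

open Finset Matrix Classical

noncomputable section

set_option linter.unusedSectionVars false

variable {V F Ω : Type} [Fintype V] [DecidableEq V] [Field F] [Fintype Ω]

/-- `(a, b)` is the pair `x` in some order. -/
def pr (x : V × V) (a b : V) : Prop := (a = x.1 ∧ b = x.2) ∨ (a = x.2 ∧ b = x.1)

/-- Take the entries of the pair `x` from `G`. -/
def setE (G T : Matrix V V F) (x : V × V) : Matrix V V F :=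
  fun a b => if pr x a b then G a b else T a b

/-- One step of a sweep. -/
def stepT (G T : Matrix V V F) (x : V × V) : Matrix V V F :=
  if (setE G T x).det ≠ 0 then setE G T x else T

/-- Entries in `D` from `X`, the others from `B`. -/
def mix (D : V → V → Prop) (B X : Matrix V V F) : Matrix V V F :=
  fun a b => if D a b then X a b else B a b

def nx (K D : V → V → Prop) (x : V × V) (a b : V) : Prop :=
  (pr x a b ∧ K a b) ∨ (¬ pr x a b ∧ D a b)

def delI (K S : V → V → Prop) (x : V × V) : V → V → Prop := if PM (nx K S x) then nx K S x else S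

/-- A random skew matrix with independent entries. -/
structure RX (X : Ω → Matrix V V F) (q c : ℕ) : Prop where
  skew : ∀ ω a b, X ω a b = -X ω b a
  ne : ∀ ω a b, a ≠ b → X ω a b ≠ 0
  cnt : ∀ r s, r ≠ s → ∀ Bad : Finset Ω, (∀ ω ∈ Bad, ∀ ω' ∈ Bad,
    (∀ a b, ¬ pr (r, s) a b → X ω a b = X ω' a b) → X ω r s = X ω' r s) → Bad.card * q ≤ c

variable {K D D' S : V → V → Prop} {B : Matrix V V F} {X : Ω → Matrix V V F} {q c : ℕ}

theorem pr_symm {x : V × V} {a b : V} : pr x a b ↔ pr x b a := by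
  unfold pr
  tauto

theorem nx_symm (hK : ∀ a b, K a b → K b a) (hD : ∀ a b, D a b → D b a) (x : V × V) (a b : V)
    (h : nx K D x a b) : nx K D x b a :=
  h.imp (fun h => ⟨pr_symm.1 h.1, hK _ _ h.2⟩) fun h => ⟨fun e => h.1 (pr_symm.1 e), hD _ _ h.2⟩

theorem setE_mix (Y : Matrix V V F) (x : V × V) :
    setE (mix K B Y) (mix D B Y) x = mix (nx K D x) B Y := by
  ext a b
  by_cases h : pr x a b <;> simp [setE, mix, nx, h]

theorem mix_skew {Y : Matrix V V F} (hD : ∀ a b, D a b → D b a) (hB : ∀ a b, B a b = -B b a)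
    (hY : ∀ a b, Y a b = -Y b a) (a b : V) : mix D B Y a b = -mix D B Y b a := by
  unfold mix
  by_cases h : D a b
  · rw [if_pos h, if_pos (hD _ _ h), hY]
  · rw [if_neg h, if_neg fun e => h (hD _ _ e), hB]

theorem step_card (h2 : (2 : F) ≠ 0) (hX : RX X q c) (hB : ∀ a b, B a b = -B b a)
    (hD : ∀ a b, D a b → D b a) (hD' : ∀ a b, D' a b → D' b a) (h : ∀ a b, D a b → D' a b)
    (x : V × V) (h' : ∀ a b, ¬ pr x a b → D' a b → D a b) :
    (univ.filter fun ω => (mix D B (X ω)).det ≠ 0 ∧ (mix D' B (X ω)).det = 0).card * q ≤ c := by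
  obtain ⟨r, s⟩ := x
  have z0 : ∀ {M : Matrix V V F}, (∀ a b, M a b = -M b a) → ∀ a, M a a = 0 := fun hM a =>
    (mul_eq_zero.1 (by linear_combination hM a a)).resolve_left h2
  have off : ∀ Y : Matrix V V F, ∀ a b, ¬ pr (r, s) a b → mix D' B Y a b = mix D B Y a b :=
    fun Y a b e => if_congr ⟨h' a b e, h a b⟩ rfl rfl
  by_cases hc : r ≠ s ∧ D' r s ∧ ¬ D r s
  · refine hX.cnt r s hc.1 _ fun ω hω ω' hω' e => ?_
    obtain ⟨a1, a2⟩ := (mem_filter.1 hω).2
    obtain ⟨b1, b2⟩ := (mem_filter.1 hω').2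
    have e1 : mix D B (X ω') = mix D B (X ω) := by
      ext a b
      unfold mix
      split_ifs with k
      · refine (e a b ?_).symm
        rintro (⟨rfl, rfl⟩ | ⟨rfl, rfl⟩)
        · exact hc.2.2 k
        · exact hc.2.2 (hD _ _ k)
      · rfl
    have f1 := sing_upd h2 (mix_skew hD hB (hX.skew ω)) (mix_skew hD' hB (hX.skew ω)) a1 a2
      (r := r) (s := s) fun a b c1 c2 => off _ a b fun k => k.elim c1 c2
    have f2 := sing_upd h2 (mix_skew hD hB (hX.skew ω')) (mix_skew hD' hB (hX.skew ω')) b1 b2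
      (r := r) (s := s) fun a b c1 c2 => off _ a b fun k => k.elim c1 c2
    have g : ∀ Y : Matrix V V F, mix D' B Y r s = Y r s := fun Y => if_pos hc.2.1
    rw [g] at f1 f2
    rw [e1] at f2
    have := mul_right_cancel₀ (right_ne_zero_of_mul_eq_one f1) (f1.trans f2.symm)
    exact sub_left_injective this
  · rw [filter_eq_empty_iff.2, card_empty, zero_mul]
    · exact Nat.zero_le _
    rintro ω - ⟨a1, a2⟩
    refine a1 (a2 ▸ congrArg det ?_)
    ext a b
    by_cases e : pr (r, s) a b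
    · by_cases k : a = b
      · rw [k, z0 (mix_skew hD hB (hX.skew ω)), z0 (mix_skew hD' hB (hX.skew ω))]
      refine if_congr ⟨h a b, fun k' => by_contra fun k'' => hc ?_⟩ rfl rfl
      rcases e with ⟨rfl, rfl⟩ | ⟨rfl, rfl⟩
      · exact ⟨k, k', k''⟩
      · exact ⟨Ne.symm k, hD' _ _ k', fun j => k'' (hD _ _ j)⟩
    · exact (off _ a b e).symm

theorem card_split {P Q R : Ω → Prop} [DecidablePred P] [DecidablePred Q] [DecidablePred R] (h : ∀ ω, P ω → Q ω ∨ R ω) :
    (univ.filter P).card ≤ (univ.filter Q).card + (univ.filter R).card := by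
  refine (card_le_card fun ω hω => ?_).trans (card_union_le _ _)
  simpa using h ω (mem_filter.1 hω).2

theorem add_card (h2 : (2 : F) ≠ 0) (hX : RX X q c) (hB : ∀ a b, B a b = -B b a)
    (hK : ∀ a b, K a b → K b a) (l : List (V × V)) (hD : ∀ a b, D a b → D b a)
    (h : ∀ a b, D a b → K a b) :
    (univ.filter fun ω => (mix D B (X ω)).det ≠ 0 ∧ l.foldl (stepT (mix K B (X ω))) (mix D B (X ω)) ≠
      mix (l.foldl (nx K) D) B (X ω)).card * q ≤ l.length * c := by
  induction l generalizing D with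
  | nil => simp
  | cons x l ih =>
    have h1 := ih (nx_symm hK hD x) fun a b e => e.elim And.right fun e => h a b e.2
    have h3 := step_card h2 hX hB hD (nx_symm hK hD x) (fun a b e => by
      by_cases k : pr x a b
      · exact Or.inl ⟨k, h a b e⟩
      · exact Or.inr ⟨k, e⟩) x fun a b k e => e.elim (fun e => absurd e.1 k) And.right
    rw [List.length_cons, add_mul, one_mul]
    refine le_trans ?_ (Nat.add_le_add h1 h3)
    rw [← add_mul]
    refine Nat.mul_le_mul_right q (card_split fun ω hω => ?_)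
    by_cases k : (mix (nx K D x) B (X ω)).det = 0
    · exact Or.inr ⟨hω.1, k⟩
    · refine Or.inl ⟨k, ?_⟩
      have := hω.2
      rwa [List.foldl_cons, List.foldl_cons, stepT, setE_mix, if_pos k] at this

theorem nx_all (l : List (V × V)) {a b : V} (h : (∃ x ∈ l, pr x a b) ∨ (D a b ↔ K a b)) :
    l.foldl (nx K) D a b ↔ K a b := by
  induction l generalizing D with
  | nil => simpa using h
  | cons x l ih =>
    refine ih ?_
    by_cases k : pr x a b
    · exact Or.inr (by simp [nx, k])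
    · refine h.imp (fun ⟨y, h1, h2⟩ => ⟨y, (List.mem_cons.1 h1).resolve_left fun e => k (e ▸ h2), h2⟩)
        fun h => by simpa [nx, k] using h

theorem pr_eq {x : V × V} {a b : V} (h : pr x a b) : pr x = pr (a, b) := by
  obtain ⟨r, s⟩ := x
  rcases h with ⟨rfl, rfl⟩ | ⟨rfl, rfl⟩
  · rfl
  · ext c d
    exact or_comm

theorem delI_step (hK : ∀ a b, K a b → K b a) (hS : ∀ a b, S a b → S b a)
    (h : ∀ a b, K a b → S a b) (x : V × V) :
    (∀ a b, delI K S x a b → delI K S x b a) ∧ (∀ a b, K a b → delI K S x a b) ∧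
      (∀ a b, delI K S x a b → S a b) ∧ ∀ a b, ¬ pr x a b → S a b → delI K S x a b := by
  unfold delI
  split_ifs
  · refine ⟨nx_symm hK hS x, fun a b e => ?_, fun a b e => e.elim (fun e => h a b e.2) And.right,
      fun a b k e => Or.inr ⟨k, e⟩⟩
    by_cases k : pr x a b
    · exact Or.inl ⟨k, e⟩
    · exact Or.inr ⟨k, h a b e⟩
  · exact ⟨hS, h, fun _ _ => id, fun _ _ _ => id⟩

theorem del_card (h2 : (2 : F) ≠ 0) (hc : ∀ k : ℕ, k ≤ Fintype.card V → (k : F) = 1 → k = 1)
    (hX : RX X q c) (hK : ∀ a b, K a b → K b a) (l : List (V × V)) (hS : ∀ a b, S a b → S b a)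
    (h : ∀ a b, K a b → S a b) :
    (univ.filter fun ω => (mix S 0 (X ω)).det = 0 ∨
      l.foldl (stepT (mix K 0 (X ω))) (mix S 0 (X ω)) ≠ mix (l.foldl (delI K) S) 0 (X ω)).card * q ≤
      (univ.filter fun ω => (mix (l.foldl (delI K) S) 0 (X ω)).det = 0).card * q + l.length * c := by
  induction l generalizing S with
  | nil =>
    refine le_trans (Nat.mul_le_mul_right q (card_le_card fun ω hω => ?_)) (Nat.le_add_right _ _)
    exact mem_filter.2 ⟨mem_univ _, by simpa using hω⟩
  | cons x l ih =>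
    obtain ⟨k1, k2, k3, k4⟩ := delI_step hK hS h x
    have h1 := ih k1 k2
    have h3 := step_card (B := 0) h2 hX (by simp) k1 hS k3 x k4
    rw [List.length_cons, add_mul, one_mul, ← add_assoc]
    refine le_trans ?_ (Nat.add_le_add h1 h3)
    rw [← add_mul]
    refine Nat.mul_le_mul_right q (card_split fun ω hω => ?_)
    by_cases k : (mix (delI K S x) 0 (X ω)).det = 0
    · exact Or.inl (Or.inl k)
    refine hω.symm.imp (fun e => Or.inr ?_) fun e => ⟨k, e⟩
    have e1 : stepT (mix K 0 (X ω)) (mix S 0 (X ω)) x = mix (delI K S x) 0 (X ω) := by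
      rw [stepT, setE_mix]
      unfold delI at k ⊢
      by_cases j : PM (nx K S x)
      · rw [if_pos j] at k ⊢
        exact if_pos k
      · rw [if_neg j]
        exact if_neg fun j' => j ((pm_det h2 hc _ (mix_skew (B := 0) (nx_symm hK hS x) (by simp)
          (hX.skew ω)) j').mono fun a b e => by_contra fun e' => e (if_neg e'))
    rwa [List.foldl_cons, List.foldl_cons, e1] at e

theorem del_min (hK : ∀ a b, K a b → K b a) (l : List (V × V)) (hS : ∀ a b, S a b → S b a)
    (h : ∀ a b, K a b → S a b) (hp : PM S) :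
    (∀ a b, l.foldl (delI K) S a b → l.foldl (delI K) S b a) ∧
      (∀ a b, K a b → l.foldl (delI K) S a b) ∧ (∀ a b, l.foldl (delI K) S a b → S a b) ∧
      PM (l.foldl (delI K) S) ∧ ∀ x ∈ l, l.foldl (delI K) S x.1 x.2 → ¬ K x.1 x.2 →
        ¬ PM fun a b => ¬ pr x a b ∧ l.foldl (delI K) S a b := by
  induction l generalizing S with
  | nil => exact ⟨hS, h, fun _ _ => id, hp, by simp⟩
  | cons x l ih =>
    obtain ⟨k1, k2, k3, -⟩ := delI_step hK hS h x
    obtain ⟨j1, j2, j3, j4, j5⟩ := ih k1 k2 (by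
      unfold delI
      split_ifs with e
      · exact e
      · exact hp)
    refine ⟨j1, j2, fun a b e => k3 a b (j3 a b e), j4, fun y hy e1 e2 e3 => ?_⟩
    rcases List.mem_cons.1 hy with rfl | hy
    · have e4 := j3 _ _ e1
      have e5 : PM (nx K S y) := e3.mono fun a b e => Or.inr ⟨e.1, k3 a b (j3 a b e.2)⟩
      rw [delI, if_pos e5] at e4
      exact e4.elim (fun e => e2 e.2) fun e => e.1 (Or.inl ⟨rfl, rfl⟩)
    · exact j5 y hy e1 e2 e3

theorem del_min' (hK : ∀ a b, K a b → K b a) {l : List (V × V)} (hS : ∀ a b, S a b → S b a)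
    (h : ∀ a b, K a b → S a b) (hp : PM S) (hl : ∀ a b, a ≠ b → ∃ x ∈ l, pr x a b) (a b : V)
    (h1 : a ≠ b) (h2 : l.foldl (delI K) S a b) (h3 : ¬ K a b) :
    ¬ PM fun c d => ¬ pr (a, b) c d ∧ l.foldl (delI K) S c d := by
  obtain ⟨j1, -, -, -, j5⟩ := del_min hK l hS h hp
  obtain ⟨x, x1, x2⟩ := hl a b h1
  rw [← pr_eq x2]
  rcases x2 with ⟨rfl, rfl⟩ | ⟨rfl, rfl⟩
  · exact j5 x x1 h2 h3
  · exact j5 x x1 (j1 _ _ h2) fun e => h3 (hK _ _ e)

end

end Vale.Agent.P305
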