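import Vale.Agent.P305.Ideal

/-! The three sweeps find a maximum matching. -/

namespace Vale.Agent.P305

open Finset Matrix Classical

noncomputable section

set_option linter.unusedSectionVars false

variable {V F Ω : Type} [Fintype V] [DecidableEq V] [Field F] [Fintype Ω]

/-- A graph `E` on the left half `L`, and the pairing `τ` of the two halves. -/
structure Dbl (E : V → V → Prop) (L : V → Prop) (τ : V → V) : Prop where
  tt : ∀ v, τ (τ v) = v
  lt : ∀ v, L (τ v) ↔ ¬ L v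
  sy : ∀ a b, E a b → E b a
  ir : ∀ a, ¬ E a a
  le : ∀ a b, E a b → L a

/-- The edges of `E` and the clique on the right half. -/
def K2 (E : V → V → Prop) (L : V → Prop) (a b : V) : Prop := E a b ∨ (¬ L a ∧ ¬ L b ∧ a ≠ b)

/-- The full auxiliary graph. -/
def K1 (E : V → V → Prop) (L : V → Prop) (τ : V → V) (a b : V) : Prop := K2 E L a b ∨ b = τ a

variable {E : V → V → Prop} {L : V → Prop} {τ : V → V}

theorem Dbl.s2 (h : Dbl E L τ) (a b : V) (e : K2 E L a b) : K2 E L b a :=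
  e.imp (h.sy a b) fun e => ⟨e.2.1, e.1, e.2.2.symm⟩

theorem Dbl.s1 (h : Dbl E L τ) (a b : V) (e : K1 E L τ a b) : K1 E L τ b a :=
  e.imp (h.s2 a b) fun e => by rw [e, h.tt]

theorem Dbl.ne (h : Dbl E L τ) (v : V) : τ v ≠ v := fun e => by
  have := h.lt v
  rw [e] at this
  exact iff_not_self this

theorem Dbl.ir1 (h : Dbl E L τ) (a : V) : ¬ K1 E L τ a a := fun e =>
  e.elim (fun e => e.elim (h.ir a) fun e => e.2.2 rfl) (h.ne a).symm

theorem ideal_max (h : Dbl E L τ) (l : List (V × V)) (hl : ∀ a b, a ≠ b → ∃ x ∈ l, pr x a b) :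
    ∃ μ : V → V, (∀ v, μ (μ v) = v ∧ μ v ≠ v) ∧
      (∀ a b, l.foldl (delI fun _ _ => False) (l.foldl (delI (K2 E L)) (K1 E L τ)) a b ↔ b = μ a) ∧
      (∀ a, L a → L (μ a) → E a (μ a)) ∧
      ∀ σ : V → V, (∀ v, σ (σ v) = v) → (∀ v, σ v ≠ v → E v (σ v)) →
        (univ.filter fun v => σ v ≠ v).card ≤ (univ.filter fun v => L v ∧ L (μ v)).card := by
  obtain ⟨a1, a2, a3, a4, -⟩ := del_min h.s2 l h.s1 (fun _ _ => Or.inl)
    ⟨τ, fun v => ⟨h.tt v, h.ne v, Or.inr rfl⟩⟩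
  have a5 := del_min' h.s2 h.s1 (fun _ _ => Or.inl) ⟨τ, fun v => ⟨h.tt v, h.ne v, Or.inr rfl⟩⟩ hl
  obtain ⟨-, -, b3, ⟨μ, hμ⟩, -⟩ := del_min (K := fun _ _ => False) (fun _ _ => id) l a1
    (fun _ _ => False.elim) a4
  have b5 := del_min' (K := fun _ _ => False) (fun _ _ => id) a1 (fun _ _ => False.elim) a4 hl
  have c1 : ∀ a, L a → (L (μ a) ∧ E a (μ a)) ∨ μ a = τ a := fun a ha => by
    rcases a3 _ _ (b3 _ _ (hμ a).2.2) with (e | e) | e
    · exact Or.inl ⟨h.le _ _ (h.sy _ _ e), e⟩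
    · exact absurd ha e.1
    · exact Or.inr e
  have c2 : ∀ a, L a → L (μ a) → E a (μ a) := fun a ha hb =>
    (c1 a ha).elim And.right fun e => absurd ha ((h.lt a).1 (e ▸ hb))
  refine ⟨μ, fun v => ⟨(hμ v).1, (hμ v).2.1⟩, fun a b => ⟨fun e => by_contra fun e' => ?_,
    fun e => e ▸ (hμ a).2.2⟩, c2, ?_⟩
  · refine b5 a b (fun k => h.ir1 a (a3 _ _ (b3 _ _ (k ▸ e)))) e id ⟨μ, fun v => ⟨(hμ v).1, (hμ v).2.1, ?_, (hμ v).2.2⟩⟩
    rintro (⟨rfl, rfl⟩ | ⟨rfl, rfl⟩)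
    · exact e' rfl
    · exact e' (hμ v).1.symm
  obtain ⟨ν, n1, n2, n3, n4⟩ := exch E (fun v => if L v ∧ L (μ v) then μ v else v) (fun v => by
    by_cases e : L v ∧ L (μ v)
    · rw [if_pos e, if_pos ⟨e.2, by rw [(hμ v).1]; exact e.1⟩, (hμ v).1]
    · rw [if_neg e, if_neg e]) (fun v hv => by
    by_cases e : L v ∧ L (μ v)
    · rw [if_pos e]
      exact c2 v e.1 e.2
    · exact absurd (if_neg e) hv)
  refine fun σ s1 s2 => (n4 σ s1 s2).trans (card_le_card fun v hv => ?_)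
  have hv := (mem_filter.1 hv).2
  have lv := h.le _ _ (n2 v hv)
  refine mem_filter.2 ⟨mem_univ _, lv, by_contra fun hn => ?_⟩
  have c3 : ∀ a, L a → ¬ L (μ a) → l.foldl (delI (K2 E L)) (K1 E L τ) a (τ a) := fun a ha hb => by
    rw [← (c1 a ha).resolve_left fun e => hb e.1]
    exact b3 _ _ (hμ a).2.2
  have c4 : ∀ a, L a → ν a = a → l.foldl (delI (K2 E L)) (K1 E L τ) a (τ a) := fun a ha hb =>
    c3 a ha fun e => n3 a (by rw [if_pos ⟨ha, e⟩]; exact (hμ a).2.1) hb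
  have c5 : ∀ a, ν a ≠ a → L (ν a) := fun a ha => h.le _ _ (h.sy _ _ (n2 a ha))
  have tv : ¬ L (τ v) := fun e => (h.lt v).1 e lv
  refine a5 v (τ v) (h.ne v).symm (c3 v lv hn) (fun e => e.elim (fun e => tv (h.le _ _ (h.sy _ _ e)))
    fun e => e.1 lv) ⟨fun a => if L a then (if ν a = a then τ a else ν a) else
      (if ν (τ a) = τ a then τ a else τ (ν (τ a))), fun a => ?_⟩
  by_cases la : L a
  · have ta : ¬ L (τ a) := fun e => (h.lt a).1 e la
    by_cases e : ν a = a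
    · simp only [if_pos la, if_pos e, if_neg ta, h.tt]
      refine ⟨trivial, h.ne a, ?_, c4 a la e⟩
      rintro (⟨rfl, -⟩ | ⟨rfl, -⟩)
      · exact hv e
      · exact tv la
    · simp only [if_pos la, if_neg e, if_pos (c5 a e), n1, if_neg (Ne.symm e)]
      refine ⟨trivial, e, ?_, a2 _ _ (Or.inl (n2 a e))⟩
      rintro (⟨-, k⟩ | ⟨rfl, -⟩)
      · exact tv ((congrArg L k).mp (c5 a e))
      · exact tv la
  · have ta : L (τ a) := (h.lt a).2 la
    by_cases e : ν (τ a) = τ a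
    · simp only [if_neg la, if_pos e, if_pos ta, h.tt]
      refine ⟨trivial, h.ne a, ?_, a1 _ _ (by simpa only [h.tt] using c4 _ ta e)⟩
      rintro (⟨rfl, -⟩ | ⟨-, k⟩)
      · exact la lv
      · exact hv (by simpa only [k] using e)
    · have k1 : ¬ L (τ (ν (τ a))) := fun k => (h.lt _).1 k (c5 _ e)
      have k2 : τ (ν (τ a)) ≠ a := fun k => e (by rw [← h.tt (ν (τ a)), k])
      simp only [if_neg la, if_neg e, if_neg k1, h.tt, n1, if_neg (Ne.symm e)]
      refine ⟨trivial, k2, ?_, a2 _ _ (Or.inr ⟨la, k1, k2.symm⟩)⟩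
      rintro (⟨rfl, -⟩ | ⟨-, k⟩)
      · exact la lv
      · exact k1 ((congrArg L k).mpr lv)

theorem ideal_main (h2 : (2 : F) ≠ 0) (hc : ∀ k : ℕ, k ≤ Fintype.card V → (k : F) = 1 → k = 1)
    (h : Dbl E L τ) {X : Ω → Matrix V V F} {q c : ℕ} (hX : RX X q c) {B : Matrix V V F}
    (hB : ∀ a b, B a b = -B b a) (hB' : ∀ a b, B a b ≠ 0 ↔ b = τ a)
    (l : List (V × V)) (hl : ∀ a b, a ≠ b → ∃ x ∈ l, pr x a b) :
    ∃ μ : V → V, (∀ v, μ (μ v) = v ∧ μ v ≠ v) ∧ (∀ a, L a → L (μ a) → E a (μ a)) ∧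
      (∀ σ : V → V, (∀ v, σ (σ v) = v) → (∀ v, σ v ≠ v → E v (σ v)) →
        (univ.filter fun v => σ v ≠ v).card ≤ (univ.filter fun v => L v ∧ L (μ v)).card) ∧
      (univ.filter fun ω => ¬ ∀ a b, l.foldl (stepT 0) (l.foldl (stepT (mix (K2 E L) 0 (X ω)))
        (l.foldl (stepT (mix (K1 E L τ) 0 (X ω))) B)) a b ≠ 0 ↔ b = μ a).card * q ≤
        4 * l.length * c := by
  obtain ⟨μ, m1, m2, m3, m4⟩ := ideal_max h l hl
  refine ⟨μ, m1, m3, m4, ?_⟩
  obtain ⟨a1, -⟩ := del_min h.s2 l h.s1 (fun _ _ => Or.inl)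
    ⟨τ, fun v => ⟨h.tt v, h.ne v, Or.inr rfl⟩⟩
  have e0 : ∀ Y : Matrix V V F, ∀ Z, mix (fun _ _ => False) Y Z = Y := fun Y Z => by
    ext a b
    exact if_neg id
  have e1 : ∀ Y : Matrix V V F, mix (K1 E L τ) B Y = mix (K1 E L τ) 0 Y := fun Y => by
    ext a b
    unfold mix
    split_ifs with e
    · rfl
    · exact by_contra fun k => e (Or.inr ((hB' a b).1 k))
  have e2 : l.foldl (nx (K1 E L τ)) (fun _ _ => False) = K1 E L τ := by
    ext a b
    refine nx_all l ?_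
    by_cases e : a = b
    · exact Or.inr (iff_of_false id (e ▸ h.ir1 a))
    · exact Or.inl (hl a b e)
  have e3 : ∀ ω a b, mix (l.foldl (delI fun _ _ => False) (l.foldl (delI (K2 E L)) (K1 E L τ))) 0
      (X ω) a b ≠ 0 ↔ b = μ a := fun ω a b => by
    unfold mix
    rw [← m2]
    split_ifs with e
    · exact iff_of_true (hX.ne ω a b fun k => (m1 a).2 (((m2 a b).1 e).symm.trans k.symm)) e
    · exact iff_of_false (fun k => k rfl) e
  have d0 : B.det ≠ 0 := det_pm h.tt (fun v => (hB' _ _).2 rfl) fun a b e =>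
    by_contra fun k => e ((hB' a b).1 k)
  have p1 := add_card (D := fun _ _ => False) h2 hX hB h.s1 l (fun _ _ => id) fun _ _ => False.elim
  have p2 := del_card h2 hc hX h.s2 l h.s1 fun _ _ => Or.inl
  have p3 := del_card (K := fun _ _ => False) h2 hc hX (fun _ _ => id) l a1 fun _ _ => False.elim
  rw [filter_eq_empty_iff.2 (fun ω _ => det_pm (fun v => (m1 v).1) (fun v => (e3 ω _ _).2 rfl)
    fun a b e => by_contra fun k => e ((e3 ω a b).1 k)), card_empty, zero_mul, zero_add] at p3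
  have p4 := (Nat.mul_le_mul_right q (card_le_card (monotone_filter_right univ
    fun ω _ e => Or.inl e))).trans p3
  have p5 := p2.trans (Nat.add_le_add_right p4 _)
  refine le_trans ?_ ((Nat.add_le_add (Nat.add_le_add p1 p5) p3).trans_eq (by ring))
  rw [← add_mul, ← add_mul]
  refine Nat.mul_le_mul_right q ((card_split (Q := fun ω => _ ∨ _) fun ω hω => ?_).trans
    (Nat.add_le_add_right (card_split fun _ => id) _))
  by_contra hn
  simp only [not_or, not_and, not_not, e0, e1, e2] at hn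
  refine hω fun a b => ?_
  rw [hn.1.1 d0, hn.1.2.2, hn.2.2]
  exact e3 ω a b

end

end Vale.Agent.P305
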