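import Vale.Agent.P305.Par

/-! Parameters. Hints: all by fill_ex / rec_st_ex (sequential fills may read earlier cells). Array 29: cell e = Nat.clog k e for e < 2 n + 3 (Nat.clog_of_two_le: clog b e = clog b ((e + b - 1) / b) + 1). Then m 17 2 := L, tables 18, 19, 26 (cell = constant times previous cell), the other cells of 17, and array 7 by one fill_ex of size 3 (last; before that Sm holds because array 7 is zero). -/

namespace Vale.Agent.P305

open Vale.Agent.P315 Finset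

theorem init1_fill (S : Sch) (arr : ℕ) (h5 : arr ≠ 5) (h6 : arr ≠ 6) (β : ℕ) (size body : FE)
    (hs : size.noRd 5 = true) (hy : body.noRd 5 = true) :
    ∃ (c : Cmd) (κ : ℕ), ∀ n P B V k, κ ≤ k → Cx S n B V k → ∀ (m : Mem) (g : ℕ → ℕ) (σ : ℕ),
      Bd V m → Sm (S.R n) m → size.eval m = σ → β + σ + 1 ≤ S.big n →
      (∀ e < σ, g e ≤ S.big n) → (arr = 7 → ∀ e < σ, g e ≤ S.R n) →
      (∀ e < σ, body.eval ((upd m arr β e g).set 6 0 e) = g e) →
      Does P B c m (upd m arr β σ g) (S.big n * kc S n k) ∧ Bd V (upd m arr β σ g) := by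
  obtain ⟨c, κ, H⟩ := fill_ex arr h5 h6 (.c β) size body rfl hs hy
  refine ⟨c, κ, fun n P B V k hk C m g σ hm hR hσ hV hg h7 hb => ?_⟩
  have := C.big
  exact ⟨(H P B V _ m g β σ (C.env.mono hk) hm hR rfl hσ (by omega)
    (fun e he => (hg e he).trans this) h7 hb).mono
    (Nat.mul_le_mul (by omega) (cost_mono C.env.hR hk)),
    hm.upd _ _ _ fun e he => (hg e he).trans this⟩

/-- The next power. -/
def init1_pw (arr b : ℕ) : FE :=
  .ifz (.v 0) (.c 1) (.mul (.c b) (.rd arr (.sub (.v 0) (.c 1))))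

theorem init1_pw_ev {arr : ℕ} (h6 : arr ≠ 6) (b e : ℕ) (m : Mem) :
    (init1_pw arr b).eval ((upd m arr 0 e (b ^ ·)).set 6 0 e) = b ^ e := by
  simp only [init1_pw, FE.eval, Mem.set_same, Mem.set_arr _ _ _ h6]
  split_ifs with h
  · rw [h, pow_zero]
  · rw [upd_in0 _ _ _ _ (by omega), ← pow_succ', Nat.sub_add_cancel (by omega)]

/-- The depth. -/
def init1_L : FE := .rd 29 (.add (.mul (.c 2) (.rd 0 (.c 0))) (.c 2))

/-- The width. -/
def init1_w (S : Sch) : FE := .add (.mul (.c (2 * S.kap)) init1_L) (.c (S.D + 4))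

theorem init1_big {S : Sch} (H : S.Ok) (n : ℕ) : S.ρ ^ (S.L n + 2) + 8 * 2 ^ S.w n ≤ S.big n ∧
    8 * (S.w n + S.L n + 4) ≤ S.big n ∧ S.W n ≤ S.big n ∧ 2 * n + 2 ≤ S.N n ∧
    S.N n ≤ 2 ^ S.w n := by
  have h1 := N_eq (n := n) H
  have h2 := n_lt_h (n := n) H
  have h3 : 1 ≤ 2 ^ S.w n := Nat.one_le_two_pow
  refine ⟨Nat.le_mul_of_pos_left _ (by omega), ?_, ?_, by omega, ?_⟩
  · rw [mul_comm]
    exact Nat.mul_le_mul_left _ (by omega)
  · exact (Nat.le_mul_of_pos_left _ (by omega)).trans (big_W H)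
  · rw [two_w, mul_assoc]
    exact Nat.le_mul_of_pos_right _ (Nat.mul_pos (by omega) (by positivity))

theorem init1_ex (S : Sch) : Ex S fun n P B V K c => ∀ m : Mem, m 0 0 = n → (∀ i, m 7 i = 0) →
    Bd V m → ∃ m', Does P B c m m' (40 * S.big n * K) ∧ Bd V m' ∧
      Kp [7, 17, 18, 19, 26, 29] m m' ∧ S.RO1 n m' := by
  obtain ⟨c1, k1, H1⟩ := init1_fill S 29 (by decide) (by decide) 0
    (.add (.mul (.c 2) (.rd 0 (.c 0))) (.c 3))
    (.ifz (.div (.v 0) (.c 2)) (.c 0)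
      (.add (.rd 29 (.div (.sub (.add (.v 0) (.c S.k)) (.c 1)) (.c S.k))) (.c 1))) rfl rfl
  obtain ⟨c2, k2, H2⟩ := init1_fill S 18 (by decide) (by decide) 0
    (.add (.mul (.c 2) init1_L) (.c 3)) (init1_pw 18 S.k) rfl rfl
  obtain ⟨c3, k3, H3⟩ := init1_fill S 19 (by decide) (by decide) 0
    (.add init1_L (.c 2)) (init1_pw 19 S.ρ) rfl rfl
  obtain ⟨c4, k4, H4⟩ := init1_fill S 26 (by decide) (by decide) 0
    (.add (init1_w S) (.c 3)) (init1_pw 26 2) rfl rfl
  obtain ⟨c5, k5, H5⟩ := init1_fill S 17 (by decide) (by decide) 1 (.c 7)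
    (.ifz (.v 0) (.rd 18 init1_L) (.ifz (.sub (.v 0) (.c 1)) init1_L
      (.ifz (.sub (.v 0) (.c 2)) (.rd 18 (.mul (.c 2) (.add init1_L (.c 1))))
      (.ifz (.sub (.v 0) (.c 3)) (.div (.rd 18 init1_L) (.c 2))
      (.ifz (.sub (.v 0) (.c 4)) (.rd 0 (.c 0))
      (.ifz (.sub (.v 0) (.c 5)) (init1_w S) (.rd 26 (init1_w S)))))))) rfl rfl
  obtain ⟨c6, k6, H6⟩ := init1_fill S 7 (by decide) (by decide) 0 (.c 3)
    (.ifz (.v 0) (.c (S.k * S.k)) (.ifz (.sub (.v 0) (.c 1)) (init1_w S) (.c S.ρ))) rfl rfl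
  refine ⟨.seq c1 (.seq c2 (.seq c3 (.seq c4 (.seq c5 c6)))), k1 + k2 + k3 + k4 + k5 + k6 + 1,
    by omega, fun n P B V k hk C m h0 h7 hm => ?_⟩
  obtain ⟨b1, b2, b3, b4, b5⟩ := init1_big C.ok n
  have k2' := k_two C.ok
  have hρ := C.ok.hρ
  have hρ1 : 1 ≤ S.ρ := (Nat.mul_pos (by omega) (by omega)).trans_le hρ
  have hW : S.W n = S.k ^ (2 * (S.L n + 1)) := rfl
  have hR : S.R n = S.w n + S.ρ + 1 := rfl
  have hh : S.h n = S.N n / 2 := rfl
  have hρ2 : S.ρ ≤ S.ρ ^ (S.L n + 2) := Nat.le_self_pow (by omega) _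
  have sm : ∀ m' : Mem, m' 7 = m 7 → Sm (S.R n) m' := fun m' e r => by
    rw [e, h7]
    exact Nat.zero_le _
  obtain ⟨d1, e1⟩ := H1 n P B V k (by omega) C m (Nat.clog S.k) (2 * n + 3) hm (sm _ rfl)
    (by simp only [FE.eval, h0]) (by omega)
    (fun e he => (Nat.clog_le_of_le_pow (Nat.lt_pow_self (by omega)).le).trans (by omega))
    (fun h => absurd h (by decide)) fun e he => by
      simp only [FE.eval, Mem.set_same, Mem.set_arr _ _ _ (by decide : 29 ≠ 6)]
      split_ifs with h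
      · rw [Nat.clog_of_right_le_one (by omega)]
      · rw [upd_in0, Nat.clog_of_two_le (by omega) (show 2 ≤ e by omega)]
        refine Nat.div_lt_of_lt_mul ?_
        have : S.k * e ≥ 2 * (e - 1) + S.k := by
          obtain ⟨e', rfl⟩ : ∃ e', e = e' + 1 := ⟨e - 1, by omega⟩
          have := Nat.mul_le_mul_right e' k2'
          rw [mul_add, mul_one, Nat.add_sub_cancel]
          omega
        omega
  generalize hm1 : upd m 29 0 (2 * n + 3) (Nat.clog S.k) = m1 at d1 e1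
  have eL : ∀ m' : Mem, m' 0 = m1 0 → m' 29 = m1 29 → init1_L.eval m' = S.L n := fun m' x y => by
    simp only [init1_L, FE.eval, x, y, ← hm1, upd_arr _ _ _ _ (by decide : 0 ≠ 29), h0]
    exact upd_in0 _ _ _ _ (by omega)
  have eW : ∀ m' : Mem, m' 0 = m1 0 → m' 29 = m1 29 → (init1_w S).eval m' = S.w n :=
    fun m' x y => by
      simp only [init1_w, FE.eval, eL m' x y]
      rfl
  have a7 : m1 7 = m 7 := by simp [← hm1]
  have a0 : m1 0 0 = n := by simp [← hm1, h0]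
  obtain ⟨d2, e2⟩ := H2 n P B V k (by omega) C m1 (S.k ^ ·) (2 * S.L n + 3) e1 (sm _ a7)
    (by simp only [FE.eval, eL m1 rfl rfl]) (by omega)
    (fun e he => (Nat.pow_le_pow_right (by omega) (by omega)).trans (hW ▸ b3))
    (fun h => absurd h (by decide)) fun e _ => init1_pw_ev (by decide) _ _ _
  obtain ⟨d3, e3⟩ := H3 n P B V k (by omega) C _ (S.ρ ^ ·) (S.L n + 2) e2 (sm _ (by simp [a7]))
    (by simp only [FE.eval]; rw [eL _ (by simp) (by simp)]) (by omega)
    (fun e he => (Nat.pow_le_pow_right hρ1 (by omega : e ≤ S.L n + 2)).trans (by omega))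
    (fun h => absurd h (by decide)) fun e _ => init1_pw_ev (by decide) _ _ _
  obtain ⟨d4, e4⟩ := H4 n P B V k (by omega) C _ (2 ^ ·) (S.w n + 3) e3 (sm _ (by simp [a7]))
    (by simp only [FE.eval]; rw [eW _ (by simp) (by simp)]) (by omega)
    (fun e he => (Nat.pow_le_pow_right two_pos (by omega : e ≤ S.w n + 2)).trans
      (by rw [pow_add]; omega))
    (fun h => absurd h (by decide)) fun e _ => init1_pw_ev (by decide) _ _ _
  obtain ⟨d5, e5⟩ := H5 n P B V k (by omega) C _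
    (fun e => [S.N n, S.L n, S.W n, S.h n, n, S.w n, 2 ^ S.w n].getD e 0) 7 e4
    (sm _ (by simp [a7])) rfl (by omega)
    (fun e he => by interval_cases e <;> simp <;> omega)
    (fun h => absurd h (by decide)) fun e he => by
      simp only [FE.eval]
      rw [eL _ (by simp) (by simp), eW _ (by simp) (by simp)]
      have x1 : S.L n < 2 * S.L n + 3 := by omega
      have x2 : 2 * (S.L n + 1) < 2 * S.L n + 3 := by omega
      interval_cases e <;> simp [upd_in0, x1, x2, a0, Sch.N, Sch.W, Sch.h]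
  obtain ⟨d6, e6⟩ := H6 n P B V k (by omega) C _ (fun e => [S.k * S.k, S.w n, S.ρ].getD e 0) 3 e5
    (sm _ (by simp [a7])) rfl (by omega)
    (fun e he => by interval_cases e <;> simp <;> omega)
    (fun _ e he => by interval_cases e <;> simp <;> omega) fun e he => by
      simp only [FE.eval]
      rw [eW _ (by simp) (by simp)]
      interval_cases e <;> simp
  refine ⟨_, (d1.seq (d2.seq (d3.seq (d4.seq (d5.seq d6))))).mono ?_, e6, fun a ha => ?_,
    fun i => ?_, fun i hi h0 => ?_, fun i hi => ?_, fun i hi => ?_, fun i hi => ?_⟩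
  · have : 1 ≤ S.big n * kc S n k := Nat.mul_pos (by omega) (kc_pos (by omega))
    rw [mul_assoc]
    omega
  · simp only [List.mem_cons, List.not_mem_nil, or_false, not_or] at ha
    simp [← hm1, ha]
  · by_cases h : i < 3
    · exact upd_in0 _ _ _ _ h
    · rw [upd_out _ _ _ _ _ _ (by omega), List.getD_eq_default _ _ (by simpa using h)]
      simp [a7, h7]
  · obtain ⟨j, rfl⟩ : ∃ j, i = 1 + j := ⟨i - 1, by omega⟩
    rw [upd_arr _ _ _ _ (by decide), upd_in _ _ _ _ _ (by omega), add_comm, List.getD_cons_succ]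
  · simp only [upd_arr _ _ _ _ (by decide : 18 ≠ 7), upd_arr _ _ _ _ (by decide : 18 ≠ 17),
      upd_arr _ _ _ _ (by decide : 18 ≠ 26), upd_arr _ _ _ _ (by decide : 18 ≠ 19)]
    exact upd_in0 _ _ _ _ (by omega)
  · simp only [upd_arr _ _ _ _ (by decide : 19 ≠ 7), upd_arr _ _ _ _ (by decide : 19 ≠ 17),
      upd_arr _ _ _ _ (by decide : 19 ≠ 26)]
    exact upd_in0 _ _ _ _ (by omega)
  · simp only [upd_arr _ _ _ _ (by decide : 26 ≠ 7), upd_arr _ _ _ _ (by decide : 26 ≠ 17)]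
    exact upd_in0 _ _ _ _ (by omega)

end Vale.Agent.P305
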