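import Vale.Agent.P305.InitA

/-! Arithmetic of the sieve and of the table of inverses. -/

namespace Vale.Agent.P305

open Vale.Agent.P315 Finset

/-- The address marked in step `e` of the sieve up to `M`. -/
def svAd (M e : ℕ) : ℕ :=
  min ((2 ^ (e / M + 1) + e % M % 2 ^ (e / M + 1)) * (e % M / 2 ^ (e / M + 1) + 2)) (M + 1)

theorem svAd_iff {M G i : ℕ} (hG : M < 2 ^ G) (h2 : 2 ≤ i) (hi : i ≤ M) :
    (∃ e < G * M, svAd M e = i) ↔ ¬ i.Prime := by
  constructor
  · rintro ⟨e, -, he⟩ hp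
    unfold svAd at he
    have h1 : 2 ≤ 2 ^ (e / M + 1) := Nat.le_self_pow (Nat.succ_ne_zero _) 2
    generalize 2 ^ (e / M + 1) = w at he h1
    generalize e % M % w = u at he
    generalize e % M / w = v at he
    have h3 : (w + u) * (v + 2) = i := by omega
    rw [← h3] at hp
    exact Nat.not_prime_mul (by omega) (by omega) hp
  · intro hp
    obtain ⟨d, j, d1, j1, e⟩ := (Nat.not_prime_iff_exists_mul_eq h2).1 hp
    have d2 : 2 ≤ d := by
      rcases d with _ | _ | d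
      · omega
      · omega
      · omega
    have j2 : 2 ≤ j := by
      rcases j with _ | _ | j
      · omega
      · omega
      · omega
    obtain ⟨l, hl⟩ : ∃ l, Nat.log 2 d = l + 1 :=
      Nat.exists_eq_succ_of_ne_zero (Nat.log_pos one_lt_two d2).ne'
    have a1 := Nat.pow_log_le_self 2 (show d ≠ 0 by omega)
    have a2 := Nat.lt_pow_succ_log_self one_lt_two d
    rw [hl] at a1 a2
    rw [Nat.succ_eq_add_one, pow_succ] at a2
    have a3 : l + 1 < G := (Nat.pow_lt_pow_iff_right one_lt_two).1 (by omega)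
    obtain ⟨j, rfl⟩ := Nat.exists_eq_add_of_le' j2
    have a4 := Nat.mul_le_mul_right j a1
    have a5 : 2 ^ (l + 1) * j + (d - 2 ^ (l + 1)) < M := by
      rw [mul_add] at e
      omega
    have a6 := (Nat.div_mod_unique (a := l * M + (2 ^ (l + 1) * j + (d - 2 ^ (l + 1)))) (d := l)
      (c := 2 ^ (l + 1) * j + (d - 2 ^ (l + 1))) (show 0 < M by omega)).2 ⟨by ring, a5⟩
    have a7 := (Nat.div_mod_unique (a := 2 ^ (l + 1) * j + (d - 2 ^ (l + 1))) (d := j)
      (c := d - 2 ^ (l + 1)) (Nat.two_pow_pos (l + 1))).2 ⟨by ring, by omega⟩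
    refine ⟨l * M + (2 ^ (l + 1) * j + (d - 2 ^ (l + 1))), ?_, ?_⟩
    · have := Nat.mul_le_mul_right M (show l + 1 ≤ G by omega)
      rw [add_mul] at this
      omega
    · unfold svAd
      rw [a6.1, a6.2, a7.1, a7.2, Nat.add_sub_cancel' a1, e, min_eq_left (by omega)]

theorem inv_rec {p e : ℕ} [hp : Fact p.Prime] (h2 : 2 ≤ e) (he : e < p) :
    (p - p / e) * ((p % e : ℕ) : ZMod p)⁻¹.val % p = (e : ZMod p)⁻¹.val := by
  have h0 : p % e ≠ 0 := fun h => by
    rcases (Nat.dvd_prime hp.out).1 (Nat.dvd_of_mod_eq_zero h) with h | h <;> omega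
  have h1 := Nat.mod_lt p (show 0 < e by omega)
  have z : ∀ x, x ≠ 0 → x < p → (x : ZMod p) ≠ 0 := fun x x0 xp h =>
    x0 (Nat.eq_zero_of_dvd_of_lt ((ZMod.natCast_eq_zero_iff _ _).1 h) xp)
  have h3 : (e : ZMod p) * (p / e : ℕ) + (p % e : ℕ) = 0 := by
    rw [← Nat.cast_mul, ← Nat.cast_add, Nat.div_add_mod, ZMod.natCast_self]
  rw [← ZMod.val_natCast, Nat.cast_mul, ZMod.natCast_zmod_val, Nat.cast_sub (Nat.div_le_self _ _),
    ZMod.natCast_self]
  congr 1
  have a := z e (by omega) he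
  have b := z _ h0 (by omega)
  field_simp
  linear_combination -h3

theorem svAd_le (M e : ℕ) : svAd M e ≤ M + 1 := min_le_right _ _

/-- The expression computing `svAd`; `eM` evaluates to `M`, array `aW` holds powers of two. -/
def svE (aW : ℕ) (eM : FE) : FE :=
  .lt 3 (.rd aW (.add (.div (.v 1) eM) (.c 1))) (.lt 4 (.mod (.v 1) eM)
    (.lt 5 (.mul (.add (.v 3) (.mod (.v 4) (.v 3))) (.add (.div (.v 4) (.v 3)) (.c 2)))
      (.sub (.v 5) (.sub (.v 5) (.add eM (.c 1))))))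

theorem svE_eval {aW M G e : ℕ} {eM : FE} {m : Mem}
    (hM : ∀ m' : Mem, (∀ a, a ≠ 6 → m' a = m a) → eM.eval m' = M) (h1 : m 6 1 = e)
    (he : e < G * M) (hW : ∀ i ≤ G, m aW i = 2 ^ i) : (svE aW eM).eval m = svAd M e := by
  have hM0 : 0 < M := Nat.pos_of_mul_pos_left (Nat.zero_lt_of_lt he)
  have a1 : e / M < G := (Nat.div_lt_iff_lt_mul hM0).2 he
  have a2 := hM m fun _ _ => rfl
  simp only [svE, FE.eval, h1, a2, hW (e / M + 1) a1]
  rw [hM _ fun a ha => by simp only [Mem.set_arr _ _ _ ha],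
    hM _ fun a ha => by simp only [Mem.set_arr _ _ _ ha]]
  simp only [Mem.set_apply, h1, and_self, true_and, if_true, Nat.reduceEqDiff, if_false]
  unfold svAd
  generalize (2 ^ (e / M + 1) + e % M % 2 ^ (e / M + 1)) * (e % M / 2 ^ (e / M + 1) + 2) = w
  omega

theorem great_eval {aS aQ M G e : ℕ} {m : Mem} (h6 : aS ≠ 6) (hq : aQ ≠ 6) (hSQ : aS ≠ aQ)
    (hG : M < 2 ^ G) (he : e ≤ M)
    (hS : ∀ i, m aS i = if ∃ t < G * M, svAd M t = i then 1 else 0) :
    (FE.ifz (.div (.v 0) (.c 2)) (.c 0) (.ifz (.rd aS (.v 0)) (.v 0)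
      (.rd aQ (.sub (.v 0) (.c 1))))).eval
      ((upd m aQ 0 e (Nat.findGreatest Nat.Prime)).set 6 0 e) = Nat.findGreatest Nat.Prime e := by
  simp only [FE.eval, Mem.set_same, Mem.set_arr _ _ _ h6, Mem.set_arr _ _ _ hq,
    upd_arr _ _ _ _ hSQ, hS]
  rcases e with _ | _ | e
  · rfl
  · rfl
  · rw [if_neg (by omega), Nat.findGreatest_succ, upd_in0 _ _ _ _ (by omega),
      if_congr (svAd_iff hG (by omega) he) rfl rfl]
    by_cases hp : (e + 1 + 1).Prime
    · simp [hp]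
    · simp [hp]

theorem inv_eval {aI p e : ℕ} {eP : FE} {m : Mem} [Fact p.Prime] (h6 : aI ≠ 6) (he : e < p)
    (hP : ∀ m' : Mem, (∀ a, a ≠ 6 → a ≠ aI → m' a = m a) → eP.eval m' = p) :
    (FE.ifz (.div (.v 0) (.c 2)) (.v 0) (.mod (.mul (.sub eP (.div eP (.v 0)))
      (.rd aI (.mod eP (.v 0)))) eP)).eval
      ((upd m aI 0 e fun t => (t : ZMod p)⁻¹.val).set 6 0 e) = (e : ZMod p)⁻¹.val := by
  simp only [FE.eval, Mem.set_same, Mem.set_arr _ _ _ h6]
  rw [hP _ fun a a1 a2 => by rw [Mem.set_arr _ _ _ a1, upd_arr _ _ _ _ a2]]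
  rcases e with _ | _ | e
  · simp
  · simp [ZMod.val_one]
  · rw [if_neg (by omega), upd_in0 _ _ _ _ (Nat.mod_lt _ (by omega))]
    exact inv_rec (by omega) he

end Vale.Agent.P305
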