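import Vale.Agent.P305.Mark
import Vale.Agent.P305.InitB

/-! The prime. -/

namespace Vale.Agent.P305

open Vale.Agent.P315 Finset

/-- The least prime in the interval from `X + 1` to `X + 1 + e`, or zero. -/
def lsp (X : ℕ) : ℕ → ℕ
  | 0 => if (X + 1).Prime then X + 1 else 0
  | e + 1 => if lsp X e = 0 then (if (X + 1 + (e + 1)).Prime then X + 1 + (e + 1) else 0)
      else lsp X e

theorem lsp_le (X e : ℕ) : lsp X e ≤ X + 1 + e := by
  induction e with
  | zero => unfold lsp; split_ifs <;> omega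
  | succ e ih => unfold lsp; split_ifs <;> omega

theorem lsp_eq {X p : ℕ} (hp : p.Prime) (h1 : X < p) (h2 : ∀ q, X < q → q < p → ¬ q.Prime)
    (e : ℕ) : lsp X e = if p ≤ X + 1 + e then p else 0 := by
  induction e with
  | zero =>
    unfold lsp
    by_cases c : p ≤ X + 1 + 0
    · rw [if_pos c, show X + 1 = p by omega, if_pos hp]
    · rw [if_neg c, if_neg (h2 _ (by omega) (by omega))]
  | succ e ih =>
    unfold lsp
    rw [ih]
    by_cases c : p ≤ X + 1 + e
    · rw [if_pos c, if_neg (by omega), if_pos (by omega)]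
    · rw [if_neg c, if_pos rfl]
      by_cases d : p ≤ X + 1 + (e + 1)
      · rw [if_pos d, show X + 1 + (e + 1) = p by omega, if_pos hp]
      · rw [if_neg d, if_neg (h2 _ (by omega) (by omega))]

theorem init2_ex (S : Sch) : Ex S fun n P B V K c => ∀ m : Mem, S.RO1 n m → (∀ i, m 27 i = 0) →
    Bd V m → ∃ m', Does P B c m m' (40 * S.big n * K) ∧ Bd V m' ∧ Kp [17, 27, 28] m m' ∧
      S.RO1 n m' ∧ m' 17 0 = S.p n := by
  obtain ⟨c1, k1, H1⟩ := mark_ex 27 (by decide) (by decide) (by decide)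
    (.mul (.add (.rd 17 (.c 6)) (.c 2)) (.mul (.c 2) (.rd 17 (.c 7))))
    (.lt 1 (.v 0) (svE 26 (.mul (.c 2) (.rd 17 (.c 7))))) rfl rfl rfl
  obtain ⟨c2, k2, H2⟩ := fill_ex 28 (by decide) (by decide) (.c 0) (.rd 17 (.c 7))
    (.lt 1 (.add (.add (.rd 17 (.c 7)) (.c 1)) (.v 0)) (.lt 2 (.ifz (.rd 27 (.v 1)) (.v 1) (.c 0))
      (.ifz (.v 0) (.v 2) (.ifz (.rd 28 (.sub (.v 0) (.c 1))) (.v 2)
        (.rd 28 (.sub (.v 0) (.c 1))))))) rfl rfl rfl
  obtain ⟨c3, k3, H3⟩ := rec_st_ex 17 (by decide) (by decide) (by decide) (.c 0)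
    (.rd 28 (.sub (.rd 17 (.c 7)) (.c 1))) rfl rfl
  refine ⟨.seq c1 (.seq c2 c3), k1 + k2 + k3 + 1, by omega, fun n P B V κ hκ cx m ro z hB => ?_⟩
  have hE := cx.env
  have b1 := cx.big
  have b2 : (S.w n + 4) * (8 * 2 ^ S.w n) ≤ S.big n := big_s
  have b3 : 2 ^ S.w n < S.p n := p_gt
  have b4 : S.p n ≤ 2 * 2 ^ S.w n := p_le
  have b5 := Nat.two_pow_pos (S.w n)
  have r6 : m 17 6 = S.w n := ro.par 6 (by decide) (by decide)
  have r7 : m 17 7 = 2 ^ S.w n := ro.par 7 (by decide) (by decide)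
  have hG : 2 * 2 ^ S.w n < 2 ^ (S.w n + 2) := by
    rw [pow_add]
    omega
  have hK : 1 ≤ kc S n κ := kc_pos (by omega)
  generalize hX : 2 ^ S.w n = X at *
  have b6 : (S.w n + 2) * (2 * X) + 8 * X ≤ S.big n := by nlinarith
  have d1 := H1 P B V (S.R n) κ m (svAd (2 * X)) ((S.w n + 2) * (2 * X)) (by omega) hE hB
    (ro.Sm cx.ok) (by simp only [FE.eval, r6, r7]) (by omega) fun e he => by
      simp only [FE.eval, Mem.set_same]
      refine svE_eval (G := S.w n + 2) (fun m' hm' => ?_) (Mem.set_same _ _ _ _) he fun i hi => ?_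
      · simp only [FE.eval, hm' 17 (by decide), Mem.set_apply, Nat.reduceEqDiff, false_and,
          if_false, r7]
      · simp only [Mem.set_apply, Nat.reduceEqDiff, false_and, if_false, ro.p2 i hi]
  set m1 := mrk m 27 ((S.w n + 2) * (2 * X)) (svAd (2 * X)) with hm1
  have B1 : Bd V m1 := mrk_bd hB (by omega) _ _ _
  have ro1 : S.RO1 n m1 := ro.stab fun a ha => mrk_arr _ _ _ (by rintro rfl; simp at ha)
  have s7 : m1 17 7 = X := by rw [hm1, mrk_arr _ _ _ (by decide), r7]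
  have v2 : ∀ e < X, lsp X e ≤ V := fun e he => (lsp_le X e).trans (by omega)
  have d2 := H2 P B V (S.R n) m1 (lsp X) 0 X (hE.mono (by omega)) B1 (ro1.Sm cx.ok) rfl s7
    (by omega) v2 (by omega) fun e he => by
      have a1 : m1 27 (X + 1 + e) = if (X + 1 + e).Prime then 0 else 1 := by
        simp only [hm1, mrk, true_and, z]
        rw [if_congr (svAd_iff hG (by omega) (by omega)) rfl rfl, ite_not]
      simp only [FE.eval, Mem.set_apply, Nat.reduceEqDiff, false_and, if_false, and_self, if_true,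
        true_and, upd_arr _ _ _ _ (show 17 ≠ 28 by decide),
        upd_arr _ _ _ _ (show 27 ≠ 28 by decide), s7, a1]
      rcases e with _ | e
      · rw [if_pos rfl]
        unfold lsp
        by_cases c : (X + 1).Prime <;> simp [c]
      · rw [if_neg (Nat.succ_ne_zero e), upd_in0 _ _ _ _ (by omega), Nat.add_sub_cancel]
        conv_rhs => unfold lsp
        by_cases c : (X + 1 + (e + 1)).Prime <;> simp [c]
  set m2 := upd m1 28 0 X (lsp X) with hm2
  have B2 : Bd V m2 := B1.upd _ _ _ v2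
  have ro2 : S.RO1 n m2 := ro1.stab fun a ha => upd_arr _ _ _ _ (by rintro rfl; simp at ha)
  have d3 := H3 P B V (S.R n) κ (by omega) hE m2 0 (S.p n) B2 (ro2.Sm cx.ok) rfl (by omega)
    (by omega) (by
      simp only [FE.eval, Mem.set_apply, Nat.reduceEqDiff, false_and, if_false, hm2,
        upd_arr _ _ _ _ (show 17 ≠ 28 by decide), s7]
      rw [upd_in0 _ _ _ _ (by omega), lsp_eq Fact.out b3 fun q q1 q2 q3 =>
        Nat.find_min (Nat.exists_infinite_primes (2 ^ S.w n + 1)) q2 ⟨by omega, q3⟩,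
        if_pos (by omega)])
  refine ⟨_, (d1.seq (d2.seq d3)).mono ?_, fill_bd_set B2 _ _ (by omega), fun a ha => ?_,
    ⟨fun i => ?_, fun i hi h0 => ?_, fun i hi => ?_, fun i hi => ?_, fun i hi => ?_⟩,
    Mem.set_same _ _ _ _⟩
  · have t1 := Nat.mul_le_mul_left (X + 1) (cost_mono hE.hR (show k2 ≤ κ by omega))
    change _ ≤ (X + 1) * kc S n κ at t1
    change _ * kc S n κ + (_ + 2 * kc S n κ + 1) + 1 ≤ _
    generalize kc S n κ = K at *
    have t2 := Nat.mul_le_mul_right K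
      (show (S.w n + 2) * (2 * X) + 1 + (X + 1) + 2 + 2 ≤ 40 * S.big n by omega)
    simp only [add_mul] at t1 t2 ⊢
    omega
  · simp only [List.mem_cons, List.not_mem_nil, or_false, not_or] at ha
    rw [Mem.set_arr _ _ _ ha.1, hm2, upd_arr _ _ _ _ ha.2.2, hm1, mrk_arr _ _ _ ha.2.1]
  · rw [Mem.set_arr _ _ _ (by decide), ro2.sm]
  · rw [Mem.set_idx _ _ _ (by omega), ro2.par i hi h0]
  · rw [Mem.set_arr _ _ _ (by decide), ro2.pk i hi]
  · rw [Mem.set_arr _ _ _ (by decide), ro2.pρ i hi]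
  · rw [Mem.set_arr _ _ _ (by decide), ro2.p2 i hi]

end Vale.Agent.P305
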