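import Vale.Agent.P305.Par
import Vale.Agent.P305.InitB

/-! Tables modulo p. -/

namespace Vale.Agent.P305

open Vale.Agent.P315 Finset

/-- Case distinction on variable `0`. -/
def init3_tab (f : ℕ → FE) : ℕ → FE
  | 0 => .c 0
  | k + 1 => .ifz (.sub (.c k) (.v 0)) (f k) (init3_tab f k)

theorem init3_tab_noRd {f : ℕ → FE} {a : ℕ} (h : ∀ q, (f q).noRd a = true) (k : ℕ) :
    (init3_tab f k).noRd a = true := by
  induction k with
  | zero => rfl
  | succ k ih => simp only [init3_tab, FE.noRd, h, ih, Bool.and_self]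

theorem init3_tab_eval (f : ℕ → FE) {m : Mem} {e : ℕ} (h : m 6 0 = e) (k : ℕ) (he : e < k) :
    (init3_tab f k).eval m = (f e).eval m := by
  induction k with
  | zero => omega
  | succ k ih =>
    simp only [init3_tab, FE.eval, h]
    split_ifs with c
    · rw [show k = e by omega]
    · exact ih (by omega)

/-- An integer modulo the prime. -/
def init3_int (z : ℤ) : FE :=
  .mod (.add (.c z.toNat) (.mul (.sub (.rd 17 (.c 0)) (.c 1)) (.c (-z).toNat))) (.rd 17 (.c 0))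

theorem init3_int_eval (z : ℤ) {m : Mem} {p : ℕ} (hp : 1 ≤ p) (h : m 17 0 = p) :
    (init3_int z).eval m = (z : ZMod p).val := by
  simp only [init3_int, FE.eval, h]
  rw [← ZMod.val_natCast]
  congr 1
  have h1 : ((z.toNat : ℤ) : ZMod p) - (((-z).toNat : ℤ) : ZMod p) = z := by
    rw [← Int.cast_sub, Int.toNat_sub_toNat_neg]
  rw [Int.cast_natCast, Int.cast_natCast] at h1
  rw [Nat.cast_add, Nat.cast_mul, Nat.cast_sub hp, ZMod.natCast_self, ← h1]
  push_cast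
  ring

/-- An integer divided by `D` modulo the prime. -/
def init3_quo (z : ℤ) (D : ℕ) : FE :=
  .mod (.mul (init3_int z) (.rd 20 (.mod (.c D) (.rd 17 (.c 0))))) (.rd 17 (.c 0))

theorem init3_quo_eval (z : ℤ) (D : ℕ) {m : Mem} {p : ℕ} (hp : 1 ≤ p) (h : m 17 0 = p)
    (hi : ∀ i < p, m 20 i = ((i : ZMod p)⁻¹).val) :
    (init3_quo z D).eval m = (z * (D : ZMod p)⁻¹ : ZMod p).val := by
  have : NeZero p := ⟨by omega⟩
  have h1 := init3_int_eval z hp h
  simp only [init3_quo, FE.eval, h, h1]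
  rw [hi _ (Nat.mod_lt _ hp), ZMod.natCast_mod, ZMod.val_mul]

theorem init3_ex (S : Sch) : Ex S fun n P B V K c => ∀ m : Mem, S.RO1 n m → m 17 0 = S.p n →
    Bd V m → ∃ m', Does P B c m m' (40 * S.big n * K) ∧ Bd V m' ∧ Kp [20, 21, 22, 23] m m' ∧
      S.RO n m' := by
  obtain ⟨c0, k0, H0⟩ := fill_ex 20 (by decide) (by decide) (.c 0) (.rd 17 (.c 0))
    (FE.ifz (.div (.v 0) (.c 2)) (.v 0) (.mod (.mul (.sub (.rd 17 (.c 0)) (.div (.rd 17 (.c 0)) (.v 0)))
      (.rd 20 (.mod (.rd 17 (.c 0)) (.v 0)))) (.rd 17 (.c 0)))) rfl rfl rfl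
  obtain ⟨c1, k1, H1⟩ := fillP_ex 21 (by decide) (by decide) (by decide) (.c 0)
    (.c (S.ρ * (S.k * S.k))) (init3_tab (fun q => init3_int (S.A q)) (S.ρ * (S.k * S.k))) rfl rfl
    (init3_tab_noRd (fun _ => rfl) _) (init3_tab_noRd (fun _ => rfl) _)
  obtain ⟨c2, k2, H2⟩ := fillP_ex 22 (by decide) (by decide) (by decide) (.c 0)
    (.c (S.ρ * (S.k * S.k))) (init3_tab (fun q => init3_int (S.B q)) (S.ρ * (S.k * S.k))) rfl rfl
    (init3_tab_noRd (fun _ => rfl) _) (init3_tab_noRd (fun _ => rfl) _)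
  obtain ⟨c3, k3, H3⟩ := fillP_ex 23 (by decide) (by decide) (by decide) (.c 0)
    (.c (S.ρ * (S.k * S.k))) (init3_tab (fun q => init3_quo (S.C q) S.D) (S.ρ * (S.k * S.k))) rfl rfl
    (init3_tab_noRd (fun _ => rfl) _) (init3_tab_noRd (fun _ => rfl) _)
  refine ⟨.seq c0 (.seq c1 (.seq c2 c3)), k0 + k1 + k2 + k3 + 1, by omega, ?_⟩
  intro n P B V κ hκ C m hR hp hm
  have hp1 : 1 ≤ S.p n := (Fact.out : (S.p n).Prime).one_le
  have : NeZero (S.p n) := ⟨by omega⟩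
  have b1 : 4 * S.p n ≤ S.big n := big_p
  have b2 : S.ρ * (S.k * S.k) ≤ S.big n := by
    have a1 := big_cu (n := n) C.ok (Nat.zero_le _)
    have a2 := sq_le_cu (n := n) C.ok 0
    rw [zero_add, pow_one] at a2
    exact (Nat.mul_le_mul_left _ (by omega)).trans a1
  have b3 := C.big
  have hS := Sch.RO1.Sm C.ok hR
  have hv : ∀ x : ZMod (S.p n), x.val ≤ V := fun x => by
    have := ZMod.val_lt x
    omega
  obtain ⟨m0, e0⟩ : ∃ m0, m0 = upd m 20 0 (S.p n) fun t => (t : ZMod (S.p n))⁻¹.val := ⟨_, rfl⟩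
  obtain ⟨m1, e1⟩ : ∃ m1, m1 = upd m0 21 0 (S.ρ * (S.k * S.k))
    fun q => (S.A q : ZMod (S.p n)).val := ⟨_, rfl⟩
  obtain ⟨m2, e2⟩ : ∃ m2, m2 = upd m1 22 0 (S.ρ * (S.k * S.k))
    fun q => (S.B q : ZMod (S.p n)).val := ⟨_, rfl⟩
  obtain ⟨m3, e3⟩ : ∃ m3, m3 = upd m2 23 0 (S.ρ * (S.k * S.k))
    fun q => (S.C q * (S.D : ZMod (S.p n))⁻¹ : ZMod (S.p n)).val := ⟨_, rfl⟩
  have u0 : ∀ a, a ≠ 20 → m0 a = m a := fun a h => by rw [e0, upd_arr _ _ _ _ h]
  have u1 : ∀ a, a ≠ 21 → m1 a = m0 a := fun a h => by rw [e1, upd_arr _ _ _ _ h]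
  have u2 : ∀ a, a ≠ 22 → m2 a = m1 a := fun a h => by rw [e2, upd_arr _ _ _ _ h]
  have u3 : ∀ a, a ≠ 23 → m3 a = m2 a := fun a h => by rw [e3, upd_arr _ _ _ _ h]
  have d0 : Bd V m0 := e0 ▸ hm.upd _ _ _ fun _ _ => hv _
  have d1 : Bd V m1 := e1 ▸ d0.upd _ _ _ fun _ _ => hv _
  have d2 : Bd V m2 := e2 ▸ d1.upd _ _ _ fun _ _ => hv _
  have d3 : Bd V m3 := e3 ▸ d2.upd _ _ _ fun _ _ => hv _
  have s0 : Sm (S.R n) m0 := fun r => by rw [u0 7 (by decide)]; exact hS r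
  have s1 : Sm (S.R n) m1 := fun r => by rw [u1 7 (by decide)]; exact s0 r
  have s2 : Sm (S.R n) m2 := fun r => by rw [u2 7 (by decide)]; exact s1 r
  have p0 : m0 17 0 = S.p n := by rw [u0 17 (by decide), hp]
  have p1 : m1 17 0 = S.p n := by rw [u1 17 (by decide), p0]
  have p2 : m2 17 0 = S.p n := by rw [u2 17 (by decide), p1]
  have i2 : ∀ i < S.p n, m2 20 i = ((i : ZMod (S.p n))⁻¹).val := fun i hi => by
    rw [u2 20 (by decide), u1 20 (by decide), e0, upd_in0 _ _ _ _ hi]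
  have x0 := H0 P B V _ m (fun t => (t : ZMod (S.p n))⁻¹.val) 0 (S.p n) (C.env.mono (by omega)) hm hS
    rfl hp (by omega) (fun _ _ => hv _) (fun h => absurd h (by decide)) fun e he =>
      inv_eval (eP := .rd 17 (.c 0)) (by decide) he fun m' h => by
        simp only [FE.eval]
        rw [h 17 (by decide) (by decide), hp]
  have x1 := H1 P B V _ m0 (fun q => (S.A q : ZMod (S.p n)).val) 0 (S.ρ * (S.k * S.k))
    (C.env.mono (by omega)) d0 s0
    rfl rfl (by omega) (fun _ _ => hv _) fun e he => by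
      rw [init3_tab_eval _ (Mem.set_same _ _ _ _) _ he]
      exact init3_int_eval _ hp1 (by rw [Mem.set_arr _ _ _ (by decide), p0])
  have x2 := H2 P B V _ m1 (fun q => (S.B q : ZMod (S.p n)).val) 0 (S.ρ * (S.k * S.k))
    (C.env.mono (by omega)) d1 s1
    rfl rfl (by omega) (fun _ _ => hv _) fun e he => by
      rw [init3_tab_eval _ (Mem.set_same _ _ _ _) _ he]
      exact init3_int_eval _ hp1 (by rw [Mem.set_arr _ _ _ (by decide), p1])
  have x3 := H3 P B V _ m2 (fun q => (S.C q * (S.D : ZMod (S.p n))⁻¹ : ZMod (S.p n)).val) 0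
    (S.ρ * (S.k * S.k)) (C.env.mono (by omega)) d2 s2
    rfl rfl (by omega) (fun _ _ => hv _) fun e he => by
      rw [init3_tab_eval _ (Mem.set_same _ _ _ _) _ he]
      exact init3_quo_eval _ _ hp1 (by rw [Mem.set_arr _ _ _ (by decide), p2])
        (by rw [Mem.set_arr _ _ _ (by decide)]; exact i2)
  rw [← e0] at x0
  rw [← e1] at x1
  rw [← e2] at x2
  rw [← e3] at x3
  have kp : Kp [20, 21, 22, 23] m m3 := fun a ha => by
    simp only [List.mem_cons, List.not_mem_nil, or_false, not_or] at ha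
    rw [u3 a ha.2.2.2, u2 a ha.2.2.1, u1 a ha.2.1, u0 a ha.1]
  refine ⟨m3, (x0.seq (x1.seq (x2.seq x3))).mono ?_, d3, kp, ?_, ?_, ?_, ?_, ?_, ?_, ?_, ?_⟩
  · have t0 : k0 * S.R n ^ k0 ≤ kc S n κ := cost_mono C.env.hR (by omega)
    have t1 : k1 * S.R n ^ k1 ≤ kc S n κ := cost_mono C.env.hR (by omega)
    have t2 : k2 * S.R n ^ k2 ≤ kc S n κ := cost_mono C.env.hR (by omega)
    have t3 : k3 * S.R n ^ k3 ≤ kc S n κ := cost_mono C.env.hR (by omega)
    have t4 : 1 ≤ kc S n κ := kc_pos (by omega)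
    have r0 := Nat.mul_le_mul (show S.p n + 1 ≤ 2 * S.big n by omega) t0
    have r1 := Nat.mul_le_mul (show S.ρ * (S.k * S.k) + 1 ≤ 2 * S.big n by omega) t1
    have r2 := Nat.mul_le_mul (show S.ρ * (S.k * S.k) + 1 ≤ 2 * S.big n by omega) t2
    have r3 := Nat.mul_le_mul (show S.ρ * (S.k * S.k) + 1 ≤ 2 * S.big n by omega) t3
    have r4 := Nat.mul_le_mul (show 1 ≤ S.big n by omega) t4
    rw [mul_assoc] at r0 r1 r2 r3 ⊢
    omega
  · rw [kp 7 (by decide)]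
    exact hR.sm
  · rw [kp 17 (by decide)]
    intro i hi
    rcases Nat.eq_zero_or_pos i with rfl | h
    · exact hp
    · exact hR.par i hi h
  · rw [kp 18 (by decide)]
    exact hR.pk
  · rw [kp 19 (by decide)]
    exact hR.pρ
  · rw [u3 20 (by decide)]
    exact i2
  · intro q hq
    rw [u3 21 (by decide), u2 21 (by decide), e1, upd_in0 _ _ _ _ hq]
  · intro q hq
    rw [u3 22 (by decide), e2, upd_in0 _ _ _ _ hq]
  · intro q hq
    rw [e3, upd_in0 _ _ _ _ hq]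

end Vale.Agent.P305
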