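import Vale.Agent.P315.Model

/-! Adjacency lists as input, maximum matchings as output of the word RAM. -/

namespace Vale.Agent.P305

open Vale.Agent.P315

/-- `adj` is the list of adjacency lists of `G`: the list of `v` has no repetition and contains
exactly the neighbours of `v`, in any order. -/
def Rep {n : ℕ} (G : SimpleGraph (Fin n)) (adj : List (List ℕ)) : Prop :=
  adj.length = n ∧ ∀ v : Fin n, (adj.getD v []).Nodup ∧
    ∀ w : ℕ, w ∈ adj.getD v [] ↔ ∃ h : w < n, G.Adj v ⟨w, h⟩

/-- Initial memory: array 0 holds `n`, array 1 the start of every list in array 2 (and the total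
length), array 2 the concatenated lists, array 3 the random bits, everything else is zero. -/
def ginput (n : ℕ) (adj : List (List ℕ)) {R : ℕ} (r : Fin R → Bool) : Mem := fun a i =>
  if a = 0 then [n].getD i 0
  else if a = 1 then (if i ≤ n then (adj.take i).flatten.length else 0)
  else if a = 2 then adj.flatten.getD i 0
  else if a = 3 then (if h : i < R then (if r ⟨i, h⟩ then 1 else 0) else 0)
  else 0

/-- Array 4 describes a maximum matching of `G`: cell `u` holds `v + 1` exactly when `u` is
matched to `v`. -/
def Out {n : ℕ} (G : SimpleGraph (Fin n)) (m : Mem) : Prop :=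
  ∃ M : G.Subgraph, M.IsMatching ∧
    (∀ M' : G.Subgraph, M'.IsMatching → M'.edgeSet.ncard ≤ M.edgeSet.ncard) ∧
    ∀ u v : Fin n, M.Adj u v ↔ m 4 u = v + 1

end Vale.Agent.P305
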