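import Vale.Agent.P305.InitB
import Vale.Agent.P305.Stmt

/-! Reading the adjacency lists. -/

namespace Vale.Agent.P305

open Vale.Agent.P315 Finset

theorem take_len_succ (adj : List (List ℕ)) (v : ℕ) :
    (adj.take (v + 1)).flatten.length = (adj.take v).flatten.length + (adj.getD v []).length := by
  induction adj generalizing v with
  | nil => simp
  | cons a l ih =>
    cases v with
    | zero => simp
    | succ v =>
      simp only [List.take_succ_cons, List.flatten_cons, List.length_append, List.getD_cons_succ,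
        ih v]
      omega

theorem flat_getD (adj : List (List ℕ)) (v t : ℕ) (ht : t < (adj.getD v []).length) :
    adj.flatten.getD ((adj.take v).flatten.length + t) 0 = (adj.getD v []).getD t 0 := by
  induction adj generalizing v with
  | nil => simp at ht
  | cons a l ih =>
    cases v with
    | zero =>
      simp only [List.getD_cons_zero] at ht
      simp only [List.take_zero, List.flatten_nil, List.length_nil, zero_add, List.flatten_cons,
        List.getD_cons_zero]
      exact List.getD_append _ _ _ _ ht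
    | succ v =>
      simp only [List.getD_cons_succ] at ht
      simp only [List.take_succ_cons, List.flatten_cons, List.length_append, List.getD_cons_succ]
      rw [List.getD_append_right _ _ _ _ (by omega), ← ih v ht]
      congr 1
      omega

theorem Rep.len_le {n : ℕ} {G : SimpleGraph (Fin n)} {adj : List (List ℕ)} (h : Rep G adj)
    {v : ℕ} (hv : v < n) : (adj.getD v []).length ≤ n := by
  obtain ⟨h1, h2⟩ := h.2 ⟨v, hv⟩
  have := (List.subperm_of_subset h1 (l₂ := List.range n) fun w hw =>
    List.mem_range.2 ((h2 w).1 hw).1).length_le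
  simpa using this

/-- The address marked in step `e` of reading the lists into a table with row length `W`;
`z` is a dummy address. -/
def adAd (n W z : ℕ) (adj : List (List ℕ)) (e : ℕ) : ℕ :=
  if e % n < (adj.getD (e / n) []).length then e / n * W + (adj.getD (e / n) []).getD (e % n) 0
  else z

def adE (eW ez : FE) : FE :=
  .lt 3 (.div (.v 1) (.rd 0 (.c 0))) (.lt 4 (.add (.rd 1 (.v 3)) (.mod (.v 1) (.rd 0 (.c 0))))
    (.ifz (.sub (.rd 1 (.add (.v 3) (.c 1))) (.v 4)) ez
      (.add (.mul (.v 3) eW) (.rd 2 (.v 4)))))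

theorem adE_eval {n W z e : ℕ} {adj : List (List ℕ)} {eW ez : FE} {m : Mem}
    (hW : ∀ m' : Mem, (∀ a, a ≠ 6 → m' a = m a) → eW.eval m' = W)
    (hz : ∀ m' : Mem, (∀ a, a ≠ 6 → m' a = m a) → ez.eval m' = z) (h1 : m 6 1 = e)
    (he : e < n * n) (h0 : m 0 0 = n) (ha : ∀ i ≤ n, m 1 i = (adj.take i).flatten.length)
    (hb : ∀ i, m 2 i = adj.flatten.getD i 0) : (adE eW ez).eval m = adAd n W z adj e := by
  have hn : 0 < n := Nat.pos_of_mul_pos_left (Nat.zero_lt_of_lt he)
  have a1 : e / n < n := (Nat.div_lt_iff_lt_mul hn).2 he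
  simp only [adE, FE.eval]
  rw [hW _ fun a ha => by simp only [Mem.set_arr _ _ _ ha],
    hz _ fun a ha => by simp only [Mem.set_arr _ _ _ ha]]
  simp only [Mem.set_apply, h1, h0, and_self, true_and, if_true, Nat.reduceEqDiff, if_false,
    false_and, ha _ a1, ha _ a1.le, hb, take_len_succ]
  unfold adAd
  by_cases c : e % n < (adj.getD (e / n) []).length
  · rw [if_neg (by omega), if_pos c, flat_getD _ _ _ c]
  · rw [if_pos (by omega), if_neg c]

theorem adAd_iff {n W z : ℕ} {G : SimpleGraph (Fin n)} {adj : List (List ℕ)} (h : Rep G adj)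
    {u v : ℕ} (hW : n ≤ W) (hv : v < W) (hz : u * W + v ≠ z) :
    (∃ e < n * n, adAd n W z adj e = u * W + v) ↔
      ∃ (hu : u < n) (hv : v < n), G.Adj ⟨u, hu⟩ ⟨v, hv⟩ := by
  constructor
  · rintro ⟨e, he, h1⟩
    have hn : 0 < n := Nat.pos_of_mul_pos_left (Nat.zero_lt_of_lt he)
    have a1 : e / n < n := (Nat.div_lt_iff_lt_mul hn).2 he
    unfold adAd at h1
    split_ifs at h1 with c
    · obtain ⟨w, hw⟩ := ((h.2 ⟨e / n, a1⟩).2 ((adj.getD (e / n) []).getD (e % n) 0)).1 (by
        rw [List.getD_eq_getElem _ _ c]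
        exact List.getElem_mem c)
      have b1 := (Nat.div_mod_unique (a := u * W + v) (d := u) (c := v)
        (show 0 < W by omega)).2 ⟨by ring, hv⟩
      have b2 := (Nat.div_mod_unique (a := u * W + v) (d := e / n)
        (c := (adj.getD (e / n) []).getD (e % n) 0) (show 0 < W by omega)).2
        ⟨by rw [← h1]; ring, by omega⟩
      obtain rfl : u = e / n := b1.1.symm.trans b2.1
      obtain rfl : v = _ := b1.2.symm.trans b2.2
      exact ⟨a1, w, hw⟩
    · exact absurd h1.symm hz
  · rintro ⟨hu, hv', h1⟩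
    obtain ⟨t, ht, e⟩ := List.getElem_of_mem (((h.2 ⟨u, hu⟩).2 v).2 ⟨hv', h1⟩)
    have a1 := h.len_le hu
    have b1 := (Nat.div_mod_unique (a := u * n + t) (d := u) (c := t)
      (show 0 < n by omega)).2 ⟨by ring, lt_of_lt_of_le ht a1⟩
    refine ⟨u * n + t, ?_, ?_⟩
    · have := Nat.mul_le_mul_right n (show u + 1 ≤ n by omega)
      have : t < n := lt_of_lt_of_le ht a1
      nlinarith
    · unfold adAd
      rw [b1.1, b1.2, if_pos ht, List.getD_eq_getElem _ _ ht, e]

end Vale.Agent.P305
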