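import Vale.Agent.P305.Mark
import Vale.Agent.P305.InitC

/-! Adjacency matrix and random values. -/

namespace Vale.Agent.P305

open Vale.Agent.P315 Finset

theorem init4_ex (S : Sch) : Ex S fun n P B V K c => ∀ (G : SimpleGraph (Fin n)) (L : List (List ℕ))
    (ρ : ℕ → Bool) (m : Mem), Inp G L ρ m → S.RO1 n m → (∀ i, m 25 i = 0) → Bd V m →
    ∃ m', Does P B c m m' (40 * S.big n * K) ∧ Bd V m' ∧ Kp [24, 25] m m' ∧ S.Dat G ρ m' := by
  obtain ⟨c1, k1, H1⟩ := mark_ex 25 (by decide) (by decide) (by decide)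
    (.mul (.rd 0 (.c 0)) (.rd 0 (.c 0)))
    (.lt 1 (.v 0) (adE (.rd 17 (.c 1)) (.mul (.rd 17 (.c 1)) (.rd 17 (.c 1))))) rfl rfl rfl
  obtain ⟨c2, k2, H2⟩ := rec_fl_ex 24 (by decide) (by decide) (by decide) (.c 0)
    (.mul (.rd 17 (.c 1)) (.rd 17 (.c 1)))
    (.add (.c 1) (.sum 1 1 (.mul (.rd 3 (.add (.mul (.v 0) (.rd 17 (.c 6))) (.v 1)))
      (.rd 26 (.v 1))))) rfl rfl rfl rfl
  refine ⟨.seq c1 c2, k1 + k2 + 1, by omega, fun n P B V κ hκ cx G L ρ m inp ro z hB => ?_⟩
  have hE := cx.env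
  have b1 := cx.big
  have b2 : S.N n * S.N n * (S.w n + 4) ≤ S.big n := big_N
  have b3 : 4 * S.p n ≤ S.big n := big_p
  have b4 : n < S.h n := n_lt_h cx.ok
  have b5 : S.N n = 2 * S.h n := N_eq cx.ok
  have b6 : n * n ≤ S.N n * S.N n := Nat.mul_le_mul (by omega) (by omega)
  have b7 : 1 ≤ S.N n * S.N n := Nat.mul_pos (by omega) (by omega)
  have b8 : S.N n * S.N n * 4 ≤ S.big n :=
    (Nat.mul_le_mul_left _ (Nat.le_add_left _ _)).trans b2
  have r1 : m 17 1 = S.N n := ro.par 1 (by decide) (by decide)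
  have r6 : m 17 6 = S.w n := ro.par 6 (by decide) (by decide)
  have r7 : m 7 1 = S.w n := ro.sm 1
  have hK : 1 ≤ kc S n κ := kc_pos (by omega)
  have d1 := H1 P B V (S.R n) κ m (adAd n (S.N n) (S.N n * S.N n) L) (n * n) (by omega) hE hB
    (ro.Sm cx.ok) (by simp only [FE.eval, inp.a0]) (by omega) fun e he => by
      simp only [FE.eval, Mem.set_same]
      refine adE_eval (fun m' hm' => ?_) (fun m' hm' => ?_) (Mem.set_same _ _ _ _) he ?_
        (fun i hi => ?_) fun i => ?_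
      · simp only [FE.eval, hm' 17 (by decide), Mem.set_apply, Nat.reduceEqDiff, false_and,
          if_false, r1]
      · simp only [FE.eval, hm' 17 (by decide), Mem.set_apply, Nat.reduceEqDiff, false_and,
          if_false, r1]
      · simp only [Mem.set_apply, Nat.reduceEqDiff, false_and, if_false, inp.a0]
      · simp only [Mem.set_apply, Nat.reduceEqDiff, false_and, if_false, inp.a1 i hi]
      · simp only [Mem.set_apply, Nat.reduceEqDiff, false_and, if_false, inp.a2 i]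
  set m1 := mrk m 25 (n * n) (adAd n (S.N n) (S.N n * S.N n) L) with hm1
  have B1 : Bd V m1 := mrk_bd hB (by omega) _ _ _
  have ro1 : S.RO1 n m1 := ro.stab fun a ha => mrk_arr _ _ _ (by rintro rfl; simp at ha)
  have v2 : ∀ e < S.N n * S.N n, S.val n ρ e ≤ V := fun e _ => by
    have : S.val n ρ e < S.p n := val_lt ρ e
    omega
  have d2 := H2 P B V (S.R n) κ (by omega) hE m1 (S.val n ρ) 0 (S.N n * S.N n) B1 (ro1.Sm cx.ok)
    rfl (by simp only [FE.eval, hm1, mrk_arr _ _ _ (show 17 ≠ 25 by decide), r1]) (by omega) v2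
    fun e _ => by
      simp only [FE.eval, Mem.set_apply, Nat.reduceEqDiff, false_and, if_false, and_self, if_true,
        true_and, hm1, mrk_arr _ _ _ (show 17 ≠ 25 by decide),
        mrk_arr _ _ _ (show 7 ≠ 25 by decide), mrk_arr _ _ _ (show 3 ≠ 25 by decide),
        mrk_arr _ _ _ (show 26 ≠ 25 by decide), r6, r7, inp.a3]
      unfold Sch.val
      congr 1
      refine sum_congr rfl fun t ht => ?_
      rw [ro.p2 t (by have := mem_range.1 ht; omega)]
      split_ifs <;> simp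
  refine ⟨_, (d1.seq d2).mono ?_, B1.upd _ _ _ v2, fun a ha => ?_, fun i hi j hj => ?_,
    fun e he => upd_in0 _ _ _ _ he⟩
  · change _ * kc S n κ + _ * kc S n κ + 1 ≤ _
    generalize kc S n κ = K at *
    have t2 := Nat.mul_le_mul_right K
      (show n * n + 1 + (S.N n * S.N n + 1) + 1 ≤ 40 * S.big n by omega)
    simp only [add_mul] at t2 ⊢
    omega
  · simp only [List.mem_cons, List.not_mem_nil, or_false, not_or] at ha
    rw [upd_arr _ _ _ _ ha.1, hm1, mrk_arr _ _ _ ha.2]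
  · rw [upd_arr _ _ _ _ (by decide)]
    simp only [hm1, mrk, true_and, z]
    have t1 := Nat.mul_le_mul_right (S.N n) (show i + 1 ≤ S.N n from hi)
    rw [add_mul] at t1
    have t2 := adAd_iff (u := i) (z := S.N n * S.N n) inp.al (show n ≤ S.N n by omega) hj
      (by omega)
    by_cases c : ∃ (hi : i < n) (hj : j < n), G.Adj ⟨i, hi⟩ ⟨j, hj⟩
    · rw [if_pos c, if_pos (t2.2 c)]
    · rw [if_neg c, if_neg fun h => c (t2.1 h)]

end Vale.Agent.P305
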