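import Vale.Agent.P315.Fill

/-! Counting loop, sieve of Eratosthenes and table of inverses on the word RAM. -/

namespace Vale.Agent.P305

open Vale.Agent.P315 Finset

/-- Loop over variable `x` up to the bound stored in cell `i` of array `a`. -/
def forC (x a i : ℕ) (c : Cmd) : Cmd :=
  .loop (.sub (.rd a (.const i)) (.rd 6 (.const x)))
    (.seq c (.store 6 (.const x) (.add (.rd 6 (.const x)) (.const 1))))

theorem for_does {P : List Cmd} {B x a i σ T : ℕ} {c : Cmd} {M : ℕ → Mem} (ha : a ≠ 5)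
    (ha6 : a ≠ 6 ∨ i ≠ x) (hx : x < B) (hi : i < B) (hσ : σ < B) (h1 : 1 < B)
    (hM : ∀ e ≤ σ, M e a i = σ)
    (hc : ∀ e < σ, Does P B c ((M e).set 6 x e) ((M (e + 1)).set 6 x e) T) (n : ℕ) :
    ∀ e, e + n = σ →
      Does P B (forC x a i c) ((M e).set 6 x e) ((M σ).set 6 x σ) (n * (T + 14) + 6) := by
  induction n with
  | zero =>
    intro e he m0 h0
    obtain rfl : e = σ := by omega
    have a1 : m0 a i = e := by
      rw [h0 a i ha, Mem.set_apply, if_neg (by omega), hM e le_rfl]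
    have a2 : m0 6 x = e := by rw [h0 6 x (by decide), Mem.set_same]
    refine ⟨m0, _, Exec.loopdone ?_ ?_, h0, by simp [Expr.cost]⟩
    · simp only [Expr.Fits, Expr.eval, a1, a2]
      omega
    · simp only [Expr.eval, a1, a2]
      omega
  | succ n ih =>
    intro e he m0 h0
    have a1 : m0 a i = σ := by
      rw [h0 a i ha, Mem.set_apply, if_neg (by omega), hM e (by omega)]
    have a2 : m0 6 x = e := by rw [h0 6 x (by decide), Mem.set_same]
    obtain ⟨m1, t1, e1, q1, c1⟩ := hc e (by omega) m0 h0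
    have a3 : m1 6 x = e := by rw [q1 6 x (by decide), Mem.set_same]
    have e2 : Exec P B (.store 6 (.const x) (.add (.rd 6 (.const x)) (.const 1))) m1
        (m1.set 6 x (e + 1)) _ :=
      fill_store (by simp only [Expr.Fits]; omega)
        (by simp only [Expr.Fits, Expr.eval, a3]; omega) rfl (by simp only [Expr.eval, a3])
    obtain ⟨m2, t2, e3, q2, c2⟩ := ih (e + 1) (by omega) (m1.set 6 x (e + 1)) (fun b j hb => by
      have := q1 b j hb
      simp only [Mem.set_apply] at this ⊢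
      split_ifs with h
      · rfl
      · rwa [if_neg h] at this)
    refine ⟨m2, _, Exec.loopstep ?_ ?_ (Exec.seq e1 e2) e3, q2, ?_⟩
    · simp only [Expr.Fits, Expr.eval, a1, a2]
      omega
    · simp only [Expr.eval, a1, a2]
      omega
    · simp only [Expr.cost, add_mul, one_mul] at c2 ⊢
      omega

/-- Write `1` into the cells `f 0, …, f (σ-1)` of array `arr`. -/
def mark (m : Mem) (arr σ : ℕ) (f : ℕ → ℕ) : Mem :=
  fun a i => if a = arr ∧ ∃ e < σ, f e = i then 1 else m a i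

@[simp] theorem mark_arr (m : Mem) {arr a : ℕ} (σ : ℕ) (f : ℕ → ℕ) (h : a ≠ arr) :
    mark m arr σ f a = m a := by funext i; simp [mark, h]

theorem mark_bd {V : ℕ} {m : Mem} (h : Bd V m) (hV : 1 ≤ V) (arr σ : ℕ) (f : ℕ → ℕ) :
    Bd V (mark m arr σ f) := by
  intro a i ha
  unfold mark
  split_ifs
  · exact hV
  · exact h a i ha

theorem does_st {P : List Cmd} {B a i v : ℕ} {m : Mem} (hi : i < B) (hv : v < B) :
    Does P B (.store a (.const i) (.const v)) m (m.set a i v) 3 := by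
  intro m0 h0
  refine ⟨_, _, fill_store (x := i) (y := v) (by simpa only [Expr.Fits] using hi)
    (by simpa only [Expr.Fits] using hv) rfl rfl, fun b j hb => ?_, by simp [Expr.cost]⟩
  simp only [Mem.set_apply, h0 b j hb]

theorem var_ex (x : ℕ) (e : FE) (he : e.noRd 5 = true) :
    ∃ (c : Cmd) (κ : ℕ), ∀ (P : List Cmd) (B V R : ℕ) (m : Mem), Env B V R κ → Bd V m → Sm R m →
      Does P B c m (m.set 6 x (e.eval m)) (κ * R ^ κ) := by
  obtain ⟨c1, k1, H1⟩ := comp_ex e he 0
  refine ⟨.seq c1 (.store 6 (.const x) (.rd 5 (.const 0))), k1 + (x + 5), ?_⟩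
  intro P B V R m hE hm hR m0 h0
  obtain ⟨m1, t1, e1, v1, u1, d1, b1⟩ :=
    H1 P B V R m0 (hE.mono (by omega)) (fill_bd hm h0) (fill_sm hR h0)
  have hB := (hE.mono (show k1 ≤ k1 + (x + 5) by omega)).hB
  have hVB := fill_lt hE (by omega)
  have hk := hE.hκ
  have s1 := cost_add hE.hR k1 (x + 5)
  have s2 := fill_le hE.hR (x + 5)
  have e2 : Exec P B (.store 6 (.const x) (.rd 5 (.const 0))) m1 (m1.set 6 x (e.eval m0)) _ :=
    fill_store (by simp only [Expr.Fits]; omega) (by simp only [Expr.Fits, Expr.eval, v1]; omega)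
      rfl v1
  refine ⟨_, _, Exec.seq e1 e2, fun a i ha => ?_, ?_⟩
  · simp only [Mem.set_apply, fill_ev he h0, u1 a i (Or.inl ha), h0 a i ha]
  · simp only [Expr.cost]
    omega

/-- Scatter loop: `for e < size do arr[addr] := 1`, where `addr` sees `e` as variable `1`. -/
theorem scat_ex (arr : ℕ) (h5 : arr ≠ 5) (h6 : arr ≠ 6) (h7 : arr ≠ 7) (size addr : FE)
    (hs : size.noRd 5 = true) (ha : addr.noRd 5 = true) :
    ∃ (c : Cmd) (κ : ℕ), ∀ (P : List Cmd) (B V R : ℕ) (m : Mem) (f : ℕ → ℕ) (σ : ℕ),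
      Env B V R κ → Bd V m → Sm R m → m 6 1 = 0 → m 6 2 = 0 → size.eval m = σ → σ ≤ V →
      (∀ e < σ, f e < V) →
      (∀ e < σ, ∀ m' : Mem, (∀ a, a ≠ arr → a ≠ 6 → m' a = m a) → m' 6 1 = e →
        addr.eval m' = f e) →
      Does P B c m (mark m arr σ f) ((σ + 1) * (κ * R ^ κ)) := by
  obtain ⟨c1, k1, H1⟩ := var_ex 2 size hs
  obtain ⟨c2, k2, H2⟩ := fill_ex arr h5 h6 addr (.c 1) (.c 1) ha rfl rfl
  refine ⟨.seq c1 (.seq (forC 1 6 2 c2) (.seq (.store 6 (.const 1) (.const 0))
    (.store 6 (.const 2) (.const 0)))), k1 + k2 + k2 + 20, ?_⟩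
  intro P B V R m f σ hE hm hR z1 z2 hσ hV hf hadd
  have hVB := fill_lt hE (by omega)
  have hk := hE.hκ
  have d1 := H1 P B V R m (hE.mono (by omega)) hm hR
  rw [hσ] at d1
  have d2 := for_does (P := P) (B := B) (x := 1) (a := 6) (i := 2) (σ := σ) (c := c2)
    (T := (1 + 1) * (k2 * R ^ k2)) (M := fun e => (mark m arr e f).set 6 2 σ) (by decide)
    (by omega) (by omega) (by omega) (by omega) (by omega) (fun e _ => Mem.set_same _ _ _ _)
    (fun e he => by
      refine (H2 P B V R _ (fun _ => 1) (f e) 1 (hE.mono (by omega))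
        (fill_bd_set (fill_bd_set (mark_bd hm (by omega) _ _ _) _ _ hV) _ _ (by omega))
        (fun r => ?_) (hadd e he _ (fun a a1 a2 => ?_) (Mem.set_same _ _ _ _)) rfl (hf e he)
        (fun _ _ => by omega) (fun h => absurd h h7) (fun _ _ => rfl)).congr (Eqv.refl _)
        fun a i _ => ?_
      · rw [Mem.set_arr _ _ _ (by decide), Mem.set_arr _ _ _ (by decide), mark_arr _ _ _ h7.symm]
        exact hR r
      · rw [Mem.set_arr _ _ _ a2, Mem.set_arr _ _ _ a2, mark_arr _ _ _ a1]
      · by_cases c : a = arr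
        · subst c
          simp only [upd, Mem.set_arr _ _ _ h6, mark, true_and]
          by_cases c2 : f e = i
          · rw [if_pos (by omega), if_pos ⟨e, by omega, c2⟩]
          · rw [if_neg (by omega)]
            refine if_congr ⟨fun ⟨t, t1, t2⟩ => ⟨t, by omega, t2⟩, fun ⟨t, t1, t2⟩ => ⟨t, ?_, t2⟩⟩
              rfl rfl
            rcases Nat.lt_succ_iff_lt_or_eq.1 t1 with h | h
            · exact h
            · exact absurd (h ▸ t2) c2
        · simp only [upd_arr _ _ _ _ c, Mem.set_apply, mark_arr _ _ _ c]) σ 0 (by omega)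
  have d3 := does_st (P := P) (B := B) (a := 6) (i := 1) (v := 0)
    (m := ((mark m arr σ f).set 6 2 σ).set 6 1 σ) (by omega) (by omega)
  have d4 := does_st (P := P) (B := B) (a := 6) (i := 2) (v := 0)
    (m := (((mark m arr σ f).set 6 2 σ).set 6 1 σ).set 6 1 0) (by omega) (by omega)
  refine ((d1.seq ((d2.congr (fun a i _ => ?_) (Eqv.refl _)).seq (d3.seq d4))).congr (Eqv.refl _)
    fun a i _ => ?_).mono ?_
  · simp only [Mem.set_apply, mark, Nat.not_lt_zero, false_and, exists_false, and_false, if_false]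
    split_ifs with c1 c2 c2
    · omega
    · rfl
    · rw [c2.1, c2.2, z1]
    · rfl
  · simp only [Mem.set_apply]
    split_ifs with c1 c2
    · rw [c1.1, c1.2, mark_arr _ _ _ h6.symm, z2]
    · rw [c2.1, c2.2, mark_arr _ _ _ h6.symm, z1]
    · rfl
  · have s1 := cost_add hE.hR k1 k2
    have s2 := cost_add hE.hR (k1 + k2) k2
    have s3 := cost_add hE.hR (k1 + k2 + k2) 20
    have s4 := fill_le hE.hR 20
    have s5 := Nat.mul_le_mul_left σ (show (1 + 1) * (k2 * R ^ k2) + 14 ≤
      (k1 + k2 + k2 + 20) * R ^ (k1 + k2 + k2 + 20) by omega)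
    rw [add_mul σ 1, one_mul]
    omega

end Vale.Agent.P305
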