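import Vale.Agent.P305.Par
import Vale.Agent.P305.Alg2

/-! The leaf. Hints: rec_st_ex, rec_fl_ex, fill_ex (P315/Rec.lean, Fill.lean). a = m 9 0, b = m 9 1, x = m 11 1 = iv a b (gi k 0 a b 0 = a, gi k 0 a b 1 = b). Store in m 8 1 the number f = (1 + (p - t) * x + u * x) % p if a < b, else 0 (t = m 12 (a N + b), u = m 10 (a N + b)); if f ≠ 0 the step is taken (leaf_iff): m 10 (a N + b) := if f = 0 then u else t; array 11 cell e < k * k := if f = 0 then old else old * m 20 f % p (fill_ex, leaf_iv). -/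

namespace Vale.Agent.P305

open Vale.Agent.P315 Finset

theorem leaf_sem {p N a b : ℕ} [Fact p.Prime] {tg u : ℕ → ℕ → ZMod p} (hu : Ns N u) (hb : b < N)
    {f : ℕ} (hf : f = if b - a = 0 then 0 else
      (1 + (p - (tg a b).val) * (iv N u a b).val + (u a b).val * (iv N u a b).val) % p) :
    f < p ∧ (f = 0 → step N tg u (a, b) = u) ∧ (f ≠ 0 → step N tg u (a, b) = up2 u a b (tg a b) ∧
      ∀ x y, (x = a ∨ x = b) → (y = a ∨ y = b) →
        iv N (step N tg u (a, b)) x y = iv N u x y * (f : ZMod p)⁻¹) := by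
  have hp : 0 < p := (Fact.out : p.Prime).pos
  by_cases h : b - a = 0
  · rw [if_pos h] at hf
    exact ⟨hf ▸ hp, fun _ => if_neg fun k => by have := k.1; dsimp only at this; omega,
      fun k => absurd hf k⟩
  rw [if_neg h] at hf
  have hab : a < b := by omega
  have e : (f : ZMod p) = 1 - (tg a b - u a b) * iv N u a b := by
    rw [hf, ZMod.natCast_mod]
    push_cast [Nat.cast_sub (ZMod.val_lt (tg a b)).le, ZMod.natCast_zmod_val, ZMod.natCast_self]
    ring
  have hlt : f < p := hf ▸ Nat.mod_lt _ hp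
  have h1 := leaf_iff hu hab hb (tg a b)
  rw [← e] at h1
  refine ⟨hlt, fun k => if_neg fun k' => h1.1 k'.2 (by rw [k, Nat.cast_zero]), fun k => ?_⟩
  have h2 : Ns N (up2 u a b (tg a b)) := h1.2 fun k' =>
    k (Nat.eq_zero_of_dvd_of_lt ((ZMod.natCast_eq_zero_iff f p).1 k') hlt)
  have h3 : step N tg u (a, b) = up2 u a b (tg a b) := if_pos ⟨hab, h2⟩
  exact ⟨h3, fun x y hx hy => by rw [h3, leaf_iv hu hab hb h2 hx hy, e]⟩

theorem leaf_gi (k a b x : ℕ) : gi k 0 a b x = a ∨ gi k 0 a b x = b := by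
  unfold gi
  split_ifs <;> simp [Nat.mod_one]

/-- The address of the pair. -/
def leaf_ad : FE := .add (.mul (.rd 9 (.c 0)) (.rd 17 (.c 1))) (.rd 9 (.c 1))

/-- The pivot. -/
def leaf_f : FE := .ifz (.sub (.rd 9 (.c 1)) (.rd 9 (.c 0))) (.c 0)
  (.mod (.add (.add (.c 1) (.mul (.sub (.rd 17 (.c 0)) (.rd 12 leaf_ad)) (.rd 11 (.c 1))))
    (.mul (.rd 10 leaf_ad) (.rd 11 (.c 1)))) (.rd 17 (.c 0)))

theorem leaf_ex (S : Sch) : Ex S fun n P B V K c => Sp S n P B V c 0 (8 * S.cu n 0 * K) := by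
  obtain ⟨c1, k1, H1⟩ := rec_st_ex 8 (by decide) (by decide) (by decide) (.c 1) leaf_f rfl rfl
  obtain ⟨c2, k2, H2⟩ := rec_st_ex 10 (by decide) (by decide) (by decide) leaf_ad
    (.ifz (.rd 8 (.c 1)) (.rd 10 leaf_ad) (.rd 12 leaf_ad)) rfl rfl
  obtain ⟨c3, k3, H3⟩ := fill_ex 11 (by decide) (by decide) (.c 0) (.rd 7 (.c 0))
    (.ifz (.rd 8 (.c 1)) (.rd 11 (.v 0))
      (.mod (.mul (.rd 11 (.v 0)) (.rd 20 (.rd 8 (.c 1)))) (.rd 17 (.c 0)))) rfl rfl rfl
  refine ⟨.seq c1 (.seq c2 c3), k1 + k2 + k3 + 1, by omega,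
    fun n P B V κ hκ X tg u a b m ha hb hN _ => ?_⟩
  have H := X.ok
  have hk := k_two H
  replace ha : a < S.N n := ha
  replace hb : b < S.N n := hb
  have hpV : 4 * S.p n ≤ V := big_p.trans X.big
  have hNV : S.N n * S.N n ≤ V :=
    (Nat.le_mul_of_pos_right _ (by omega)).trans (big_N.trans X.big)
  have hcu := sq_le_cu (n := n) H 0
  have hWV : S.k * S.k ≤ V := by
    have h1 := sq_le_W (n := n) H (Nat.zero_le _)
    rw [zero_add, pow_one] at h1
    exact h1.trans ((Nat.le_mul_of_pos_left _ (by omega)).trans ((big_W H).trans X.big))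
  rw [zero_add, pow_one] at hcu
  have had : a * S.N n + b + 1 ≤ S.N n * S.N n :=
    (show a * S.N n + b + 1 ≤ (a + 1) * S.N n by rw [add_mul]; omega).trans
      (Nat.mul_le_mul_right _ ha)
  have a9 : m 9 0 = a := hN.fa
  have b9 : m 9 1 = b := hN.fb
  have p17 : m 17 0 = S.p n := hN.ro.par 0 (by omega)
  have n17 : m 17 1 = S.N n := hN.ro.par 1 (by omega)
  have k7 : m 7 0 = S.k * S.k := hN.ro.sm 0
  have u10 : m 10 (a * S.N n + b) = (u a b).val := by simpa using hN.ru a ha b hb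
  have t12 : m 12 (a * S.N n + b) = (tg a b).val := by simpa using hN.rt a ha b hb
  have rm := hN.rm
  rw [zero_mul, zero_add, pow_one] at rm
  have x11 : m 11 1 = (iv (S.N n) u a b).val := by
    simpa [Sch.loc, gi] using rm 0 (by omega) 1 (by omega)
  obtain ⟨f, hf⟩ : ∃ f, f = if b - a = 0 then 0 else (1 + (S.p n - (tg a b).val) *
    (iv (S.N n) u a b).val + (u a b).val * (iv (S.N n) u a b).val) % S.p n := ⟨_, rfl⟩
  obtain ⟨s1, s2, s3⟩ := leaf_sem hN.ns hb hf
  have hns := ns_step (tg := tg) hN.ns (a, b)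
  change ∃ m', _ ∧ _ ∧ Nd S n V tg (step (S.N n) tg u (a, b)) 0 a b m'
  generalize step (S.N n) tg u (a, b) = u' at *
  have hval : ∀ z : ZMod (S.p n), z.val ≤ V := fun z => by have := ZMod.val_lt z; omega
  have hS := hN.ro.Sm H
  have d1 := H1 P B V _ κ (by omega) X.env m 1 f hN.bd hS rfl X.env.h2 (by omega) (by
    simp [leaf_f, leaf_ad, FE.eval, a9, b9, p17, n17, u10, t12, x11, hf])
  have bd1 := fill_bd_set hN.bd 8 1 (show f ≤ V by omega)
  have d2 := H2 P B V _ κ (by omega) X.env (m.set 8 1 f) (a * S.N n + b) (u' a b).val bd1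
    (fun r => by simpa using hS r) (by simp [leaf_ad, FE.eval, a9, b9, n17]) (by omega) (hval _) (by
      by_cases h : f = 0
      · simp [leaf_ad, FE.eval, a9, b9, n17, u10, h, s2 h]
      · simp [leaf_ad, FE.eval, a9, b9, n17, t12, h, (s3 h).1, up2])
  have bd2 := fill_bd_set bd1 10 (a * S.N n + b) (hval (u' a b))
  have d3 := H3 P B V _ ((m.set 8 1 f).set 10 (a * S.N n + b) (u' a b).val)
    (fun e => (S.loc n u' 0 a b (e / S.k) (e % S.k)).val) 0 (S.k * S.k) (X.env.mono (by omega)) bd2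
    (fun r => by simpa using hS r) rfl (by simp [FE.eval, k7]) (by omega) (fun _ _ => hval _)
    (fun h => absurd h (by decide)) (fun e he => by
      have r := rm (e / S.k) (Nat.div_lt_of_lt_mul he) (e % S.k) (Nat.mod_lt _ (by omega))
      rw [zero_add, Nat.div_add_mod'] at r
      by_cases h : f = 0
      · simp [FE.eval, upd_out, r, h, s2 h]
      · simp [FE.eval, upd_out, r, h, p17, hN.ro.inv f s1, Sch.loc, ZMod.val_mul,
          (s3 h).2 _ _ (leaf_gi _ _ _ _) (leaf_gi _ _ _ _)])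
  refine ⟨_, (d1.seq (d2.seq d3)).mono ?_, ⟨fun c hc => ?_, fun i _ => by simp, fun i hi => ?_⟩,
    hN.ro.stab (by simp), bd2.upd _ _ _ fun _ _ => hval _, by simpa using hN.lv,
    by simpa using a9, by simpa using b9, hns, fun i hi j hj => ?_, fun i hi j hj => ?_, ?_⟩
  · have h1 := cost_mono X.env.hR (show k3 ≤ κ by omega)
    have h2 := kc_pos (S := S) (n := n) (show 1 ≤ κ by omega)
    have h3 := Nat.mul_le_mul_left (S.k * S.k + 1) h1
    have h4 := Nat.mul_le_mul_right (kc S n κ) hcu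
    unfold kc at *
    rw [mul_assoc]
    simp only [add_mul] at h3 h4 ⊢
    omega
  · simp only [List.mem_cons, not_or] at hc
    rw [upd_arr _ _ _ _ hc.2.2.2.1, Mem.set_arr _ _ _ hc.2.2.1, Mem.set_arr _ _ _ hc.1]
  · have h1 := sq_le_W (n := n) H (Nat.zero_le _)
    rw [zero_add, pow_one] at h1
    rw [upd_out _ _ _ _ _ _ (Or.inr (by omega))]
    simp
  · have r := hN.ru i hi j hj
    rw [upd_arr _ _ _ _ (by decide), Mem.set_apply, zero_add]
    rw [zero_add] at r
    split_ifs with h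
    · have e2 := congrArg (· % S.N n) h.2
      simp only [Nat.mul_add_mod', Nat.mod_eq_of_lt hj, Nat.mod_eq_of_lt hb] at e2
      have e3 : i = a := Nat.eq_of_mul_eq_mul_right (show 0 < S.N n by omega) (by omega)
      rw [e2, e3]
    · rw [Mem.set_arr _ _ _ (by decide), r]
      by_cases h0 : f = 0
      · rw [s2 h0]
      · rw [(s3 h0).1, up2, if_neg fun k => h ⟨rfl, by rw [k.1, k.2]⟩]
  · simpa using hN.rt i hi j hj
  · rw [zero_mul, zero_add, pow_one]
    exact rp_upd _ _ _ _ _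

end Vale.Agent.P305
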