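import Vale.Agent.P305.Defs

/-! More definitions: input tables. FROZEN. -/

namespace Vale.Agent.P305

open Vale.Agent.P315 Finset

/-- Extension of the random bits. -/
def ext {R : ℕ} (r : Fin R → Bool) (i : ℕ) : Bool := if h : i < R then r ⟨i, h⟩ else false

namespace Sch

variable (S : Sch) (n : ℕ)

/-- The tables that do not depend on the prime. -/
structure RO1 (m : Mem) : Prop where
  sm : ∀ i, m 7 i = [S.k * S.k, S.w n, S.ρ].getD i 0
  par : ∀ i < 8, 0 < i → m 17 i = [S.p n, S.N n, S.L n, S.W n, S.h n, n, S.w n, 2 ^ S.w n].getD i 0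
  pk : ∀ i ≤ 2 * S.L n + 2, m 18 i = S.k ^ i
  pρ : ∀ i ≤ S.L n + 1, m 19 i = S.ρ ^ i
  p2 : ∀ i ≤ S.w n + 2, m 26 i = 2 ^ i

variable {n} (G : SimpleGraph (Fin n)) (ρ : ℕ → Bool)

open Classical in
/-- The adjacency matrix and the random values. -/
structure Dat (m : Mem) : Prop where
  adj : ∀ i < S.N n, ∀ j < S.N n, m 25 (i * S.N n + j) =
    if ∃ (hi : i < n) (hj : j < n), G.Adj ⟨i, hi⟩ ⟨j, hj⟩ then 1 else 0
  val : ∀ e < S.N n * S.N n, m 24 e = S.val n ρ e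

end Sch

/-- The input arrays. -/
structure Inp {n : ℕ} (G : SimpleGraph (Fin n)) (L : List (List ℕ)) (ρ : ℕ → Bool) (m : Mem) :
    Prop where
  al : Rep G L
  a0 : m 0 0 = n
  a1 : ∀ i ≤ n, m 1 i = (L.take i).flatten.length
  a2 : ∀ i, m 2 i = L.flatten.getD i 0
  a3 : ∀ i, m 3 i = if ρ i = true then 1 else 0

/-- A command that works for all large constants. -/
def Ex (S : Sch) (Q : (n : ℕ) → List Cmd → ℕ → ℕ → ℕ → Cmd → Prop) : Prop :=
  ∃ (c : Cmd) (κ : ℕ), 1 ≤ κ ∧ ∀ n P B V κ', κ ≤ κ' → Cx S n B V κ' → Q n P B V (kc S n κ') c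

end Vale.Agent.P305
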