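import Vale.Agent.P305.MMdef

/-! The way down. Hints: lam = l + 1, Z = ρ ^ lam = m 19 lam. Level t lives in arr from t * Z on, block u of size s = k ^ (lam - t) at u * s * s, entry (i, j) at i * s + j (ρ ^ t * s * s ≤ Z by kk_le). ONE sequential fill_ex with base Z, size lam * Z: cell e has t = e / Z, f = e % Z, s = k ^ (lam - t - 1) = m 18 (..), u = f / (s * s), i = f / s % s, j = f % s, value g e = if u < ρ ^ (t + 1) then (dnL (t + 1) u i j).val else 0, computed as (sum over q < k * k = m 7 0 of m cf (u % ρ * (k * k) + q) * m arr (t * Z + ((u / ρ * (k * s) + (q / k * s + i)) * (k * s) + (q % k * s + j)))) % p; the cell read is an earlier cell of the fill (t > 0) or of the input (t = 0). FE.lt binds local variables (array 6), FE.sum x r sums over range (m 7 r); a test a < b is ifz (sub b a). Cost and addresses: cu, big_cu. -/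

namespace Vale.Agent.P305

open Vale.Agent.P315 Finset

/-- The size of the product. -/
def dnLam : FE := .add (.rd 8 (.c 0)) (.c 1)
/-- The length of a level. -/
def dnZ : FE := .rd 19 dnLam
/-- The level that is read. -/
def dnT : FE := .div (.v 0) dnZ
/-- The position inside the level. -/
def dnF : FE := .mod (.v 0) dnZ
/-- The size of a block. -/
def dnS : FE := .rd 18 (.sub dnLam (.add dnT (.c 1)))
/-- The number of the block. -/
def dnU : FE := .div dnF (.mul dnS dnS)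
/-- The size of a block one level above. -/
def dnKS : FE := .mul (.rd 18 (.c 1)) dnS

/-- The value of a cell. -/
def dnBody (arr cf : ℕ) : FE :=
  .ifz (.sub (.rd 19 (.add dnT (.c 1))) dnU) (.c 0) (.mod (.sum 1 0 (.mul
    (.rd cf (.add (.mul (.mod dnU (.rd 7 (.c 2))) (.rd 7 (.c 0))) (.v 1)))
    (.rd arr (.add (.mul dnT dnZ) (.add (.mul (.add (.mul (.div dnU (.rd 7 (.c 2))) dnKS)
      (.add (.mul (.div (.v 1) (.rd 18 (.c 1))) dnS) (.mod (.div dnF dnS) dnS))) dnKS)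
      (.add (.mul (.mod (.v 1) (.rd 18 (.c 1))) dnS) (.mod dnF dnS))))))) (.rd 17 (.c 0)))

theorem dn_eval {arr cf : ℕ} (h1 : arr ≠ 6) (h2 : cf ≠ 6) (M : Mem) {e l Z s k ρ p r : ℕ}
    (a0 : M 6 0 = e) (a1 : M 8 0 = l) (a2 : M 19 (l + 1) = Z)
    (a3 : M 18 (l + 1 - (e / Z + 1)) = s) (a4 : M 18 1 = k) (a5 : M 7 0 = k * k) (a6 : M 7 2 = ρ)
    (a7 : M 17 0 = p) (a8 : M 19 (e / Z + 1) = r) :
    (dnBody arr cf).eval M = if r - e % Z / (s * s) = 0 then 0 else
      (∑ q ∈ range (k * k), M cf (e % Z / (s * s) % ρ * (k * k) + q) *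
        M arr (e / Z * Z + ((e % Z / (s * s) / ρ * (k * s) + (q / k * s + e % Z / s % s)) * (k * s) +
          (q % k * s + e % Z % s)))) % p := by
  have b0 : ∀ q, M.set 6 1 q 6 0 = e := fun q => by rw [Mem.set_idx _ _ _ (by decide), a0]
  have b1 : ∀ q a, a ≠ 6 → M.set 6 1 q a = M a := fun q a ha => Mem.set_arr _ _ _ ha
  simp only [dnBody, dnKS, dnU, dnS, dnF, dnT, dnZ, dnLam, FE.eval, b0, Mem.set_same,
    b1 _ _ h1, b1 _ _ h2, b1 _ 7 (by decide), b1 _ 8 (by decide), b1 _ 18 (by decide),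
    b1 _ 19 (by decide), a0, a1, a2, a3, a4, a5, a6, a7, a8]

theorem dn_idx {s u a b : ℕ} (ha : a < s) (hb : b < s) :
    ((u * s + a) * s + b) / (s * s) = u ∧ ((u * s + a) * s + b) / s % s = a ∧
      ((u * s + a) * s + b) % s = b := by
  have hs : 0 < s := by omega
  have e1 : ((u * s + a) * s + b) / s = u * s + a := by
    rw [add_comm, Nat.add_mul_div_right _ _ hs, Nat.div_eq_of_lt hb, zero_add]
  refine ⟨?_, ?_, ?_⟩
  · rw [← Nat.div_div_eq_div_mul, e1, add_comm, Nat.add_mul_div_right _ _ hs,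
      Nat.div_eq_of_lt ha, zero_add]
  · rw [e1, add_comm, Nat.add_mul_mod_self_right, Nat.mod_eq_of_lt ha]
  · rw [add_comm, Nat.add_mul_mod_self_right, Nat.mod_eq_of_lt hb]

theorem dn_lt {s u a b r : ℕ} (hu : u < r) (ha : a < s) (hb : b < s) :
    (u * s + a) * s + b < r * (s * s) := by
  have e1 : u * s + a + 1 ≤ r * s := by
    have := Nat.mul_le_mul_right s (show u + 1 ≤ r from hu)
    rw [add_mul, one_mul] at this
    omega
  have := Nat.mul_le_mul_right s e1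
  rw [add_mul, one_mul, mul_assoc] at this
  omega

theorem dn_sub {k s c i : ℕ} (hc : c < k) (hi : i < s) : c * s + i < k * s := by
  have := Nat.mul_le_mul_right s (show c + 1 ≤ k from hc)
  rw [add_mul, one_mul] at this
  omega

theorem dn_dm {Z t x : ℕ} (hx : x < Z) : (t * Z + x) / Z = t ∧ (t * Z + x) % Z = x := by
  constructor
  · rw [add_comm, Nat.add_mul_div_right _ _ (by omega), Nat.div_eq_of_lt hx, zero_add]
  · rw [add_comm, Nat.add_mul_mod_self_right, Nat.mod_eq_of_lt hx]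

/-- The content of cell `f` of level `t`. -/
noncomputable def dnG (S : Sch) (n l : ℕ) (al : ℕ → ZMod (S.p n)) (X : ℕ → ℕ → ZMod (S.p n))
    (t f : ℕ) : ℕ :=
  if f / (S.k ^ (l + 1 - t) * S.k ^ (l + 1 - t)) < S.ρ ^ t then
    (dnL S.k S.ρ al (l + 1) X t (f / (S.k ^ (l + 1 - t) * S.k ^ (l + 1 - t)))
      (f / S.k ^ (l + 1 - t) % S.k ^ (l + 1 - t)) (f % S.k ^ (l + 1 - t))).val else 0

theorem dn_read {S : Sch} {n l arr e t u a b : ℕ} (H : S.Ok) {al : ℕ → ZMod (S.p n)}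
    {X : ℕ → ℕ → ZMod (S.p n)} {m : Mem} (hX : Rp m arr 0 (S.k ^ (l + 1)) X) (ht : t ≤ l)
    (he : t * S.ρ ^ (l + 1) ≤ e) (hu : u < S.ρ ^ t) (ha : a < S.k ^ (l + 1 - t))
    (hb : b < S.k ^ (l + 1 - t)) :
    upd m arr (S.ρ ^ (l + 1)) e
      (fun e => dnG S n l al X (e / S.ρ ^ (l + 1) + 1) (e % S.ρ ^ (l + 1))) arr
      (t * S.ρ ^ (l + 1) + ((u * S.k ^ (l + 1 - t) + a) * S.k ^ (l + 1 - t) + b)) =
      (dnL S.k S.ρ al (l + 1) X t u a b).val := by
  have hx : (u * S.k ^ (l + 1 - t) + a) * S.k ^ (l + 1 - t) + b < S.ρ ^ (l + 1) := by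
    refine (dn_lt hu ha hb).trans_le ((Nat.mul_le_mul_left _ (kk_le H _)).trans_eq ?_)
    rw [← pow_add]
    congr 1
    omega
  obtain ⟨i1, i2, i3⟩ := dn_idx (u := u) ha hb
  cases t with
  | zero =>
    obtain rfl : u = 0 := by simpa using hu
    rw [upd_out _ _ _ _ _ _ (Or.inl (by omega))]
    have := hX a ha b hb
    simpa [dnL] using this
  | succ t =>
    rw [add_mul t 1, one_mul] at he
    rw [add_mul t 1, one_mul, add_comm (t * _), add_assoc, upd_in _ _ _ _ _ (by omega),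
      (dn_dm hx).1, (dn_dm hx).2, dnG, i1, i2, i3, if_pos hu]

theorem dn_ex (S : Sch) (arr cf : ℕ) (h : (arr = 13 ∧ cf = 21) ∨ (arr = 14 ∧ cf = 22)) :
    Ex S fun n P B V K c => ∀ (m : Mem) (l : ℕ) (al : ℕ → ZMod (S.p n))
    (X : ℕ → ℕ → ZMod (S.p n)), l ≤ S.L n → S.RO n m → Bd V m → m 8 0 = l →
    (∀ q < S.ρ * (S.k * S.k), m cf q = (al q).val) → Rp m arr 0 (S.k ^ (l + 1)) X →
    ∃ m', Does P B c m m' (2 * S.cu n l * K) ∧ Bd V m' ∧ Kp [arr] m m' ∧ ∀ u < S.ρ ^ (l + 1),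
      m' arr ((l + 1) * S.ρ ^ (l + 1) + u) = (dnL S.k S.ρ al (l + 1) X (l + 1) u 0 0).val := by
  have h5 : arr ≠ 5 := by omega
  have h6 : arr ≠ 6 := by omega
  have h7 : arr ≠ 7 := by omega
  have hy : (dnBody arr cf).noRd 5 = true := by
    rcases h with ⟨rfl, rfl⟩ | ⟨rfl, rfl⟩ <;> rfl
  obtain ⟨c, κ, Hc⟩ := fill_ex arr h5 h6 dnZ (.mul dnLam dnZ) (dnBody arr cf) rfl rfl hy
  refine ⟨c, κ + 1, by omega, ?_⟩
  intro n P B V κ' hκ C m l al X hl ro bd lv hal hX
  have H := C.ok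
  have hk := k_two H
  have hρ : 1 ≤ S.ρ := le_trans (Nat.mul_pos (by omega) (by omega)) H.hρ
  have hZ : 0 < S.ρ ^ (l + 1) := Nat.pow_pos hρ
  have hcu : (l + 1) * S.ρ ^ (l + 1) + S.ρ ^ (l + 1) ≤ S.cu n l := by
    have := Nat.mul_le_mul_right (S.ρ ^ (l + 1)) (show l + 1 + 1 ≤ S.L n + 3 by omega)
    rw [add_mul (l + 1), one_mul] at this
    exact this
  have hbig : S.cu n l ≤ V :=
    (Nat.le_mul_of_pos_left _ hρ).trans ((big_cu H hl).trans C.big)
  have hp : S.p n ≤ V := by have := (big_p (S := S) (n := n)).trans C.big; omega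
  have hg : ∀ t f, dnG S n l al X t f ≤ V := fun t f => by
    unfold dnG
    split_ifs
    · exact (ZMod.val_lt _).le.trans hp
    · exact Nat.zero_le _
  have z1 : m 19 (l + 1) = S.ρ ^ (l + 1) := ro.pρ _ (by omega)
  refine ⟨upd m arr (S.ρ ^ (l + 1)) ((l + 1) * S.ρ ^ (l + 1))
    (fun e => dnG S n l al X (e / S.ρ ^ (l + 1) + 1) (e % S.ρ ^ (l + 1))), ?_,
    bd.upd _ _ _ fun e _ => hg _ _, kp_upd _ _ _ _ _, fun u hu => ?_⟩
  · refine (Hc P B V (S.R n) m _ _ _ (C.env.mono (by omega)) bd (ro.Sm H)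
      (by simp only [dnZ, dnLam, FE.eval, lv, z1]) (by simp only [dnZ, dnLam, FE.eval, lv, z1])
      (by omega) (fun e _ => hg _ _) (fun h => absurd h h7) fun e he => ?_).mono
      (Nat.mul_le_mul (by omega) (cost_mono C.env.hR (by omega)))
    have ht : e / S.ρ ^ (l + 1) ≤ l := Nat.lt_succ_iff.1 ((Nat.div_lt_iff_lt_mul hZ).2 he)
    have b : ∀ a, a ≠ 6 → a ≠ arr → ((upd m arr (S.ρ ^ (l + 1)) e fun e =>
        dnG S n l al X (e / S.ρ ^ (l + 1) + 1) (e % S.ρ ^ (l + 1))).set 6 0 e) a = m a :=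
      fun a a1 a2 => by rw [Mem.set_arr _ _ _ a1, upd_arr _ _ _ _ a2]
    rw [dn_eval h6 (by omega) _ (Mem.set_same _ _ _ _) (l := l) (Z := S.ρ ^ (l + 1))
      (s := S.k ^ (l + 1 - (e / S.ρ ^ (l + 1) + 1))) (k := S.k) (ρ := S.ρ) (p := S.p n)
      (r := S.ρ ^ (e / S.ρ ^ (l + 1) + 1))
      (by rw [b 8 (by omega) (by omega), lv]) (by rw [b 19 (by omega) (by omega), z1])
      (by rw [b 18 (by omega) (by omega), ro.pk _ ((Nat.sub_le _ _).trans (by omega))])
      (by rw [b 18 (by omega) (by omega), ro.pk _ (by omega), pow_one])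
      (by rw [b 7 (by omega) (by omega), ro.sm]; rfl) (by rw [b 7 (by omega) (by omega), ro.sm]; rfl)
      (by rw [b 17 (by omega) (by omega), ro.par 0 (by omega)]; rfl)
      (by rw [b 19 (by omega) (by omega), ro.pρ _ (by omega)]),
      b cf (by omega) (by omega), Mem.set_arr _ _ _ h6]
    have hte : e / S.ρ ^ (l + 1) * S.ρ ^ (l + 1) ≤ e := Nat.div_mul_le_self _ _
    generalize e / S.ρ ^ (l + 1) = t at ht hte ⊢
    generalize e % S.ρ ^ (l + 1) = f
    have hs : 0 < S.k ^ (l + 1 - (t + 1)) := Nat.pow_pos (by omega)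
    have hks : S.k * S.k ^ (l + 1 - (t + 1)) = S.k ^ (l + 1 - t) := by
      rw [← pow_succ']
      congr 1
      omega
    rw [dnG]
    by_cases hu : f / (S.k ^ (l + 1 - (t + 1)) * S.k ^ (l + 1 - (t + 1))) < S.ρ ^ (t + 1)
    · rw [if_neg (by omega), if_pos hu, dnL, ← ZMod.val_natCast]
      congr 1
      rw [Nat.cast_sum]
      refine sum_congr rfl fun q hq => ?_
      have hq' := mem_range.1 hq
      have q1 : q / S.k < S.k := (Nat.div_lt_iff_lt_mul (by omega)).2 hq'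
      have q2 : q % S.k < S.k := Nat.mod_lt _ (by omega)
      rw [hal _ (dn_sub (Nat.mod_lt _ hρ) hq'), hks, dn_read H hX ht hte
        ((Nat.div_lt_iff_lt_mul hρ).2 (by rwa [← pow_succ]))
        (hks ▸ dn_sub q1 (Nat.mod_lt _ hs)) (hks ▸ dn_sub q2 (Nat.mod_lt _ hs)),
        Nat.cast_mul, ZMod.natCast_zmod_val, ZMod.natCast_zmod_val]
    · rw [if_pos (by omega), if_neg hu]
  · rw [add_mul l 1, one_mul, add_comm (l * _), add_assoc, upd_in _ _ _ _ _ (by omega),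
      (dn_dm hu).1, (dn_dm hu).2, dnG]
    simp only [Nat.sub_self, pow_zero, mul_one, Nat.div_one, Nat.mod_one, if_pos hu]

end Vale.Agent.P305
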