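import Vale.Agent.P305.MMdef

/-! The way up. Level t lives in array 15 from t * Z on, where Z = ρ ^ (l + 1); block u of size
s = k ^ t starts at u * s * s. -/

namespace Vale.Agent.P305

open Vale.Agent.P315 Finset

/-- The content of array 15. -/
def mmu_G {p : ℕ} [Fact p.Prime] (k ρ lam : ℕ) (ga Y : ℕ → ZMod p) (x : ℕ) : ℕ :=
  if x % ρ ^ lam / (k ^ (x / ρ ^ lam) * k ^ (x / ρ ^ lam)) < ρ ^ (lam - x / ρ ^ lam) then
    (upL k ρ ga Y (x / ρ ^ lam) (x % ρ ^ lam / (k ^ (x / ρ ^ lam) * k ^ (x / ρ ^ lam)))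
      (x % ρ ^ lam / k ^ (x / ρ ^ lam) % k ^ (x / ρ ^ lam)) (x % ρ ^ lam % k ^ (x / ρ ^ lam))).val
  else 0

variable {S : Sch} {n : ℕ}

theorem mmu_le (lam : ℕ) (ga Y : ℕ → ZMod (S.p n)) (x : ℕ) :
    mmu_G S.k S.ρ lam ga Y x ≤ S.p n := by
  unfold mmu_G
  split_ifs
  exacts [(ZMod.val_lt _).le, Nat.zero_le _]

theorem mmu_lt {a b u i : ℕ} (hu : u < a) (hi : i < b) : u * b + i < a * b := by
  have := Nat.mul_le_mul_right b (Nat.succ_le_of_lt hu)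
  rw [Nat.succ_mul] at this
  omega

theorem mmu_dm {b i : ℕ} (u : ℕ) (hi : i < b) : (u * b + i) / b = u ∧ (u * b + i) % b = i :=
  (Nat.div_mod_unique (Nat.zero_lt_of_lt hi)).2 ⟨by ring, hi⟩

theorem mmu_in (H : S.Ok) {lam t u i j : ℕ} (ht : t ≤ lam) (hu : u < S.ρ ^ (lam - t))
    (hi : i < S.k ^ t) (hj : j < S.k ^ t) : (u * S.k ^ t + i) * S.k ^ t + j < S.ρ ^ lam := by
  refine (mmu_lt (mmu_lt hu hi) hj).trans_le ?_
  rw [mul_assoc]
  refine (Nat.mul_le_mul_left _ (kk_le H t)).trans_eq ?_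
  rw [← pow_add, Nat.sub_add_cancel ht]

theorem mmu_at (H : S.Ok) {lam t u i j : ℕ} (ga Y : ℕ → ZMod (S.p n)) (ht : t ≤ lam)
    (hu : u < S.ρ ^ (lam - t)) (hi : i < S.k ^ t) (hj : j < S.k ^ t) :
    mmu_G S.k S.ρ lam ga Y (t * S.ρ ^ lam + ((u * S.k ^ t + i) * S.k ^ t + j)) =
      (upL S.k S.ρ ga Y t u i j).val := by
  obtain ⟨a1, a2⟩ := mmu_dm t (mmu_in H ht hu hi hj)
  obtain ⟨b1, b2⟩ := mmu_dm (u * S.k ^ t + i) hj
  obtain ⟨c1, c2⟩ := mmu_dm u hi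
  rw [mmu_G, a1, a2, ← Nat.div_div_eq_div_mul, b1, b2, c1, c2, if_pos hu]

def mmu_l : FE := .add (.rd 8 (.c 0)) (.c 1)
def mmu_Z : FE := .rd 19 mmu_l
def mmu_t : FE := .div (.v 0) mmu_Z
def mmu_f : FE := .mod (.v 0) mmu_Z
def mmu_a : FE := .rd 18 mmu_t
def mmu_s : FE := .rd 18 (.add mmu_t (.c 1))
def mmu_u : FE := .div mmu_f (.mul mmu_s mmu_s)
def mmu_i : FE := .mod (.div mmu_f mmu_s) mmu_s
def mmu_j : FE := .mod mmu_f mmu_s

/-- The body of the main loop. -/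
def mmu_E : FE :=
  .ifz (.sub (.rd 19 (.sub (.rd 8 (.c 0)) mmu_t)) mmu_u) (.c 0) (.mod (.sum 1 2 (.mul
    (.rd 23 (.add (.mul (.v 1) (.rd 7 (.c 0)))
      (.add (.mul (.div mmu_i mmu_a) (.rd 18 (.c 1))) (.div mmu_j mmu_a))))
    (.rd 15 (.add (.mul mmu_t mmu_Z) (.add (.mul (.add (.mul (.add (.mul mmu_u (.rd 7 (.c 2)))
      (.v 1)) mmu_a) (.mod mmu_i mmu_a)) mmu_a) (.mod mmu_j mmu_a)))))) (.rd 17 (.c 0)))

theorem mmu_eval (H : S.Ok) {w : Mem} {l e : ℕ} {ga Y : ℕ → ZMod (S.p n)} (hl : l ≤ S.L n)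
    (ro : S.RO n w) (h8 : w 8 0 = l) (h6 : w 6 0 = e) (he : e < (l + 1) * S.ρ ^ (l + 1))
    (h23 : ∀ q < S.ρ * (S.k * S.k), w 23 q = (ga q).val)
    (h15 : ∀ x < S.ρ ^ (l + 1) + e, w 15 x = mmu_G S.k S.ρ (l + 1) ga Y x) :
    mmu_E.eval w = mmu_G S.k S.ρ (l + 1) ga Y (S.ρ ^ (l + 1) + e) := by
  have hZ : 0 < S.ρ ^ (l + 1) := Nat.pow_pos (parb_r H)
  have ht : e / S.ρ ^ (l + 1) < l + 1 := (Nat.div_lt_iff_lt_mul hZ).2 he
  have h1 := Nat.div_mul_le_self e (S.ρ ^ (l + 1))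
  have p0 : w 17 0 = S.p n := ro.par 0 (by omega)
  have k0 : w 7 0 = S.k * S.k := ro.sm 0
  have r0 : w 7 2 = S.ρ := ro.sm 2
  rw [mmu_G, Nat.add_div_left _ hZ, Nat.add_mod_left, Nat.add_sub_add_right]
  simp only [mmu_E, mmu_l, mmu_Z, mmu_t, mmu_f, mmu_a, mmu_s, mmu_u, mmu_i, mmu_j, FE.eval,
    Mem.set_arr, Mem.set_idx, Mem.set_same, ne_eq, Nat.reduceEqDiff, not_false_eq_true,
    zero_ne_one, h8, h6, p0, k0, r0, ro.pρ (l + 1) (by omega)]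
  generalize e / S.ρ ^ (l + 1) = t at *
  generalize e % S.ρ ^ (l + 1) = f
  rw [ro.pk t (by omega), ro.pk (t + 1) (by omega), ro.pk 1 (by omega), ro.pρ _ (by omega),
    pow_one]
  have hs : 0 < S.k ^ (t + 1) := Nat.pow_pos parb_k
  have hs' : 0 < S.k ^ t := Nat.pow_pos parb_k
  have hi := Nat.mod_lt (f / S.k ^ (t + 1)) hs
  have hj := Nat.mod_lt f hs
  generalize f / (S.k ^ (t + 1) * S.k ^ (t + 1)) = u
  generalize f / S.k ^ (t + 1) % S.k ^ (t + 1) = i at *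
  generalize f % S.k ^ (t + 1) = j at *
  rw [pow_succ'] at hi hj
  by_cases hu : u < S.ρ ^ (l - t)
  · rw [if_neg (by omega), if_pos hu, ← ZMod.val_natCast, upL, Nat.cast_sum]
    congr 1
    refine sum_congr rfl fun r hr => ?_
    rw [mem_range] at hr
    have hu' : u * S.ρ + r < S.ρ ^ (l + 1 - t) := by
      rw [show l + 1 - t = l - t + 1 by omega, pow_succ]
      exact mmu_lt hu hr
    have a1 := Nat.mod_lt i hs'
    have a2 := Nat.mod_lt j hs'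
    have a3 := mmu_in H ht.le hu' a1 a2
    rw [h23 _ (mmu_lt hr (mmu_lt ((Nat.div_lt_iff_lt_mul hs').2 hi)
      ((Nat.div_lt_iff_lt_mul hs').2 hj))), h15 _ (by omega), mmu_at H _ _ ht.le hu' a1 a2,
      Nat.cast_mul, ZMod.natCast_zmod_val, ZMod.natCast_zmod_val]
  · rw [if_pos (by omega), if_neg hu]

theorem up_ex (S : Sch) : Ex S fun n P B V K c => ∀ (m : Mem) (l : ℕ) (ga a b : ℕ → ZMod (S.p n)),
    l ≤ S.L n → S.RO n m → Bd V m → m 8 0 = l →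
    (∀ q < S.ρ * (S.k * S.k), m 23 q = (ga q).val) →
    (∀ u < S.ρ ^ (l + 1), m 13 ((l + 1) * S.ρ ^ (l + 1) + u) = (a u).val) →
    (∀ u < S.ρ ^ (l + 1), m 14 ((l + 1) * S.ρ ^ (l + 1) + u) = (b u).val) →
    ∃ m', Does P B c m m' (4 * S.cu n l * K) ∧ Bd V m' ∧ Kp [15, 30] m m' ∧
      Rp m' 30 0 (S.k ^ (l + 1)) (upL S.k S.ρ ga (fun u => a u * b u) (l + 1) 0) := by
  obtain ⟨c1, k1, H1⟩ := rec_fl_ex 15 (by decide) (by decide) (by decide) (.c 0) mmu_Z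
    (.mod (.mul (.rd 13 (.add (.mul mmu_l mmu_Z) (.v 0))) (.rd 14 (.add (.mul mmu_l mmu_Z) (.v 0))))
      (.rd 17 (.c 0))) rfl rfl rfl rfl
  obtain ⟨c2, k2, H2⟩ := fill_ex 15 (by decide) (by decide) mmu_Z (.mul mmu_l mmu_Z) mmu_E
    rfl rfl rfl
  obtain ⟨c3, k3, H3⟩ := rec_fl_ex 30 (by decide) (by decide) (by decide) (.c 0)
    (.mul (.rd 18 mmu_l) (.rd 18 mmu_l)) (.rd 15 (.add (.mul mmu_l mmu_Z) (.v 0))) rfl rfl rfl rfl
  refine ⟨.seq c1 (.seq c2 c3), k1 + k2 + k3 + 1, by omega,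
    fun n P B V κ hκ C m l ga a b hl ro bd h8 h23 h13 h14 => ?_⟩
  have H := C.ok
  have hZ : 0 < S.ρ ^ (l + 1) := Nat.pow_pos (parb_r H)
  have z0 := ro.pρ (l + 1) (by omega)
  have p0 : m 17 0 = S.p n := ro.par 0 (by omega)
  have hp : S.p n ≤ V := by
    have := big_p (S := S) (n := n)
    have := C.big
    omega
  have hc : S.cu n l ≤ V :=
    (Nat.le_mul_of_pos_left _ (parb_r H)).trans ((big_cu H hl).trans C.big)
  have hq := sq_le_cu (n := n) H l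
  have hk := kk_le H (l + 1)
  have hu : (l + 1) * S.ρ ^ (l + 1) + 2 * S.ρ ^ (l + 1) ≤ S.cu n l := by
    rw [← add_mul]
    exact Nat.mul_le_mul_right _ (by omega)
  set G := mmu_G S.k S.ρ (l + 1) ga fun u => a u * b u with hG
  have gV : ∀ x, G x ≤ V := fun x => (mmu_le _ _ _ x).trans hp
  have D1 := H1 P B V _ κ (by omega) C.env m G 0 (S.ρ ^ (l + 1)) bd (ro.Sm H) rfl
    (by simp only [mmu_Z, mmu_l, FE.eval, h8, z0]) (by omega) (fun e _ => gV e) fun e he => by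
      have := mmu_at H (lam := l + 1) (t := 0) (u := e) (i := 0) (j := 0) ga (fun u => a u * b u)
        (by omega) he (by simp) (by simp)
      simp only [pow_zero, mul_one, add_zero, zero_mul, zero_add, upL] at this
      simp only [mmu_Z, mmu_l, FE.eval, Mem.set_arr, Mem.set_same, ne_eq, Nat.reduceEqDiff,
        not_false_eq_true, h8, z0, p0, h13 e he, h14 e he, hG, this, ZMod.val_mul]
  set m1 := upd m 15 0 (S.ρ ^ (l + 1)) G with hm1
  have K1 : Kp [15] m m1 := kp_upd _ _ _ _ _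
  have st : ∀ {w w' : Mem}, S.RO n w → (∀ x, x ≠ 6 → x ≠ 15 → w' x = w x) → S.RO n w' :=
    fun h hk => h.stab fun x hx => hk x (by rintro rfl; revert hx; decide)
      (by rintro rfl; revert hx; decide)
  have ro1 : S.RO n m1 := st ro fun x _ hx => upd_arr _ _ _ _ hx
  have b1 : Bd V m1 := bd.upd _ _ _ fun e _ => gV e
  have a8 : m1 8 0 = l := by rw [K1 8 (by decide), h8]
  have z1 := ro1.pρ (l + 1) (by omega)
  have in2 : ∀ e, ∀ x < S.ρ ^ (l + 1) + e,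
      upd m1 15 (S.ρ ^ (l + 1)) e (fun e => G (S.ρ ^ (l + 1) + e)) 15 x = G x := fun e x hx => by
    rcases lt_or_ge x (S.ρ ^ (l + 1)) with h | h
    · rw [upd_out _ _ _ _ _ _ (Or.inl h), hm1, upd_in0 _ _ _ _ h]
    · obtain ⟨y, rfl⟩ := Nat.exists_eq_add_of_le h
      exact upd_in _ _ _ _ _ (by omega)
  have D2 := (H2 P B V _ m1 (fun e => G (S.ρ ^ (l + 1) + e)) (S.ρ ^ (l + 1))
    ((l + 1) * S.ρ ^ (l + 1)) (C.env.mono (by omega)) b1 (ro1.Sm H)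
    (by simp only [mmu_Z, mmu_l, FE.eval, a8, z1]) (by simp only [mmu_Z, mmu_l, FE.eval, a8, z1])
    (by omega) (fun e _ => gV _) (fun h => absurd h (by decide)) fun e he =>
      mmu_eval H hl (st ro1 fun x h6 hx => by rw [Mem.set_arr _ _ _ h6, upd_arr _ _ _ _ hx])
      (by rw [Mem.set_arr _ _ _ (by decide), upd_arr _ _ _ _ (by decide), a8]) (Mem.set_same _ _ _ _)
      he (fun q hq => by rw [Mem.set_arr _ _ _ (by decide), upd_arr _ _ _ _ (by decide),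
        K1 23 (by decide), h23 q hq])
      fun x hx => by rw [Mem.set_arr _ _ _ (by decide), in2 e x hx]).mono
    (Nat.mul_le_mul_left _ (cost_mono C.env.hR (show k2 ≤ κ by omega)))
  set m2 := upd m1 15 (S.ρ ^ (l + 1)) ((l + 1) * S.ρ ^ (l + 1))
    fun e => G (S.ρ ^ (l + 1) + e) with hm2
  have K2 : Kp [15] m1 m2 := kp_upd _ _ _ _ _
  have ro2 : S.RO n m2 := st ro1 fun x _ hx => upd_arr _ _ _ _ hx
  have b2 : Bd V m2 := b1.upd _ _ _ fun e _ => gV _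
  have a9 : m2 8 0 = l := by rw [K2 8 (by decide), a8]
  have D3 := H3 P B V _ κ (by omega) C.env m2 (fun e => G ((l + 1) * S.ρ ^ (l + 1) + e)) 0
    (S.k ^ (l + 1) * S.k ^ (l + 1)) b2 (ro2.Sm H) rfl
    (by simp only [mmu_l, FE.eval, a9, ro2.pk (l + 1) (by omega)]) (by omega) (fun e _ => gV _)
    fun e he => by
      simp only [mmu_Z, mmu_l, FE.eval, Mem.set_arr, Mem.set_same, ne_eq, Nat.reduceEqDiff,
        not_false_eq_true, a9, ro2.pρ (l + 1) (by omega)]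
      exact in2 _ _ (by omega)
  refine ⟨_, (D1.seq (D2.seq D3)).mono ?_, b2.upd _ _ _ fun e _ => gV _,
    (K1.trans K2 (fun _ h => h) fun _ h => h).trans (kp_upd _ _ _ _ _) (by simp) (by simp),
    fun i hi j hj => ?_⟩
  · have k0 : 1 ≤ kc S n κ := kc_pos (by omega)
    change _ ≤ 4 * S.cu n l * (κ * S.R n ^ κ)
    unfold kc at k0
    generalize κ * S.R n ^ κ = K at *
    have e1 := Nat.mul_le_mul_right K (show S.ρ ^ (l + 1) + 1 ≤ S.cu n l by omega)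
    have e2 := Nat.mul_le_mul_right K (show (l + 1) * S.ρ ^ (l + 1) + 1 ≤ S.cu n l by omega)
    have e3 := Nat.mul_le_mul_right K (show S.k ^ (l + 1) * S.k ^ (l + 1) + 1 ≤ S.cu n l by omega)
    have e4 := Nat.mul_le_mul (show 2 ≤ S.cu n l by omega) k0
    rw [mul_assoc]
    omega
  · have := mmu_at H (lam := l + 1) (u := 0) ga (fun u => a u * b u) le_rfl (by simp) hi hj
    rw [zero_mul, zero_add] at this
    rw [upd_in _ _ _ _ _ (mmu_lt hi hj), hG, this]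

end Vale.Agent.P305
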