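import Vale.Agent.P305.MMs
import Vale.Agent.P305.MMd
import Vale.Agent.P305.MMu

/-! Fast matrix product on the RAM: dn_ex 13 21, dn_ex 14 22, up_ex, up_dn. -/

namespace Vale.Agent.P305

open Vale.Agent.P315 Finset

theorem mm_ex (S : Sch) : Ex S fun n P B V K c => ∀ (m : Mem) (l : ℕ)
    (A A' : ℕ → ℕ → ZMod (S.p n)), l ≤ S.L n → S.RO n m → Bd V m → m 8 0 = l →
    Rp m 13 0 (S.k ^ (l + 1)) A → Rp m 14 0 (S.k ^ (l + 1)) A' →
    ∃ m', Does P B c m m' (9 * S.cu n l * K) ∧ Bd V m' ∧ Kp [13, 14, 15, 30] m m' ∧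
      Rp m' 30 0 (S.k ^ (l + 1)) (mm (S.k ^ (l + 1)) A A') := by
  obtain ⟨c1, k1, -, H1⟩ := dn_ex S 13 21 (Or.inl ⟨rfl, rfl⟩)
  obtain ⟨c2, k2, -, H2⟩ := dn_ex S 14 22 (Or.inr ⟨rfl, rfl⟩)
  obtain ⟨c3, k3, -, H3⟩ := up_ex S
  refine ⟨.seq c1 (.seq c2 c3), k1 + k2 + k3 + 1, by omega,
    fun n P B V κ hκ X m l A A' hl ro bd lv ra rb => ?_⟩
  obtain ⟨m1, d1, b1, p1, e1⟩ := H1 n P B V κ (by omega) X m l _ A hl ro bd lv ro.cA ra
  have r1 := ro.stab (m' := m1) fun a ha => p1 a (by revert a; decide)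
  have l1 : m1 8 0 = l := by rw [p1 8 (by decide)]; exact lv
  obtain ⟨m2, d2, b2, p2, e2⟩ := H2 n P B V κ (by omega) X m1 l _ A' hl r1 b1 l1 r1.cB
    fun i hi j hj => by rw [p1 14 (by decide)]; exact rb i hi j hj
  have r2 := r1.stab (m' := m2) fun a ha => p2 a (by revert a; decide)
  have l2 : m2 8 0 = l := by rw [p2 8 (by decide)]; exact l1
  obtain ⟨m3, d3, b3, p3, e3⟩ := H3 n P B V κ (by omega) X m2 l _ _ _ hl r2 b2 l2 r2.cC
    (fun u hu => by rw [p2 13 (by decide)]; exact e1 u hu) e2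
  refine ⟨m3, (d1.seq (d2.seq d3)).mono ?_, b3, (p1.trans p2 (l'' := [13, 14]) (by decide)
    (by decide)).trans p3 (by decide) (by decide), e3.congr fun i hi j hj => up_dn X.ok _ A A' hi hj⟩
  have h1 := sq_le_cu (n := n) X.ok l
  have h2 := Nat.mul_le_mul (show 3 ≤ S.cu n l by omega) (kc_pos (S := S) (n := n) (show 1 ≤ κ by omega))
  rw [mul_assoc 2, mul_assoc 4, mul_assoc 9]
  omega

end Vale.Agent.P305
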