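import Vale.Agent.P305.Par

/-! The levels of the fast matrix product. FROZEN. -/

namespace Vale.Agent.P305

open Vale.Agent.P315 Finset

variable {K : Type} [Field K]

/-- Block `u` of level `t` on the way down, of size `k ^ (lam - t)`. -/
def dnL (k ρ : ℕ) (al : ℕ → K) (lam : ℕ) (X : ℕ → ℕ → K) : ℕ → ℕ → ℕ → ℕ → K
  | 0, _, i, j => X i j
  | t + 1, u, i, j => ∑ q ∈ range (k * k), al (u % ρ * (k * k) + q) *
      dnL k ρ al lam X t (u / ρ) (q / k * k ^ (lam - (t + 1)) + i) (q % k * k ^ (lam - (t + 1)) + j)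

/-- Block `u` of level `t` on the way up, of size `k ^ t`. -/
def upL (k ρ : ℕ) (ga Y : ℕ → K) : ℕ → ℕ → ℕ → ℕ → K
  | 0, u, _, _ => Y u
  | t + 1, u, i, j => ∑ r ∈ range ρ, ga (r * (k * k) + (i / k ^ t * k + j / k ^ t)) *
      upL k ρ ga Y t (u * ρ + r) (i % k ^ t) (j % k ^ t)

end Vale.Agent.P305
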