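import Vale.Agent.P305.MMdef

/-! Correctness of the fast product. Hints: by induction on t ≤ lam, for all u and i, j < k ^ t: upL t u i j = mm (k ^ t) (dnL A (lam - t) u) (dnL A' (lam - t) u) i j. Step: lam - t = (lam - (t + 1)) + 1, (u * ρ + r) % ρ = r, (u * ρ + r) / ρ = u, exchange the sums, use S.Ok.id cast to ZMod p with q = (q / k) * k + q % k, D_ne; a sum over range (k * s) is a double sum (Finset.sum_range_mul style: Finset.sum_product, Nat.sum_range_mul or finProdFinEquiv). -/

namespace Vale.Agent.P305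

open Vale.Agent.P315 Finset

theorem mms_sum {K : Type} [Field K] (m n : ℕ) (F : ℕ → K) :
    ∑ q ∈ range (m * n), F q = ∑ a ∈ range m, ∑ b ∈ range n, F (a * n + b) := by
  induction m with
  | zero => rw [Nat.zero_mul, sum_range_zero, sum_range_zero]
  | succ m ih => rw [Nat.succ_mul, sum_range_add, ih, sum_range_succ]

theorem mms_div {k b : ℕ} (a : ℕ) (h : b < k) : (a * k + b) / k = a := by
  rw [Nat.add_comm, Nat.add_mul_div_right _ _ (Nat.zero_lt_of_lt h), Nat.div_eq_of_lt h,
    Nat.zero_add]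

theorem mms_core {K : Type} [Field K] {k ρ : ℕ} {al be ga : ℕ → K}
    (hid : ∀ a < k, ∀ b < k, ∀ c < k, ∀ d < k, ∀ e < k, ∀ f < k,
      ∑ r ∈ range ρ, al (r * (k * k) + (a * k + b)) * be (r * (k * k) + (c * k + d)) *
        ga (r * (k * k) + (e * k + f)) = if b = c ∧ a = e ∧ d = f then 1 else 0)
    (P Q : ℕ → ℕ → K) {e f : ℕ} (he : e < k) (hf : f < k) :
    ∑ r ∈ range ρ, ga (r * (k * k) + (e * k + f)) *
      ((∑ q ∈ range (k * k), al (r * (k * k) + q) * P (q / k) (q % k)) *
        ∑ q ∈ range (k * k), be (r * (k * k) + q) * Q (q / k) (q % k)) =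
      ∑ b ∈ range k, P e b * Q b f := by
  have h1 : ∀ (g : ℕ → K) (R : ℕ → ℕ → K), ∑ q ∈ range (k * k), g q * R (q / k) (q % k) =
      ∑ a ∈ range k, ∑ b ∈ range k, g (a * k + b) * R a b := fun g R => by
    rw [mms_sum]
    refine sum_congr rfl fun a _ => sum_congr rfl fun b hb => ?_
    rw [mms_div a (mem_range.1 hb), Nat.mul_add_mod_of_lt (mem_range.1 hb)]
  calc _ = ∑ r ∈ range ρ, ∑ a ∈ range k, ∑ b ∈ range k, ∑ c ∈ range k, ∑ d ∈ range k,
        al (r * (k * k) + (a * k + b)) * be (r * (k * k) + (c * k + d)) *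
          ga (r * (k * k) + (e * k + f)) * (P a b * Q c d) := by
        refine sum_congr rfl fun r _ => ?_
        rw [h1 (fun q => al (r * (k * k) + q)) P, h1 (fun q => be (r * (k * k) + q)) Q, sum_mul,
          mul_sum]
        refine sum_congr rfl fun a _ => ?_
        rw [sum_mul, mul_sum]
        refine sum_congr rfl fun b _ => ?_
        rw [mul_sum, mul_sum]
        refine sum_congr rfl fun c _ => ?_
        rw [mul_sum, mul_sum]
        exact sum_congr rfl fun d _ => by ring
    _ = ∑ a ∈ range k, ∑ b ∈ range k, ∑ c ∈ range k, ∑ d ∈ range k,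
        (if b = c ∧ a = e ∧ d = f then 1 else 0) * (P a b * Q c d) := by
        rw [sum_comm]
        refine sum_congr rfl fun a ha => ?_
        rw [sum_comm]
        refine sum_congr rfl fun b hb => ?_
        rw [sum_comm]
        refine sum_congr rfl fun c hc => ?_
        rw [sum_comm]
        refine sum_congr rfl fun d hd => ?_
        rw [← sum_mul, hid a (mem_range.1 ha) b (mem_range.1 hb) c (mem_range.1 hc) d
          (mem_range.1 hd) e he f hf]
    _ = _ := by
        rw [sum_eq_single_of_mem e (mem_range.2 he) fun a _ hne => by simp [hne]]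
        refine sum_congr rfl fun b hb => ?_
        rw [sum_eq_single_of_mem b hb fun c _ hne => by simp [hne.symm],
          sum_eq_single_of_mem f (mem_range.2 hf) fun d _ hne => by simp [hne],
          if_pos ⟨rfl, rfl, rfl⟩, one_mul]

theorem mms_gen {K : Type} [Field K] {k ρ : ℕ} {al be ga : ℕ → K}
    (hid : ∀ a < k, ∀ b < k, ∀ c < k, ∀ d < k, ∀ e < k, ∀ f < k,
      ∑ r ∈ range ρ, al (r * (k * k) + (a * k + b)) * be (r * (k * k) + (c * k + d)) *
        ga (r * (k * k) + (e * k + f)) = if b = c ∧ a = e ∧ d = f then 1 else 0)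
    (lam : ℕ) (A A' : ℕ → ℕ → K) (t : ℕ) : ∀ s, s + t = lam → ∀ u i j, i < k ^ t → j < k ^ t →
    upL k ρ ga (fun u => dnL k ρ al lam A lam u 0 0 * dnL k ρ be lam A' lam u 0 0) t u i j =
      mm (k ^ t) (dnL k ρ al lam A s u) (dnL k ρ be lam A' s u) i j := by
  induction t with
  | zero =>
    intro s hs u i j hi hj
    obtain rfl : s = lam := hs
    obtain rfl : i = 0 := Nat.lt_one_iff.1 hi
    obtain rfl : j = 0 := Nat.lt_one_iff.1 hj
    rw [mm, pow_zero, sum_range_one]
    rfl
  | succ t ih =>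
    intro s hs u i j hi hj
    have k0 : 0 < k ^ t := Nat.pos_of_ne_zero fun h => by
      rw [pow_succ, h, Nat.zero_mul] at hi
      exact Nat.not_lt_zero _ hi
    have e0 : lam - (s + 1) = t := by omega
    have he : i / k ^ t < k := Nat.div_lt_of_lt_mul (pow_succ k t ▸ hi)
    have hf : j / k ^ t < k := Nat.div_lt_of_lt_mul (pow_succ k t ▸ hj)
    rw [upL, mm, pow_succ', mms_sum, sum_comm]
    rw [sum_congr rfl fun r _ => by
      rw [ih (s + 1) (by omega) _ _ _ (Nat.mod_lt _ k0) (Nat.mod_lt _ k0), mm, mul_sum], sum_comm]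
    refine sum_congr rfl fun z _ => ?_
    have h2 := mms_core hid
      (fun a b => dnL k ρ al lam A s u (a * k ^ t + i % k ^ t) (b * k ^ t + z))
      (fun a b => dnL k ρ be lam A' s u (a * k ^ t + z) (b * k ^ t + j % k ^ t)) he hf
    rw [Nat.div_add_mod', Nat.div_add_mod'] at h2
    rw [← h2]
    refine sum_congr rfl fun r hr => ?_
    rw [dnL, dnL, e0, mms_div u (mem_range.1 hr), Nat.mul_add_mod_of_lt (mem_range.1 hr)]

theorem up_dn {S : Sch} {n : ℕ} (H : S.Ok) (lam : ℕ) (A A' : ℕ → ℕ → ZMod (S.p n)) {i j : ℕ}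
    (hi : i < S.k ^ lam) (hj : j < S.k ^ lam) :
    upL S.k S.ρ (fun q => (S.C q * (S.D : ZMod (S.p n))⁻¹ : ZMod (S.p n)))
      (fun u => dnL S.k S.ρ (fun q => (S.A q : ZMod (S.p n))) lam A lam u 0 0 *
        dnL S.k S.ρ (fun q => (S.B q : ZMod (S.p n))) lam A' lam u 0 0) lam 0 i j =
      mm (S.k ^ lam) A A' i j := by
  refine mms_gen (fun a ha b hb c hc d hd e he f hf => ?_) lam A A' lam 0 (Nat.zero_add _) 0 i j
    hi hj
  have h1 := congrArg (Int.cast : ℤ → ZMod (S.p n)) (H.id a ha b hb c hc d hd e he f hf)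
  push_cast at h1
  rw [sum_congr rfl fun r _ => (mul_assoc _ _ _).symm, ← sum_mul, h1, ite_mul, zero_mul,
    mul_inv_cancel₀ (D_ne H)]

end Vale.Agent.P305
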