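import Vale.Agent.P305.Par

/-! Scattered writes. Hint: copy fill_loop and fill_ex of P315/Fill.lean: the loop body computes idx into cell 3 of array 5 and stores the constant 1 at that address. -/

namespace Vale.Agent.P305

open Vale.Agent.P315 Finset

open Classical in
/-- Mark the cells `g e`, `e < σ`. -/
noncomputable def mrk (m : Mem) (arr σ : ℕ) (g : ℕ → ℕ) : Mem :=
  fun a i => if a = arr ∧ ∃ e < σ, g e = i then 1 else m a i

@[simp] theorem mrk_arr (m : Mem) {arr a : ℕ} (σ : ℕ) (g : ℕ → ℕ) (h : a ≠ arr) :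
    mrk m arr σ g a = m a := by funext i; simp [mrk, h]

theorem mrk_bd {V : ℕ} {m : Mem} (h : Bd V m) (hV : 1 ≤ V) (arr σ : ℕ) (g : ℕ → ℕ) :
    Bd V (mrk m arr σ g) := by
  intro a i ha
  unfold mrk
  split_ifs
  · exact hV
  · exact h a i ha

theorem mark_loop {arr : ℕ} (h5 : arr ≠ 5) (h6 : arr ≠ 6) (h7 : arr ≠ 7) {idx : FE}
    (hy : idx.noRd 5 = true) (hp : idx.noRd arr = true)
    {cy : Cmd} {P : List Cmd} {B V R K : ℕ} {m : Mem} {g : ℕ → ℕ} {σ : ℕ} (hV : V < B)
    (h3 : 3 < V) (hm : Bd V m) (hR : Sm R m) (hβ : σ ≤ V)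
    (hb : ∀ e < σ, idx.eval (m.set 6 0 e) = g e)
    (hc : ∀ m : Mem, Bd V m → Sm R m → ∃ m' t, Exec P B cy m m' t ∧ m' 5 3 = idx.eval m ∧
      (∀ a i, (a ≠ 5 ∨ i < 3) → m' a i = m a i) ∧ t ≤ K ∧ idx.eval m < B) (n : ℕ) :
    ∀ (e : ℕ) (w : Mem), e + n = σ → Eqv w ((mrk m arr e g).set 6 0 e) → w 5 1 = σ →
      ∃ w' t, Exec P B (.loop (.sub (.rd 5 (.const 1)) (.rd 6 (.const 0))) (.seq cy (.seq
        (.store arr (.rd 5 (.const 3)) (.const 1))
        (.store 6 (.const 0) (.add (.rd 6 (.const 0)) (.const 1)))))) w w' t ∧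
        Eqv w' ((mrk m arr σ g).set 6 0 σ) ∧ w' 5 2 = w 5 2 ∧ t ≤ n * (K + 22) + 6 := by
  induction n with
  | zero =>
    intro e w hn hw h1
    obtain rfl : e = σ := by omega
    have h60 : w 6 0 = e := by rw [hw 6 0 (by decide), Mem.set_same]
    refine ⟨w, _, Exec.loopdone ?_ ?_, hw, rfl, by simp [Expr.cost]⟩
    · simp only [Expr.Fits, Expr.eval, h1, h60]
      omega
    · simp only [Expr.eval, h1, h60]
      omega
  | succ n ih =>
    intro e w hn hw h1
    have h60 : w 6 0 = e := by rw [hw 6 0 (by decide), Mem.set_same]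
    have hbd : Bd V w := by
      refine fill_bd (fill_bd_set (fun a i ha => ?_) _ _ (by omega)) hw
      unfold mrk
      split_ifs
      · omega
      · exact hm a i ha
    have hsm : Sm R w := by
      refine fill_sm (fun r => ?_) hw
      rw [Mem.set_arr _ _ _ (by decide), mrk_arr _ _ _ h7.symm]
      exact hR r
    obtain ⟨w1, t1, e1, v1, u1, c1, b1⟩ := hc w hbd hsm
    have v0 : idx.eval w = g e := by
      rw [fill_ev hy hw, ← hb e (by omega)]
      refine FE.eval_congr hp h6 h7 fun a i ha => ?_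
      rw [Mem.set_apply, Mem.set_apply, mrk_arr _ _ _ ha]
    rw [v0] at v1 b1
    have a6 : w1 6 0 = e := (u1 6 0 (by omega)).trans h60
    have e2 : Exec P B (.store arr (.rd 5 (.const 3)) (.const 1)) w1 (w1.set arr (g e) 1) _ :=
      fill_store (by simp only [Expr.Fits, Expr.eval, v1]; omega)
        (by simp only [Expr.Fits]; omega) (by simp only [Expr.eval, v1]) rfl
    have b6 : w1.set arr (g e) 1 6 0 = e := by rw [Mem.set_arr _ _ _ h6.symm, a6]
    have e3 : Exec P B (.store 6 (.const 0) (.add (.rd 6 (.const 0)) (.const 1)))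
        (w1.set arr (g e) 1) ((w1.set arr (g e) 1).set 6 0 (e + 1)) _ :=
      fill_store (by simp only [Expr.Fits]; omega)
        (by simp only [Expr.Fits, Expr.eval, b6]; omega) rfl (by simp only [Expr.eval, b6])
    have k5 : ∀ i < 3, (w1.set arr (g e) 1).set 6 0 (e + 1) 5 i = w 5 i := fun i hi => by
      rw [Mem.set_arr _ _ _ (by decide), Mem.set_arr _ _ _ h5.symm, u1 5 i (by omega)]
    obtain ⟨w', t, e4, q1, q2, q3⟩ := ih (e + 1) ((w1.set arr (g e) 1).set 6 0 (e + 1))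
      (by omega) (fun a i ha => by
        have := hw a i ha
        rw [← u1 a i (Or.inl ha)] at this
        simp only [Mem.set_apply, mrk] at this ⊢
        by_cases c6 : a = 6 ∧ i = 0
        · rw [if_pos c6, if_pos c6]
        · rw [if_neg c6] at this
          rw [if_neg c6, if_neg c6]
          by_cases ca : a = arr ∧ i = g e
          · rw [if_pos ca, if_pos ⟨ca.1, e, by omega, ca.2.symm⟩]
          · rw [if_neg ca, this]
            refine if_congr ⟨fun ⟨z, t, t1, t2⟩ => ⟨z, t, by omega, t2⟩,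
              fun ⟨z, t, t1, t2⟩ => ⟨z, t, ?_, t2⟩⟩ rfl rfl
            rcases Nat.lt_succ_iff_lt_or_eq.1 t1 with h | h
            · exact h
            · exact absurd ⟨z, (h ▸ t2).symm⟩ ca)
      ((k5 1 (by omega)).trans h1)
    refine ⟨w', _, Exec.loopstep ?_ ?_ (Exec.seq e1 (Exec.seq e2 e3)) e4, q1,
      q2.trans (k5 2 (by omega)), ?_⟩
    · simp only [Expr.Fits, Expr.eval, h1, h60]
      omega
    · simp only [Expr.eval, h1, h60]
      omega
    · simp only [Expr.cost, add_mul, one_mul] at q3 ⊢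
      omega

theorem mark_ex (arr : ℕ) (h5 : arr ≠ 5) (h6 : arr ≠ 6) (h7 : arr ≠ 7) (size idx : FE)
    (hs : size.noRd 5 = true) (hy : idx.noRd 5 = true) (hp : idx.noRd arr = true) :
    ∃ (c : Cmd) (κ : ℕ), ∀ (P : List Cmd) (B V R k : ℕ) (m : Mem) (g : ℕ → ℕ) (σ : ℕ), κ ≤ k →
      Env B V R k → Bd V m → Sm R m → size.eval m = σ → σ ≤ V →
      (∀ e < σ, idx.eval (m.set 6 0 e) = g e) →
      Does P B c m (mrk m arr σ g) ((σ + 1) * (k * R ^ k)) := by
  obtain ⟨c2, k2, H2⟩ := comp_ex size hs 1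
  obtain ⟨c3, k3, H3⟩ := comp_ex idx hy 3
  refine ⟨.seq c2 (.seq (.store 5 (.const 2) (.rd 6 (.const 0)))
    (.seq (.store 6 (.const 0) (.const 0)) (.seq (.loop (.sub (.rd 5 (.const 1)) (.rd 6 (.const 0)))
      (.seq c3 (.seq (.store arr (.rd 5 (.const 3)) (.const 1))
        (.store 6 (.const 0) (.add (.rd 6 (.const 0)) (.const 1))))))
      (.store 6 (.const 0) (.rd 5 (.const 2)))))), k2 + k3 + 22, ?_⟩
  intro P B V R k m g σ hk hE hm hR hσ hV hbody m0 h0
  have hVB := fill_lt hE (by omega)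
  have h22 := hE.hκ
  obtain ⟨m2, t2, e2, v2, u2, d2, -⟩ :=
    H2 P B V R m0 (hE.mono (by omega)) (fill_bd hm h0) (fill_sm hR h0)
  have q2 : Eqv m2 m := fun a i ha => (u2 a i (Or.inl ha)).trans (h0 a i ha)
  rw [fill_ev hs h0, hσ] at v2
  have a6 : m2 6 0 = m 6 0 := q2 6 0 (by decide)
  have b6 := hm 6 0 (by decide)
  have e3 : Exec P B (.store 5 (.const 2) (.rd 6 (.const 0))) m2 (m2.set 5 2 (m 6 0)) _ :=
    fill_store (by simp only [Expr.Fits]; omega) (by simp only [Expr.Fits, Expr.eval, a6]; omega)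
      rfl a6
  have e4 : Exec P B (.store 6 (.const 0) (.const 0)) (m2.set 5 2 (m 6 0))
      ((m2.set 5 2 (m 6 0)).set 6 0 0) _ :=
    fill_store (by simp only [Expr.Fits]; omega) (by simp only [Expr.Fits]; omega) rfl rfl
  obtain ⟨m5, t5, e5, q5, v5, d5⟩ := mark_loop h5 h6 h7 hy hp (cy := c3) (P := P)
    (K := k3 * R ^ k3) hVB (by omega) hm hR hV hbody (fun w hw hw' => by
      obtain ⟨w', t, x1, x2, x3, x4, x5⟩ := H3 P B V R w (hE.mono (by omega)) hw hw'
      exact ⟨w', t, x1, x2, x3, x4, hE.comp_pow x5 (by omega)⟩) σ 0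
    ((m2.set 5 2 (m 6 0)).set 6 0 0) (by omega)
    (fun a i ha => by
      simp only [Mem.set_apply, mrk, Nat.not_lt_zero, false_and, exists_false, and_false, if_false]
      rw [if_neg (fun h : a = 5 ∧ i = 2 => ha h.1), q2 a i ha])
    (by rw [Mem.set_arr _ _ _ (by decide), Mem.set_idx _ _ _ (by decide), v2])
  rw [Mem.set_arr _ _ _ (by decide), Mem.set_same] at v5
  have e6 : Exec P B (.store 6 (.const 0) (.rd 5 (.const 2))) m5 (m5.set 6 0 (m 6 0)) _ :=
    fill_store (by simp only [Expr.Fits]; omega) (by simp only [Expr.Fits, Expr.eval, v5]; omega)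
      rfl v5
  refine ⟨_, _, Exec.seq e2 (Exec.seq e3 (Exec.seq e4 (Exec.seq e5 e6))),
    fun a i ha => ?_, ?_⟩
  · have := q5 a i ha
    rw [Mem.set_apply] at this ⊢
    split_ifs with h
    · rw [h.1, h.2, mrk_arr _ _ _ h6.symm]
    · rwa [if_neg h] at this
  · have s2 := cost_add hE.hR k2 k3
    have s3 := cost_add hE.hR (k2 + k3) 22
    have s4 := fill_le hE.hR 22
    have s6 := cost_mono hE.hR hk
    have s5 := Nat.mul_le_mul_left σ (show k3 * R ^ k3 + 22 ≤ k * R ^ k by omega)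
    rw [add_mul, one_mul]
    simp only [Expr.cost]
    omega

end Vale.Agent.P305
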