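import Vale.Agent.P305.Par

/-! The fills around the products, at level m 8 0 = l + 1, size s = k ^ (l + 2) = m 18 (l + 2). Hints: rec_fl_ex with g e = (A (e / s) (e % s)).val, rp_upd, Bd.upd, kp_upd; differences modulo p as (x + p - y) % p. -/

namespace Vale.Agent.P305

open Vale.Agent.P315 Finset

/-- The result of a fill of a matrix. -/
def Fl (S : Sch) (n : ℕ) (P : List Cmd) (B V K : ℕ) (c : Cmd) (m : Mem) (l arr : ℕ)
    (A : ℕ → ℕ → ZMod (S.p n)) : Prop :=
  ∃ m', Does P B c m m' (S.cu n (l + 1) * K) ∧ Bd V m' ∧ Kp [arr] m m' ∧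
    Rp m' arr 0 (S.k ^ (l + 2)) A

/-- The current level. -/
def matd_lv : FE := .rd 8 (.c 0)

/-- The global index. -/
def matd_g (X : FE) : FE :=
  .add (.mul (.ifz (.sub (.rd 18 matd_lv) X) (.rd 9 (.add (.mul (.c 3) matd_lv) (.c 1)))
    (.rd 9 (.mul (.c 3) matd_lv))) (.rd 18 matd_lv)) (.mod X (.rd 18 matd_lv))

/-- Distance of two values. -/
def matd_ne (E F : FE) : FE := .add (.sub E F) (.sub F E)

/-- The number of the child. -/
def matd_t : FE := .rd 9 (.add (.mul (.c 3) matd_lv) (.c 2))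

/-- The test, zero when it holds. -/
def matd_c (X Y : FE) : FE :=
  .add (.add (matd_ne (.div X (.rd 18 (.sub matd_lv (.c 1)))) (.div matd_t (.rd 18 (.c 1))))
    (matd_ne (.div Y (.rd 18 (.sub matd_lv (.c 1))))
      (.add (.rd 18 (.c 1)) (.mod matd_t (.rd 18 (.c 1))))))
    (.sub (.add (matd_g X) (.c 1)) (matd_g Y))

/-- The address of the entry. -/
def matd_ad (X Y : FE) : FE := .add (.mul (matd_g X) (.rd 17 (.c 1))) (matd_g Y)

/-- The difference modulo the prime. -/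
def matd_d (A B : ℕ) (X Y : FE) : FE :=
  .mod (.sub (.add (.rd A (matd_ad X Y)) (.rd 17 (.c 0))) (.rd B (matd_ad X Y))) (.rd 17 (.c 0))

/-- The size of the matrix. -/
def matd_s : FE := .rd 18 (.add matd_lv (.c 1))

/-- The entry. -/
def matd_body : FE :=
  .ifz (matd_c (.div (.v 0) matd_s) (.mod (.v 0) matd_s))
    (matd_d 10 16 (.div (.v 0) matd_s) (.mod (.v 0) matd_s))
    (.ifz (matd_c (.mod (.v 0) matd_s) (.div (.v 0) matd_s))
      (matd_d 16 10 (.mod (.v 0) matd_s) (.div (.v 0) matd_s)) (.c 0))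

/-- The cells that are read. -/
structure matd_M (k p N l a b t : ℕ) (w : Mem) : Prop where
  lv : w 8 0 = l + 1
  fa : w 9 (3 * (l + 1)) = a
  fb : w 9 (3 * (l + 1) + 1) = b
  ft : w 9 (3 * (l + 1) + 2) = t
  k1 : w 18 1 = k
  kl : w 18 l = k ^ l
  km : w 18 (l + 1) = k ^ (l + 1)
  kn : w 18 (l + 2) = k ^ (l + 2)
  hp : w 17 0 = p
  hN : w 17 1 = N

theorem matd_g_ev {k p N l a b t : ℕ} {w : Mem} (h : matd_M k p N l a b t w) (X : FE) :
    (matd_g X).eval w = gi k (l + 1) a b (X.eval w) := by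
  simp only [matd_g, matd_lv, FE.eval, h.lv, h.fa, h.fb, h.km, gi]
  congr 2
  split_ifs <;> first | rfl | omega

theorem matd_c_ev {k p N l a b t : ℕ} {w : Mem} (h : matd_M k p N l a b t w) (X Y : FE) :
    (matd_c X Y).eval w = 0 ↔ (X.eval w / k ^ l = t / k ∧ Y.eval w / k ^ l = k + t % k ∧
      gi k (l + 1) a b (X.eval w) < gi k (l + 1) a b (Y.eval w)) := by
  simp only [matd_c, matd_ne, matd_t, matd_lv, FE.eval, matd_g_ev h, h.lv, h.ft, h.k1,
    Nat.add_sub_cancel, h.kl]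
  omega

theorem matd_d_ev {k p N l a b t : ℕ} {w : Mem} (h : matd_M k p N l a b t w) (A B : ℕ) (X Y : FE) :
    (matd_d A B X Y).eval w =
      (w A (gi k (l + 1) a b (X.eval w) * N + gi k (l + 1) a b (Y.eval w)) + p -
        w B (gi k (l + 1) a b (X.eval w) * N + gi k (l + 1) a b (Y.eval w))) % p := by
  simp only [matd_d, matd_ad, FE.eval, matd_g_ev h, h.hp, h.hN]

theorem matd_val {p : ℕ} [NeZero p] (A B : ZMod p) : (A.val + p - B.val) % p = (A - B).val := by
  have h1 := (ZMod.val_lt B).le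
  rw [← ZMod.val_natCast, Nat.cast_sub (by omega), Nat.cast_add, ZMod.natCast_self,
    ZMod.natCast_zmod_val, ZMod.natCast_zmod_val, add_zero]

theorem matd_div (k l a b x : ℕ) (hk : 0 < k) :
    gi k (l + 1) a b x / k ^ l = (if x / k ^ l < k then a else b) * k + x / k ^ l % k := by
  have hp : 0 < k ^ l := Nat.pow_pos hk
  have h1 : x < k ^ (l + 1) ↔ x / k ^ l < k := by
    rw [Nat.div_lt_iff_lt_mul hp, pow_succ, mul_comm]
  simp only [gi, h1]
  rw [pow_succ, ← Nat.mod_mul_right_div_self, mul_comm (k ^ l) k, ← mul_assoc, add_comm,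
    Nat.add_mul_div_right _ _ hp, add_comm, mul_comm k (k ^ l)]

theorem matd_cp {S : Sch} {n l a b t x y : ℕ} {u : ℕ → ℕ → ZMod (S.p n)} {m : Mem} (H : S.Ok)
    (hl : l + 1 ≤ S.L n) (ha : a < S.k ^ (S.L n - (l + 1))) (hb : b < S.k ^ (S.L n - (l + 1)))
    (ht : t < S.k * S.k) (hc : Cp16 S n u l (a * S.k + t / S.k) (b * S.k + t % S.k) m)
    (hx : x / S.k ^ l = t / S.k) (hy : y / S.k ^ l = S.k + t % S.k) :
    m 16 (gi S.k (l + 1) a b x * S.N n + gi S.k (l + 1) a b y) =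
      (u (gi S.k (l + 1) a b x) (gi S.k (l + 1) a b y)).val := by
  have hk : 0 < S.k := by have := k_two H; omega
  have h1 : t / S.k < S.k := (Nat.div_lt_iff_lt_mul hk).2 ht
  refine hc _ (gi_lt H hl ha hb x) _ (gi_lt H hl ha hb y) ?_ ?_
  · rw [matd_div _ _ _ _ _ hk, hx, if_pos h1, Nat.mod_eq_of_lt h1]
  · rw [matd_div _ _ _ _ _ hk, hy, if_neg (by omega), Nat.add_mod_left, Nat.mod_mod]

theorem dl_ex (S : Sch) (arr : ℕ) (h : arr = 13 ∨ arr = 14) : Ex S fun n P B V K c =>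
    ∀ (u u' : ℕ → ℕ → ZMod (S.p n)) (l a b t : ℕ) (m : Mem), l + 1 ≤ S.L n →
    a < S.k ^ (S.L n - (l + 1)) → b < S.k ^ (S.L n - (l + 1)) → t < S.k * S.k → S.RO n m → Bd V m →
    m 8 0 = l + 1 → m 9 (3 * (l + 1)) = a → m 9 (3 * (l + 1) + 1) = b → m 9 (3 * (l + 1) + 2) = t →
    Rp m 10 0 (S.N n) u' → Cp16 S n u l (a * S.k + t / S.k) (b * S.k + t % S.k) m →
    Fl S n P B V K c m l arr (S.dl n u u' l a b t) := by
  obtain ⟨c, κ, Hc⟩ := rec_fl_ex arr (by omega) (by omega) (by omega) (.c 0) (.mul matd_s matd_s)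
    matd_body rfl rfl rfl (by rcases h with rfl | rfl <;> rfl)
  refine ⟨c, κ + 1, by omega, ?_⟩
  intro n P B V κ' hκ cx u u' l a b t m hl ha hb ht ro bd h8 fa fb ft ru cp
  have H := cx.ok
  have hM : ∀ w : Mem, (∀ q, q ≠ 6 → w q = m q) →
      matd_M S.k (S.p n) (S.N n) l a b t w := fun w hw => by
    constructor <;> rw [hw _ (by decide)]
    · exact h8
    · exact fa
    · exact fb
    · exact ft
    · rw [ro.pk 1 (by omega), pow_one]
    · exact ro.pk _ (by omega)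
    · exact ro.pk _ (by omega)
    · exact ro.pk _ (by omega)
    · exact ro.par 0 (by omega)
    · exact ro.par 1 (by omega)
  have hs : ∀ w : Mem, (∀ q, q ≠ 6 → w q = m q) → matd_s.eval w = S.k ^ (l + 2) := fun w hw => by
    simp only [matd_s, matd_lv, FE.eval, (hM w hw).lv, (hM w hw).kn]
  have hW := sq_le_W (n := n) H hl
  have hb1 := big_W (n := n) H
  have hb2 := big_p (S := S) (n := n)
  have hb3 := cx.big
  have hb4 : S.W n ≤ (S.L n + 3) * S.W n := Nat.le_mul_of_pos_left _ (by omega)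
  have hg : ∀ e < S.k ^ (l + 2) * S.k ^ (l + 2),
      (S.dl n u u' l a b t (e / S.k ^ (l + 2)) (e % S.k ^ (l + 2))).val ≤ V := fun e _ => by
    have := ZMod.val_lt (S.dl n u u' l a b t (e / S.k ^ (l + 2)) (e % S.k ^ (l + 2)))
    omega
  have D := Hc P B V (S.R n) κ' (by omega) cx.env m
    (fun e => (S.dl n u u' l a b t (e / S.k ^ (l + 2)) (e % S.k ^ (l + 2))).val) 0
    (S.k ^ (l + 2) * S.k ^ (l + 2)) bd (ro.Sm H) rfl
    (by simp only [FE.eval, hs m fun _ _ => rfl]) (by rw [zero_add]; exact hW.trans (by omega)) hg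
    fun e _ => by
      have hw : ∀ q, q ≠ 6 → m.set 6 0 e q = m q := fun q hq => Mem.set_arr _ _ _ hq
      have hX : (FE.div (.v 0) matd_s).eval (m.set 6 0 e) = e / S.k ^ (l + 2) := by
        simp only [FE.eval, hs _ hw, Mem.set_same]
      have hY : (FE.mod (.v 0) matd_s).eval (m.set 6 0 e) = e % S.k ^ (l + 2) := by
        simp only [FE.eval, hs _ hw, Mem.set_same]
      have hr : ∀ x y, m 10 (gi S.k (l + 1) a b x * S.N n + gi S.k (l + 1) a b y) =
          (u' (gi S.k (l + 1) a b x) (gi S.k (l + 1) a b y)).val := fun x y => by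
        have := ru _ (gi_lt H hl ha hb x) _ (gi_lt H hl ha hb y)
        rwa [zero_add] at this
      rw [matd_body, FE.eval, FE.eval, Sch.dl]
      simp only [matd_c_ev (hM _ hw), matd_d_ev (hM _ hw), hX, hY, hw 10 (by decide),
        hw 16 (by decide), hr]
      split_ifs with c1 c2
      · rw [matd_cp H hl ha hb ht cp c1.1 c1.2.1, matd_val]
      · rw [matd_cp H hl ha hb ht cp c2.1 c2.2.1, matd_val]
      · simp only [FE.eval, ZMod.val_zero]
  refine ⟨_, D.mono (Nat.mul_le_mul_right _ ?_), bd.upd _ _ _ hg, kp_upd _ _ _ _ _,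
    rp_upd m arr 0 _ _⟩
  exact le_trans (Nat.add_le_add_left (by omega) _) (sq_le_cu (n := n) H (l + 1))

end Vale.Agent.P305
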