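import Vale.Agent.P305.MatD

/-! The fills around the products, at level m 8 0 = l + 1, size s = k ^ (l + 2) = m 18 (l + 2). Hints: rec_fl_ex with g e = (A (e / s) (e % s)).val, rp_upd, Bd.upd, kp_upd; differences modulo p as (x + p - y) % p. -/

namespace Vale.Agent.P305

open Vale.Agent.P315 Finset

/-- The size. -/
def mats_s : FE := .rd 18 (.add (.rd 8 (.c 0)) (.c 1))

/-- The expression for `bk`. -/
def mats_bk (x : FE) : FE :=
  .add (.ifz (.sub (.rd 18 (.rd 8 (.c 0))) x) (.rd 18 (.sub (.rd 8 (.c 0)) (.c 1))) (.c 0))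
    (.mod x (.rd 18 (.sub (.rd 8 (.c 0)) (.c 1))))

theorem mats_dm {s i j : ℕ} (hj : j < s) : (i * s + j) / s = i ∧ (i * s + j) % s = j := by
  constructor
  · rw [add_comm, Nat.add_mul_div_right _ _ (by omega), Nat.div_eq_of_lt hj, zero_add]
  · rw [add_comm, Nat.add_mul_mod_self_right, Nat.mod_eq_of_lt hj]

theorem mats_fill (S : Sch) (arr : ℕ) (h5 : arr ≠ 5) (h6 : arr ≠ 6) (h7 : arr ≠ 7)
    (base body : FE) (hb : base.noRd 5 = true) (hy : body.noRd 5 = true)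
    (hp : body.noRd arr = true) : Ex S fun n P B V K c =>
    S.Ok ∧ ∀ (A : ℕ → ℕ → ZMod (S.p n)) (l β : ℕ) (m : Mem), l + 1 ≤ S.L n → S.RO n m → Bd V m →
      m 8 0 = l + 1 → base.eval m = β → β ≤ (l + 1) * S.W n →
      (∀ i < S.k ^ (l + 2), ∀ j < S.k ^ (l + 2),
        body.eval (m.set 6 0 (i * S.k ^ (l + 2) + j)) = (A i j).val) →
      ∃ m', Does P B c m m' (S.cu n (l + 1) * K) ∧ Bd V m' ∧ Kp [arr] m m' ∧
        (∀ i, (l + 2) * S.W n ≤ i → m' arr i = m arr i) ∧ Rp m' arr β (S.k ^ (l + 2)) A := by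
  obtain ⟨c, κ, H⟩ := rec_fl_ex arr h5 h6 h7 base (.mul mats_s mats_s) body hb rfl hy hp
  refine ⟨c, κ + 1, by omega, fun n P B V κ' hκ hC => ⟨hC.ok, ?_⟩⟩
  intro A l β m hl hR hm h8 hβ hle hbody
  have hW := sq_le_W hC.ok hl
  have hcu := sq_le_cu (n := n) hC.ok (l + 1)
  have hbW := (big_W (n := n) hC.ok).trans hC.big
  have hbp := (big_p (S := S) (n := n)).trans hC.big
  have hs : 0 < S.k ^ (l + 2) := Nat.pow_pos (by have := k_two hC.ok; omega)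
  have h2 : (l + 2) * S.W n ≤ (S.L n + 3) * S.W n := Nat.mul_le_mul_right _ (by omega)
  have h3 : (l + 2) * S.W n = (l + 1) * S.W n + S.W n := by ring
  have e2 : l + 1 + 1 = l + 2 := rfl
  rw [e2] at hW hcu
  have hg : ∀ e < S.k ^ (l + 2) * S.k ^ (l + 2),
      (A (e / S.k ^ (l + 2)) (e % S.k ^ (l + 2))).val ≤ V := fun e _ => by
    have := ZMod.val_lt (A (e / S.k ^ (l + 2)) (e % S.k ^ (l + 2)))
    omega
  have hD := H P B V (S.R n) κ' (by omega) hC.env m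
    (fun e => (A (e / S.k ^ (l + 2)) (e % S.k ^ (l + 2))).val) β (S.k ^ (l + 2) * S.k ^ (l + 2))
    hm (hR.Sm hC.ok) hβ (by simp only [mats_s, FE.eval, h8, hR.pk (l + 1 + 1) (by omega)])
    (by omega) hg fun e he => by
      have h := hbody (e / S.k ^ (l + 2)) (Nat.div_lt_of_lt_mul he) (e % S.k ^ (l + 2))
        (Nat.mod_lt _ hs)
      rwa [Nat.div_add_mod'] at h
  exact ⟨_, hD.mono (Nat.mul_le_mul_right _ (by omega)), hm.upd _ _ _ hg, kp_upd _ _ _ _ _,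
    fun i hi => upd_out _ _ _ _ _ _ (Or.inr (by omega)), rp_upd _ _ _ _ _⟩

theorem mats_W {S : Sch} {n : ℕ} {m : Mem} (h : S.RO n m) : m 17 3 = S.W n := h.par 3 (by omega)

theorem mats_p {S : Sch} {n : ℕ} {m : Mem} (h : S.RO n m) : m 17 0 = S.p n := h.par 0 (by omega)

theorem bk_ex (S : Sch) : Ex S fun n P B V K c => ∀ (A : ℕ → ℕ → ZMod (S.p n)) (l : ℕ) (m : Mem),
    l + 1 ≤ S.L n → S.RO n m → Bd V m → m 8 0 = l + 1 → Rp m 11 (l * S.W n) (S.k ^ (l + 1)) A →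
    Fl S n P B V K c m l 14 fun x y => A (S.bk l x) (S.bk l y) := by
  obtain ⟨c, κ, hκ, H⟩ := mats_fill S 14 (by decide) (by decide) (by decide) (.c 0)
    (.rd 11 (.add (.mul (.sub (.rd 8 (.c 0)) (.c 1)) (.rd 17 (.c 3)))
      (.add (.mul (mats_bk (.div (.v 0) mats_s)) (.rd 18 (.rd 8 (.c 0))))
        (mats_bk (.mod (.v 0) mats_s))))) rfl rfl rfl
  refine ⟨c, κ, hκ, fun n P B V κ' hk hC A l m hl hR hm h8 hA => ?_⟩
  obtain ⟨hO, H⟩ := H n P B V κ' hk hC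
  obtain ⟨m', a1, a2, a3, -, a5⟩ := H (fun x y => A (S.bk l x) (S.bk l y)) l 0 m hl hR hm h8 rfl
    (Nat.zero_le _) fun i _ j hj => by
      have e : ∀ x, (if S.k ^ (l + 1) - x = 0 then S.k ^ l else 0) + x % S.k ^ l = S.bk l x :=
        fun x => by
          unfold Sch.bk
          split_ifs <;> omega
      rw [← hA _ (bk_lt hO l i) _ (bk_lt hO l j)]
      simp only [mats_s, mats_bk, FE.eval, Mem.set_same, Mem.set_arr _ _ _ (show 8 ≠ 6 by decide),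
        Mem.set_arr _ _ _ (show 11 ≠ 6 by decide), Mem.set_arr _ _ _ (show 17 ≠ 6 by decide),
        Mem.set_arr _ _ _ (show 18 ≠ 6 by decide), h8, mats_W hR, Nat.add_sub_cancel,
        hR.pk (l + 1 + 1) (by omega), hR.pk (l + 1) (by omega), hR.pk l (by omega),
        (mats_dm hj).1, (mats_dm hj).2, e]
  exact ⟨m', a1, a2, a3, a5⟩

theorem oms_ex (S : Sch) : Ex S fun n P B V K c => ∀ (A : ℕ → ℕ → ZMod (S.p n)) (l : ℕ) (m : Mem),
    l + 1 ≤ S.L n → S.RO n m → Bd V m → m 8 0 = l + 1 → Rp m 30 0 (S.k ^ (l + 2)) A →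
    Fl S n P B V K c m l 13 (oms A) := by
  obtain ⟨c, κ, hκ, H⟩ := mats_fill S 13 (by decide) (by decide) (by decide) (.c 0)
    (.mod (.sub (.add (.ifz (.add (.sub (.div (.v 0) mats_s) (.mod (.v 0) mats_s))
      (.sub (.mod (.v 0) mats_s) (.div (.v 0) mats_s))) (.c 1) (.c 0)) (.rd 17 (.c 0)))
      (.rd 30 (.v 0))) (.rd 17 (.c 0))) rfl rfl rfl
  refine ⟨c, κ, hκ, fun n P B V κ' hk hC A l m hl hR hm h8 hA => ?_⟩
  obtain ⟨hO, H⟩ := H n P B V κ' hk hC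
  obtain ⟨m', a1, a2, a3, -, a5⟩ := H (oms A) l 0 m hl hR hm h8 rfl
    (Nat.zero_le _) fun i hi j hj => by
      have h1 := hA i hi j hj
      rw [zero_add] at h1
      simp only [mats_s, FE.eval, Mem.set_same, Mem.set_arr _ _ _ (show 8 ≠ 6 by decide),
        Mem.set_arr _ _ _ (show 30 ≠ 6 by decide), Mem.set_arr _ _ _ (show 17 ≠ 6 by decide),
        Mem.set_arr _ _ _ (show 18 ≠ 6 by decide), h8, mats_p hR,
        hR.pk (l + 1 + 1) (by omega), (mats_dm hj).1, (mats_dm hj).2, h1]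
      have h2 := ZMod.val_lt (A i j)
      rw [← ZMod.val_natCast, Nat.cast_sub (by omega), Nat.cast_add, ZMod.natCast_self, add_zero,
        ZMod.natCast_zmod_val, oms]
      by_cases h : i = j
      · rw [if_pos (by omega), if_pos h, Nat.cast_one]
      · rw [if_neg (by omega), if_neg h, Nat.cast_zero]
  exact ⟨m', a1, a2, a3, a5⟩

theorem cp30_ex (S : Sch) : Ex S fun n P B V K c => ∀ (A : ℕ → ℕ → ZMod (S.p n)) (l : ℕ) (m : Mem),
    l + 1 ≤ S.L n → S.RO n m → Bd V m → m 8 0 = l + 1 → Rp m 30 0 (S.k ^ (l + 2)) A →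
    Fl S n P B V K c m l 14 A := by
  obtain ⟨c, κ, hκ, H⟩ := mats_fill S 14 (by decide) (by decide) (by decide) (.c 0)
    (.rd 30 (.v 0)) rfl rfl rfl
  refine ⟨c, κ, hκ, fun n P B V κ' hk hC A l m hl hR hm h8 hA => ?_⟩
  obtain ⟨m', a1, a2, a3, -, a5⟩ := (H n P B V κ' hk hC).2 A l 0 m hl hR hm h8 rfl
    (Nat.zero_le _) fun i hi j hj => by
      rw [← hA i hi j hj, zero_add]
      simp only [FE.eval, Mem.set_same, Mem.set_arr _ _ _ (show 30 ≠ 6 by decide)]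
  exact ⟨m', a1, a2, a3, a5⟩

theorem cp11_ex (S : Sch) (arr : ℕ) (h : arr = 13 ∨ arr = 14) : Ex S fun n P B V K c =>
    ∀ (A : ℕ → ℕ → ZMod (S.p n)) (l : ℕ) (m : Mem), l + 1 ≤ S.L n → S.RO n m → Bd V m →
    m 8 0 = l + 1 → Rp m 11 ((l + 1) * S.W n) (S.k ^ (l + 2)) A → Fl S n P B V K c m l arr A := by
  obtain ⟨c, κ, hκ, H⟩ := mats_fill S arr (by omega) (by omega) (by omega) (.c 0)
    (.rd 11 (.add (.mul (.rd 8 (.c 0)) (.rd 17 (.c 3))) (.v 0))) rfl rfl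
    (by rcases h with rfl | rfl <;> rfl)
  refine ⟨c, κ, hκ, fun n P B V κ' hk hC A l m hl hR hm h8 hA => ?_⟩
  obtain ⟨m', a1, a2, a3, -, a5⟩ := (H n P B V κ' hk hC).2 A l 0 m hl hR hm h8 rfl
    (Nat.zero_le _) fun i hi j hj => by
      rw [← hA i hi j hj]
      simp only [FE.eval, Mem.set_same, Mem.set_arr _ _ _ (show 8 ≠ 6 by decide),
        Mem.set_arr _ _ _ (show 11 ≠ 6 by decide), Mem.set_arr _ _ _ (show 17 ≠ 6 by decide),
        h8, mats_W hR]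
  exact ⟨m', a1, a2, a3, a5⟩

theorem back_ex (S : Sch) : Ex S fun n P B V K c => ∀ (A : ℕ → ℕ → ZMod (S.p n)) (l : ℕ) (m : Mem),
    l + 1 ≤ S.L n → S.RO n m → Bd V m → m 8 0 = l + 1 → Rp m 30 0 (S.k ^ (l + 2)) A →
    ∃ m', Does P B c m m' (S.cu n (l + 1) * K) ∧ Bd V m' ∧ Kp [11] m m' ∧
      (∀ i, (l + 2) * S.W n ≤ i → m' 11 i = m 11 i) ∧
      Rp m' 11 ((l + 1) * S.W n) (S.k ^ (l + 2)) A := by
  obtain ⟨c, κ, hκ, H⟩ := mats_fill S 11 (by decide) (by decide) (by decide)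
    (.mul (.rd 8 (.c 0)) (.rd 17 (.c 3))) (.rd 30 (.v 0)) rfl rfl rfl
  refine ⟨c, κ, hκ, fun n P B V κ' hk hC A l m hl hR hm h8 hA => ?_⟩
  exact (H n P B V κ' hk hC).2 A l _ m hl hR hm h8 (by simp only [FE.eval, h8, mats_W hR])
    le_rfl fun i hi j hj => by
      rw [← hA i hi j hj, zero_add]
      simp only [FE.eval, Mem.set_same, Mem.set_arr _ _ _ (show 30 ≠ 6 by decide)]

end Vale.Agent.P305
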