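import Vale.Agent.P305.Par
import Vale.Agent.P305.Alg

/-! The order of the pairs and the update of a node. Hints: mem_ord by induction (c = (i / k ^ l % k) * k + j / k ^ l % k, Nat.div_div_eq_div_mul). loc_upd from upd_iv with g = gi S.k (l + 1) a b: for a pair (i, j) in the block of the child exactly one local pair contributes (x = fw of i % k ^ l, y = fw of k ^ l + j % k ^ l); if dl x' x ≠ 0 then fw l c (bk l x) = x, so gi_fw applies. -/

namespace Vale.Agent.P305

open Vale.Agent.P315 Finset

theorem mem_ord {k : ℕ} (hk : 0 < k) (l a b i j : ℕ) :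
    (i, j) ∈ ord k l a b ↔ i / k ^ l = a ∧ j / k ^ l = b := by
  induction l generalizing a b with
  | zero => simp [ord]
  | succ l ih =>
    simp only [ord, List.mem_flatMap, List.mem_range, ih, pow_succ, ← Nat.div_div_eq_div_mul]
    generalize i / k ^ l = x
    generalize j / k ^ l = y
    constructor
    · rintro ⟨c, hc, rfl, rfl⟩
      rw [mul_comm a, mul_comm b, Nat.mul_add_div hk, Nat.mul_add_div hk,
        Nat.div_eq_of_lt (Nat.div_lt_of_lt_mul hc), Nat.div_eq_of_lt (Nat.mod_lt _ hk)]
      exact ⟨rfl, rfl⟩
    · rintro ⟨rfl, rfl⟩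
      have h1 := Nat.mod_lt x hk
      have h2 := Nat.mod_lt y hk
      refine ⟨k * (x % k) + y % k, by nlinarith, ?_, ?_⟩
      · rw [Nat.mul_add_div hk, Nat.div_eq_of_lt h2, add_zero, Nat.div_add_mod']
      · rw [Nat.mul_add_mod, Nat.mod_mod, Nat.div_add_mod']

theorem length_ord (k l a b : ℕ) : (ord k l a b).length = k ^ l * k ^ l := by
  induction l generalizing a b with
  | zero => simp [ord]
  | succ l ih =>
    simp only [ord, List.length_flatMap, ih, List.map_const', List.length_range, List.sum_replicate,
      smul_eq_mul]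
    ring

theorem fold_supp {K : Type} [Field K] {N : ℕ} (tg u : ℕ → ℕ → K) (l : List (ℕ × ℕ)) {i j : ℕ}
    (h : (i, j) ∉ l ∨ j ≤ i) : l.foldl (step N tg) u i j = u i j := by
  induction l generalizing u with
  | nil => rfl
  | cons e l ih =>
    rw [List.foldl_cons, ih _ (h.imp_left fun h k => h (List.mem_cons_of_mem _ k)), step]
    split_ifs with k
    · refine if_neg fun k' => ?_
      obtain ⟨rfl, rfl⟩ := k'
      rcases h with h | h
      · exact h List.mem_cons_self
      · exact absurd k.1 (not_lt.2 h)
    · rfl

end Vale.Agent.P305
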