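import Vale.Agent.P305.Alg

/-! The lazy update. Hints: with A, A' the matrices, X, X' the inverses, Δ = A' - A: X' = X - X Δ X' = X - X' Δ X, so X' = X - X (Δ - Δ X' Δ) X. Let Q : Matrix (Fin N) (Fin s) K, Q i x = if g x = i then 1 else 0; Δ = Q D Qᵀ, M = Qᵀ X Q, D E D = D (Qᵀ X' Q) D by hE; mm is the product of matrices over Fin s (Finset.sum_range). -/

namespace Vale.Agent.P305

open Vale.Agent.P315 Finset

variable {K : Type} [Field K] {N : ℕ} {u u' tg : ℕ → ℕ → K}

/-- The matrix of size `s`. -/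
def upd_M (s : ℕ) (A : ℕ → ℕ → K) : Matrix (Fin s) (Fin s) K := Matrix.of fun a b => A a b

theorem upd_mm (s : ℕ) (A B : ℕ → ℕ → K) : upd_M s (mm s A B) = upd_M s A * upd_M s B := by
  ext a b
  exact Finset.sum_range fun t => A a t * B t b

theorem upd_oms (s : ℕ) (A : ℕ → ℕ → K) : upd_M s (oms A) = 1 - upd_M s A := by
  ext a b
  simp [upd_M, oms, Matrix.one_apply, Fin.ext_iff]

theorem upd_alg {R : Type} [Ring R] {M M' D E : R} (h1 : M' = M - M * D * M')
    (h2 : M' = M - M' * D * M) (h3 : D * E * D = D * M' * D) :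
    M' = (1 - M * ((1 - D * E) * D)) * M := by
  have h4 : (1 - M * ((1 - D * E) * D)) * M = M - M * D * (M - M' * D * M) := by
    rw [sub_mul 1 (D * E), h3]
    noncomm_ring
  rw [h4, ← h2, ← h1]

theorem upd_inv {R : Type} [Ring R] {A A' X X' : R} (h1 : X * A = 1) (h2 : A' * X' = 1) :
    X' = X - X * (A' - A) * X' := by
  rw [mul_sub, h1, sub_mul, mul_assoc, h2, mul_one, one_mul, sub_sub_cancel]

theorem upd_inv' {R : Type} [Ring R] {A A' X X' : R} (h1 : A * X = 1) (h2 : X' * A' = 1) :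
    X' = X - X' * (A' - A) * X := by
  rw [mul_sub, h2, sub_mul, mul_assoc, h1, mul_one, one_mul, sub_sub_cancel]

theorem upd_iv (hu : Ns N u) (hu' : Ns N u') {s : ℕ} {g : ℕ → ℕ} (hg : ∀ x < s, g x < N)
    {D E : ℕ → ℕ → K} (hD : ∀ i < N, ∀ j < N, alt u' i j - alt u i j =
      ∑ x ∈ range s, ∑ y ∈ range s, if g x = i ∧ g y = j then D x y else 0)
    (hE : ∀ x < s, ∀ y < s, (∃ x' < s, D x' x ≠ 0) → (∃ y' < s, D y y' ≠ 0) →
      E x y = iv N u' (g x) (g y)) {x y : ℕ} (hx : x < s) (hy : y < s) :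
    iv N u' (g x) (g y) = mm s (oms (mm s (fun a b => iv N u (g a) (g b))
      (mm s (oms (mm s D E)) D))) (fun a b => iv N u (g a) (g b)) x y := by
  classical
  let γ : Fin s → Fin N := fun a => ⟨g a, hg a a.2⟩
  let Q : Matrix (Fin N) (Fin s) K := Matrix.of fun i a => if γ a = i then 1 else 0
  have hQ : ∀ v : ℕ → ℕ → K,
      upd_M s (fun a b => iv N v (g a) (g b)) = Q.transpose * (mat N v)⁻¹ * Q := fun v => by
    ext a b
    have : iv N v (g a) (g b) = (mat N v)⁻¹ (γ a) (γ b) := dif_pos ⟨hg a a.2, hg b b.2⟩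
    simp [upd_M, this, Matrix.mul_apply, Q]
  have hΔ : mat N u' - mat N u = Q * upd_M s D * Q.transpose := by
    ext i j
    have := hD i i.2 j j.2
    rw [Finset.sum_comm, Finset.sum_range] at this
    refine this.trans (Finset.sum_congr rfl fun b _ => ?_)
    change _ = (∑ a, Q i a * upd_M s D a b) * Q j b
    rw [Finset.sum_range, Finset.sum_mul]
    refine Finset.sum_congr rfl fun a _ => ?_
    by_cases h1 : g a = i <;> by_cases h2 : g b = j <;> simp [Q, γ, upd_M, Fin.ext_iff, h1, h2]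
  have i1 := Matrix.nonsing_inv_mul _ (Ne.isUnit hu)
  have i2 := Matrix.mul_nonsing_inv _ (Ne.isUnit hu)
  have i3 := Matrix.nonsing_inv_mul _ (Ne.isUnit hu')
  have i4 := Matrix.mul_nonsing_inv _ (Ne.isUnit hu')
  have e1 := congrArg (fun Y => Q.transpose * Y * Q) (upd_inv i1 i4)
  have e2 := congrArg (fun Y => Q.transpose * Y * Q) (upd_inv' i2 i3)
  have key : upd_M s (fun a b => iv N u' (g a) (g b)) = upd_M s (mm s (oms (mm s
      (fun a b => iv N u (g a) (g b)) (mm s (oms (mm s D E)) D)))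
      fun a b => iv N u (g a) (g b)) := by
    rw [upd_mm, upd_oms, upd_mm, upd_mm, upd_oms, upd_mm]
    refine upd_alg ?_ ?_ ?_
    · rw [hQ, hQ]
      simpa only [hΔ, Matrix.mul_sub, Matrix.sub_mul, Matrix.mul_assoc] using e1
    · rw [hQ, hQ]
      simpa only [hΔ, Matrix.mul_sub, Matrix.sub_mul, Matrix.mul_assoc] using e2
    · ext a b
      simp only [Matrix.mul_apply, Finset.sum_mul]
      refine Finset.sum_congr rfl fun c _ => Finset.sum_congr rfl fun e _ => ?_
      change D a e * E e c * D c b = D a e * iv N u' (g e) (g c) * D c b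
      by_cases h1 : D a e = 0
      · simp only [h1, zero_mul]
      by_cases h2 : D c b = 0
      · simp only [h2, mul_zero]
      rw [hE e e.2 c c.2 ⟨a, a.2, h1⟩ ⟨b, b.2, h2⟩]
  exact congrFun (congrFun key ⟨x, hx⟩) ⟨y, hy⟩

end Vale.Agent.P305
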