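import Vale.Agent.P305.Par
import Vale.Agent.P305.Upd

/-! The order of the pairs and the update of a node. Hints: mem_ord by induction (c = (i / k ^ l % k) * k + j / k ^ l % k, Nat.div_div_eq_div_mul). loc_upd from upd_iv with g = gi S.k (l + 1) a b: for a pair (i, j) in the block of the child exactly one local pair contributes (x = fw of i % k ^ l, y = fw of k ^ l + j % k ^ l); if dl x' x ≠ 0 then fw l c (bk l x) = x, so gi_fw applies. -/

namespace Vale.Agent.P305

open Vale.Agent.P315 Finset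

variable {S : Sch} {n : ℕ}

theorem ordu_dm {m q r : ℕ} (hr : r < m) : (q * m + r) / m = q ∧ (q * m + r) % m = r := by
  have hm : 0 < m := by omega
  constructor
  · rw [Nat.add_comm, Nat.add_mul_div_right _ _ hm, Nat.div_eq_of_lt hr, Nat.zero_add]
  · rw [Nat.add_comm, Nat.add_mul_mod_self_right, Nat.mod_eq_of_lt hr]

theorem ordu_A {k m a b d x i : ℕ} (hm : 0 < m) (hd : d < k) :
    ((if x < m * k then a else b) * (m * k) + x % (m * k) = i ∧ x / m = d) ↔
      (i / m = a * k + d ∧ x = d * m + i % m) := by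
  have h1 : ∀ r < m, d * m + r < m * k := fun r hr => by nlinarith
  constructor
  · rintro ⟨h2, h3⟩
    have hx : x = d * m + x % m := by rw [← h3, Nat.mul_comm]; exact (Nat.div_add_mod x m).symm
    have hr := Nat.mod_lt x hm
    have hl : x < m * k := by rw [hx]; exact h1 _ hr
    rw [if_pos hl, Nat.mod_eq_of_lt hl] at h2
    have hi : i = (a * k + d) * m + x % m := by
      rw [← h2]; nth_rewrite 1 [hx]; ring
    have := ordu_dm (q := a * k + d) hr
    rw [← hi] at this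
    exact ⟨this.1, by rw [this.2]; exact hx⟩
  · rintro ⟨h2, h3⟩
    have hr := Nat.mod_lt i hm
    have hl : x < m * k := by rw [h3]; exact h1 _ hr
    rw [if_pos hl, Nat.mod_eq_of_lt hl]
    refine ⟨?_, by rw [h3]; exact (ordu_dm hr).1⟩
    have := Nat.div_add_mod i m
    rw [h2] at this
    rw [h3]
    nth_rewrite 2 [← this]
    ring

theorem ordu_B {k m a b d y j : ℕ} (hm : 0 < m) (hd : d < k) :
    ((if y < m * k then a else b) * (m * k) + y % (m * k) = j ∧ y / m = k + d) ↔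
      (j / m = b * k + d ∧ y = (k + d) * m + j % m) := by
  have h1 : ∀ r < m, d * m + r < m * k := fun r hr => by nlinarith
  have h0 : ∀ r < m, ¬ ((k + d) * m + r < m * k) ∧ ((k + d) * m + r) % (m * k) = d * m + r := by
    intro r hr
    refine ⟨by nlinarith, ?_⟩
    have : (k + d) * m + r = 1 * (m * k) + (d * m + r) := by ring
    rw [this]
    exact (ordu_dm (h1 r hr)).2
  constructor
  · rintro ⟨h2, h3⟩
    have hx : y = (k + d) * m + y % m := by
      rw [← h3, Nat.mul_comm]; exact (Nat.div_add_mod y m).symm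
    have hr := Nat.mod_lt y hm
    have hl := h0 _ hr
    rw [← hx] at hl
    rw [if_neg hl.1, hl.2] at h2
    have hi : j = (b * k + d) * m + y % m := by
      rw [← h2]; ring
    have := ordu_dm (q := b * k + d) hr
    rw [← hi] at this
    exact ⟨this.1, by rw [this.2]; exact hx⟩
  · rintro ⟨h2, h3⟩
    have hr := Nat.mod_lt j hm
    have hl := h0 _ hr
    rw [← h3] at hl
    rw [if_neg hl.1, hl.2]
    refine ⟨?_, by rw [h3]; exact (ordu_dm hr).1⟩
    have := Nat.div_add_mod j m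
    rw [h2] at this
    nth_rewrite 2 [← this]
    ring

theorem ordu_sum {K : Type} [Field K] {s : ℕ} {P Q : ℕ → Prop} [DecidablePred P] [DecidablePred Q]
    {p q : Prop} [Decidable p] [Decidable q] {x0 y0 : ℕ} (hx : x0 < s) (hy : y0 < s)
    (hP : ∀ x, P x ↔ p ∧ x = x0) (hQ : ∀ y, Q y ↔ q ∧ y = y0) (δ : K) :
    (∑ x ∈ range s, ∑ y ∈ range s, if P x ∧ Q y then δ else 0) = if p ∧ q then δ else 0 := by
  by_cases h : p ∧ q
  · rw [if_pos h, Finset.sum_eq_single x0, Finset.sum_eq_single y0]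
    · rw [if_pos ⟨(hP _).2 ⟨h.1, rfl⟩, (hQ _).2 ⟨h.2, rfl⟩⟩]
    · intro y _ hne
      exact if_neg fun hh => hne ((hQ _).1 hh.2).2
    · intro hh
      exact absurd (mem_range.2 hy) hh
    · intro x _ hne
      exact Finset.sum_eq_zero fun y _ => if_neg fun hh => hne ((hP _).1 hh.1).2
    · intro hh
      exact absurd (mem_range.2 hx) hh
  · rw [if_neg h]
    exact Finset.sum_eq_zero fun x _ => Finset.sum_eq_zero fun y _ =>
      if_neg fun hh => h ⟨((hP _).1 hh.1).1, ((hQ _).1 hh.2).1⟩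

theorem ordu_fb (H : S.Ok) {l c x : ℕ} (hc : c < S.k * S.k)
    (h : x / S.k ^ l = c / S.k ∨ x / S.k ^ l = S.k + c % S.k) : S.fw l c (S.bk l x) = x := by
  have hk := k_two H
  have hm : 0 < S.k ^ l := Nat.pow_pos (by omega)
  have hr := Nat.mod_lt x hm
  have hd : c / S.k < S.k := Nat.div_lt_of_lt_mul hc
  have hx := Nat.div_add_mod x (S.k ^ l)
  unfold Sch.fw Sch.bk
  rw [pow_succ]
  rcases h with h | h
  · rw [h] at hx
    have h1 : x < S.k ^ l * S.k := by nlinarith
    rw [if_pos h1, Nat.zero_add, if_pos hr, Nat.mul_comm]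
    exact hx
  · rw [h] at hx
    have h1 : ¬ x < S.k ^ l * S.k := by
      have := hx
      rw [Nat.mul_add] at this
      exact Nat.not_lt.2 (le_of_le_of_eq
        (le_trans (Nat.le_add_right _ _) (Nat.le_add_right _ _)) this)
    rw [if_neg h1, if_neg (Nat.not_lt.2 (Nat.le_add_right _ _)), Nat.add_mod_left, Nat.mod_mod]
    nth_rewrite 2 [← hx]
    ring

theorem ordu_dl {u u' : ℕ → ℕ → ZMod (S.p n)} {l a b c x y : ℕ} (h : S.dl n u u' l a b c x y ≠ 0) :
    (x / S.k ^ l = c / S.k ∨ x / S.k ^ l = S.k + c % S.k) ∧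
      (y / S.k ^ l = c / S.k ∨ y / S.k ^ l = S.k + c % S.k) := by
  unfold Sch.dl at h
  split_ifs at h with h1 h2
  · exact ⟨Or.inl h1.1, Or.inr h1.2.1⟩
  · exact ⟨Or.inr h2.2.1, Or.inl h2.1⟩
  · exact absurd rfl h

theorem ordu_blk (H : S.Ok) {l a b c : ℕ} (hc : c < S.k * S.k) (i j : ℕ) (δ : ZMod (S.p n)) :
    (∑ x ∈ range (S.k ^ (l + 2)), ∑ y ∈ range (S.k ^ (l + 2)),
      if (gi S.k (l + 1) a b x = i ∧ x / S.k ^ l = c / S.k) ∧
        (gi S.k (l + 1) a b y = j ∧ y / S.k ^ l = S.k + c % S.k) then δ else 0) =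
      if i / S.k ^ l = a * S.k + c / S.k ∧ j / S.k ^ l = b * S.k + c % S.k then δ else 0 := by
  have hk := k_two H
  have hm : 0 < S.k ^ l := Nat.pow_pos (by omega)
  have hd : c / S.k < S.k := Nat.div_lt_of_lt_mul hc
  have he : c % S.k < S.k := Nat.mod_lt _ (by omega)
  have hi := Nat.mod_lt i hm
  have hj := Nat.mod_lt j hm
  have hs : 2 * S.k * S.k ^ l ≤ S.k ^ (l + 2) := by
    have : S.k ^ (l + 2) = S.k * S.k * S.k ^ l := by ring
    rw [this]
    exact Nat.mul_le_mul_right _ (Nat.mul_le_mul_right _ hk)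
  refine ordu_sum (x0 := c / S.k * S.k ^ l + i % S.k ^ l)
    (y0 := (S.k + c % S.k) * S.k ^ l + j % S.k ^ l) (by nlinarith) (by nlinarith) ?_ ?_ δ
  · intro x
    unfold gi
    rw [pow_succ]
    exact ordu_A hm hd
  · intro y
    unfold gi
    rw [pow_succ]
    exact ordu_B hm he

theorem ordu_hD (H : S.Ok) {u u' : ℕ → ℕ → ZMod (S.p n)} {l a b c : ℕ} (hc : c < S.k * S.k)
    (h : ∀ i j, ¬(i / S.k ^ l = a * S.k + c / S.k ∧ j / S.k ^ l = b * S.k + c % S.k) →
      u' i j = u i j) (i j : ℕ) :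
    alt u' i j - alt u i j = ∑ x ∈ range (S.k ^ (l + 2)), ∑ y ∈ range (S.k ^ (l + 2)),
      if gi S.k (l + 1) a b x = i ∧ gi S.k (l + 1) a b y = j then S.dl n u u' l a b c x y else 0 := by
  rcases lt_trichotomy i j with hij | hij | hij
  · have e : alt u' i j - alt u i j = if i / S.k ^ l = a * S.k + c / S.k ∧
        j / S.k ^ l = b * S.k + c % S.k then u' i j - u i j else 0 := by
      unfold alt
      rw [if_pos hij, if_pos hij]
      split_ifs with h1
      · rfl
      · rw [h i j h1, sub_self]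
    rw [e, ← ordu_blk H hc i j]
    refine Finset.sum_congr rfl fun x _ => Finset.sum_congr rfl fun y _ => ?_
    by_cases h1 : gi S.k (l + 1) a b x = i ∧ gi S.k (l + 1) a b y = j
    · rw [if_pos h1]
      unfold Sch.dl
      rw [h1.1, h1.2]
      by_cases h2 : x / S.k ^ l = c / S.k ∧ y / S.k ^ l = S.k + c % S.k
      · rw [if_pos ⟨⟨rfl, h2.1⟩, rfl, h2.2⟩, if_pos ⟨h2.1, h2.2, hij⟩]
      · rw [if_neg fun hh => h2 ⟨hh.1.2, hh.2.2⟩, if_neg fun hh => h2 ⟨hh.1, hh.2.1⟩,
          if_neg fun hh => absurd hh.2.2 (by omega)]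
    · rw [if_neg h1, if_neg fun hh => h1 ⟨hh.1.1, hh.2.1⟩]
  · subst hij
    have e : alt u' i i - alt u i i = 0 := by simp [alt]
    rw [e]
    symm
    refine Finset.sum_eq_zero fun x _ => Finset.sum_eq_zero fun y _ => ?_
    split_ifs with h1
    · unfold Sch.dl
      rw [h1.1, h1.2, if_neg fun hh => lt_irrefl _ hh.2.2, if_neg fun hh => lt_irrefl _ hh.2.2]
    · rfl
  · have e : alt u' i j - alt u i j = if j / S.k ^ l = a * S.k + c / S.k ∧
        i / S.k ^ l = b * S.k + c % S.k then u j i - u' j i else 0 := by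
      unfold alt
      rw [if_neg (by omega), if_pos hij, if_neg (by omega), if_pos hij]
      split_ifs with h1
      · ring
      · rw [h j i h1, sub_self]
    rw [e, ← ordu_blk H hc j i, Finset.sum_comm]
    refine Finset.sum_congr rfl fun x _ => Finset.sum_congr rfl fun y _ => ?_
    by_cases h1 : gi S.k (l + 1) a b x = i ∧ gi S.k (l + 1) a b y = j
    · rw [if_pos h1]
      unfold Sch.dl
      rw [h1.1, h1.2]
      by_cases h2 : y / S.k ^ l = c / S.k ∧ x / S.k ^ l = S.k + c % S.k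
      · rw [if_pos ⟨⟨rfl, h2.1⟩, rfl, h2.2⟩, if_neg fun hh => absurd hh.2.2 (by omega),
          if_pos ⟨h2.1, h2.2, hij⟩]
      · rw [if_neg fun hh => h2 ⟨hh.1.2, hh.2.2⟩, if_neg fun hh => absurd hh.2.2 (by omega),
          if_neg fun hh => h2 ⟨hh.1, hh.2.1⟩]
    · rw [if_neg h1, if_neg fun hh => h1 ⟨hh.2.1, hh.1.1⟩]

theorem loc_upd (H : S.Ok) {u u' : ℕ → ℕ → ZMod (S.p n)} (hu : Ns (S.N n) u) (hu' : Ns (S.N n) u')
    {l a b c : ℕ} (hl : l + 1 ≤ S.L n) (ha : a < S.k ^ (S.L n - (l + 1)))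
    (hb : b < S.k ^ (S.L n - (l + 1))) (hc : c < S.k * S.k)
    (h : ∀ i j, ¬(i / S.k ^ l = a * S.k + c / S.k ∧ j / S.k ^ l = b * S.k + c % S.k) →
      u' i j = u i j) {x y : ℕ} (hx : x < S.k ^ (l + 2)) (hy : y < S.k ^ (l + 2)) :
    S.loc n u' (l + 1) a b x y = mm (S.k ^ (l + 2)) (oms (mm (S.k ^ (l + 2)) (S.loc n u (l + 1) a b)
      (mm (S.k ^ (l + 2)) (oms (mm (S.k ^ (l + 2)) (S.dl n u u' l a b c) fun x y =>
        S.loc n u' l (a * S.k + c / S.k) (b * S.k + c % S.k) (S.bk l x) (S.bk l y)))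
        (S.dl n u u' l a b c)))) (S.loc n u (l + 1) a b) x y := by
  refine upd_iv hu hu' (s := S.k ^ (l + 2)) (g := gi S.k (l + 1) a b)
    (fun x _ => gi_lt H hl ha hb x) (fun i _ j _ => ordu_hD H hc h i j) ?_ hx hy
  rintro x _ y _ ⟨x', _, h1⟩ ⟨y', _, h2⟩
  unfold Sch.loc
  rw [← gi_fw H hc, ← gi_fw H hc, ordu_fb H hc (ordu_dl h1).2, ordu_fb H hc (ordu_dl h2).1]

end Vale.Agent.P305
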