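import Vale.Agent.P305.Par

/-! The output. Hints: array 13 by fill_ex of size N * N: cell e = (if e % N = 0 then 0 else previous cell) + (if b < n and alt u a b ≠ 0 then b + 1 else 0), a = e / N, b = e % N, where alt u a b ≠ 0 is read from m 10 (a N + b) if a < b, from m 10 (b N + a) if b < a; g e is a sum over range (b + 1), at most N * N. Then array 4 cell a < n := m 13 (a N + N - 1). For a matching the sum has at most one term; finish with out_of_inv (Bridge.lean). -/

namespace Vale.Agent.P305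

open Vale.Agent.P315 Finset

open Classical in
/-- The contribution of the pair ` (a, b)`. -/
noncomputable def outp_t {p : ℕ} [Fact p.Prime] (n : ℕ) (u : ℕ → ℕ → ZMod p) (a b : ℕ) : ℕ :=
  if b < n ∧ alt u a b ≠ 0 then b + 1 else 0

/-- The running sums. -/
noncomputable def outp_g {p : ℕ} [Fact p.Prime] (n N : ℕ) (u : ℕ → ℕ → ZMod p) (e : ℕ) : ℕ :=
  ∑ b ∈ range (e % N + 1), outp_t n u (e / N) b

theorem outp_le {p : ℕ} [Fact p.Prime] (n : ℕ) {N : ℕ} (hN : 0 < N) (u : ℕ → ℕ → ZMod p)
    (e : ℕ) : outp_g n N u e ≤ N * N := by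
  have h := Nat.mod_lt e hN
  refine (sum_le_card_nsmul _ _ N fun b hb => ?_).trans ?_
  · have := mem_range.1 hb
    unfold outp_t
    split_ifs <;> omega
  · rw [card_range, smul_eq_mul]
    exact Nat.mul_le_mul_right _ h

theorem outp_step {p : ℕ} [Fact p.Prime] (n : ℕ) {N : ℕ} (hN : 0 < N) (u : ℕ → ℕ → ZMod p)
    (e : ℕ) : outp_g n N u e =
      (if e % N = 0 then 0 else outp_g n N u (e - 1)) + outp_t n u (e / N) (e % N) := by
  unfold outp_g
  rw [sum_range_succ]
  split_ifs with h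
  · rw [h, sum_range_zero]
  · have h1 := Nat.div_add_mod e N
    have h2 := Nat.mod_lt e hN
    have h3 : e - 1 = e % N - 1 + N * (e / N) := by omega
    have h4 : (e - 1) % N = e % N - 1 := by
      rw [h3, Nat.add_mul_mod_self_left, Nat.mod_eq_of_lt (by omega)]
    have h5 : (e - 1) / N = e / N := by
      rw [h3, Nat.add_mul_div_left _ _ hN, Nat.div_eq_of_lt (by omega), zero_add]
    rw [h4, h5, Nat.sub_add_cancel (by omega)]

theorem outp_cell {p N a b : ℕ} [Fact p.Prime] {u : ℕ → ℕ → ZMod p} {m : Mem}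
    (h : Rp m 10 0 N u) (ha : a < N) (hb : b < N) (n : ℕ) :
    (if n - b = 0 then 0 else if (if b - a = 0 then (if a - b = 0 then 0 else m 10 (b * N + a))
      else m 10 (a * N + b)) = 0 then 0 else b + 1) = outp_t n u a b := by
  have h1 := h a ha b hb
  have h2 := h b hb a ha
  rw [zero_add] at h1 h2
  rw [h1, h2]
  unfold outp_t alt
  by_cases c1 : b < n
  · rw [if_neg (by omega)]
    rcases lt_trichotomy a b with c | c | c
    · rw [if_neg (show ¬ b - a = 0 by omega), if_pos c]
      simp [c1]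
    · subst c
      simp
    · rw [if_pos (show b - a = 0 by omega), if_neg (show ¬ a - b = 0 by omega),
        if_neg (show ¬ a < b by omega), if_pos c]
      simp [c1]
  · rw [if_pos (by omega), if_neg (fun q => c1 q.1)]

theorem outp_fin {p n N : ℕ} [Fact p.Prime] (hn : n < N) {u : ℕ → ℕ → ZMod p}
    {μ : Fin n → Fin n} (h : ∀ a b : Fin n, alt u a b ≠ 0 ↔ (μ a = b ∧ μ a ≠ a)) (a : Fin n) :
    outp_g n N u (a * N + (N - 1)) = if μ a = a then 0 else (μ a : ℕ) + 1 := by
  have hN : 0 < N := by omega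
  have h4 : (a * N + (N - 1)) % N = N - 1 := by
    rw [Nat.mul_add_mod', Nat.mod_eq_of_lt (by omega)]
  have h5 : (a * N + (N - 1)) / N = a := by
    rw [add_comm, Nat.add_mul_div_right _ _ hN, Nat.div_eq_of_lt (by omega), zero_add]
  unfold outp_g
  rw [h4, h5, Nat.sub_add_cancel hN]
  split_ifs with c
  · refine sum_eq_zero fun b _ => if_neg fun q => ?_
    exact ((h a ⟨b, q.1⟩).1 q.2).2 c
  · rw [sum_eq_single (μ a : ℕ)]
    · exact if_pos ⟨(μ a).2, (h a (μ a)).2 ⟨rfl, c⟩⟩
    · refine fun b _ hb => if_neg fun q => hb ?_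
      rw [((h a ⟨b, q.1⟩).1 q.2).1]
    · intro q
      exact absurd (mem_range.2 ((μ a).2.trans hn)) q

/-- The size. -/
def outp_N : FE := .rd 17 (.c 1)

/-- The row. -/
def outp_a : FE := .div (.v 0) outp_N

/-- The column. -/
def outp_b : FE := .mod (.v 0) outp_N

/-- The body of the first loop. -/
def outp_body : FE :=
  .add (.ifz outp_b (.c 0) (.rd 13 (.sub (.v 0) (.c 1))))
    (.ifz (.sub (.rd 17 (.c 5)) outp_b) (.c 0)
      (.ifz (.ifz (.sub outp_b outp_a)
          (.ifz (.sub outp_a outp_b) (.c 0) (.rd 10 (.add (.mul outp_b outp_N) outp_a)))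
          (.rd 10 (.add (.mul outp_a outp_N) outp_b))) (.c 0) (.add outp_b (.c 1))))

theorem out_ex (S : Sch) : Ex S fun n P B V K c => ∀ (G : SimpleGraph (Fin n))
    (u : ℕ → ℕ → ZMod (S.p n)) (m : Mem), S.RO n m → Bd V m → Rp m 10 0 (S.N n) u →
    ∃ m', Does P B c m m' (40 * S.big n * K) ∧ (S.Good G u → Out G m') := by

  obtain ⟨c1, k1, H1⟩ := fill_ex 13 (by decide) (by decide) (.c 0) (.mul outp_N outp_N) outp_body
    rfl rfl rfl
  obtain ⟨c2, k2, H2⟩ := fillP_ex 4 (by decide) (by decide) (by decide) (.c 0) (.rd 17 (.c 5))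
    (.rd 13 (.add (.mul (.v 0) outp_N) (.sub outp_N (.c 1)))) rfl rfl rfl rfl
  refine ⟨.seq c1 c2, k1 + k2 + 1, by omega, fun n P B V κ hκ hC G u m hR hB hu => ?_⟩
  have h1 := n_lt_h (n := n) hC.ok
  have h2 := N_eq (n := n) hC.ok
  have h3 := big_N (S := S) (n := n)
  have h4 := hC.big
  have hn : n < S.N n := by omega
  have hN : 0 < S.N n := by omega
  have h5 : S.N n * S.N n * 4 ≤ S.big n := (Nat.mul_le_mul_left _ (by omega)).trans h3
  have h6 : S.N n ≤ S.N n * S.N n := Nat.le_mul_self _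
  have e1 : m 17 1 = S.N n := hR.par 1 (by omega)
  have e5 : m 17 5 = n := hR.par 5 (by omega)
  have hg := outp_le n hN u
  have d1 := H1 P B V (S.R n) m (outp_g n (S.N n) u) 0 (S.N n * S.N n) (hC.env.mono (by omega)) hB
    (hR.Sm hC.ok) rfl (by simp only [FE.eval, outp_N, e1]) (by omega)
    (fun e _ => (hg e).trans (by omega)) (fun q => absurd q (by decide)) fun e he => by
      have a1 : e / S.N n < S.N n := Nat.div_lt_of_lt_mul he
      have a2 := Nat.mod_lt e hN
      simp only [outp_body, outp_a, outp_b, outp_N, FE.eval, Mem.set_same,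
        Mem.set_arr _ _ _ (show 17 ≠ 6 by decide), Mem.set_arr _ _ _ (show 10 ≠ 6 by decide),
        Mem.set_arr _ _ _ (show 13 ≠ 6 by decide), upd_arr _ _ _ _ (show 17 ≠ 13 by decide),
        upd_arr _ _ _ _ (show 10 ≠ 13 by decide), e1, e5]
      rw [outp_cell hu a1 a2, outp_step n hN u e]
      congr 1
      split_ifs with q
      · rfl
      · refine upd_in0 _ _ _ _ ?_
        rcases Nat.eq_zero_or_pos e with z | z
        · rw [z, Nat.zero_mod] at q
          exact absurd rfl q
        · omega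
  have d2 := H2 P B V (S.R n) (upd m 13 0 (S.N n * S.N n) (outp_g n (S.N n) u))
    (fun a => outp_g n (S.N n) u (a * S.N n + (S.N n - 1))) 0 n (hC.env.mono (by omega))
    (hB.upd _ _ _ fun e _ => (hg e).trans (by omega))
    (fun r => by rw [upd_arr _ _ _ _ (by decide)]; exact hR.Sm hC.ok r) rfl
    (by simp only [FE.eval, upd_arr _ _ _ _ (show 17 ≠ 13 by decide), e5]) (by omega)
    (fun e _ => (hg _).trans (by omega)) fun e he => by
      simp only [outp_N, FE.eval, Mem.set_same,
        Mem.set_arr _ _ _ (show 17 ≠ 6 by decide), Mem.set_arr _ _ _ (show 13 ≠ 6 by decide),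
        upd_arr _ _ _ _ (show 17 ≠ 13 by decide), e1]
      refine upd_in0 _ _ _ _ ?_
      have : (e + 1) * S.N n ≤ S.N n * S.N n := Nat.mul_le_mul_right _ (by omega)
      rw [add_mul, one_mul] at this
      omega
  refine ⟨_, (d1.seq d2).mono ?_, fun ⟨μ, g1, g2, g3, g4⟩ => out_of_inv g1 g2 g3 fun a => ?_⟩
  · have s1 : k1 * S.R n ^ k1 ≤ kc S n κ := cost_mono hC.env.hR (by omega)
    have s2 : k2 * S.R n ^ k2 ≤ kc S n κ := cost_mono hC.env.hR (by omega)
    have s3 : 1 ≤ kc S n κ := kc_pos (by omega)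
    have s4 := Nat.mul_le_mul (show S.N n * S.N n + 1 ≤ S.big n by omega) s1
    have s5 := Nat.mul_le_mul (show n + 1 ≤ S.big n by omega) s2
    have s6 := Nat.mul_le_mul (show 1 ≤ S.big n by omega) s3
    rw [mul_assoc]
    omega
  · rw [upd_in0 _ _ _ _ a.2]
    exact outp_fin hn g4 a

end Vale.Agent.P305
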