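import Vale.Agent.P305.ParB

/-! Indices and memory facts. -/

namespace Vale.Agent.P305

open Vale.Agent.P315 Finset

variable {S : Sch} {n : ℕ}

theorem par_lt {q Q r K : ℕ} (hq : q < Q) (hr : r < K) : q * K + r < Q * K :=
  calc q * K + r < (q + 1) * K := by rw [add_mul, one_mul]; exact Nat.add_lt_add_left hr _
    _ ≤ Q * K := Nat.mul_le_mul_right K hq

theorem par_pos (H : S.Ok) : 0 < S.k := lt_of_lt_of_le two_pos (k_two H)

theorem par_pow (H : S.Ok) (l : ℕ) : 0 < S.k ^ l := pow_pos (par_pos H) l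

theorem par_two (H : S.Ok) (l : ℕ) : S.k ^ l + S.k ^ l ≤ S.k ^ (l + 1) := by
  rw [pow_succ, ← mul_two]
  exact Nat.mul_le_mul_left _ (k_two H)

theorem gi_lt (H : S.Ok) {l a b : ℕ} (hl : l ≤ S.L n) (ha : a < S.k ^ (S.L n - l))
    (hb : b < S.k ^ (S.L n - l)) (x : ℕ) : gi S.k l a b x < S.N n := by
  have e : S.N n = S.k ^ (S.L n - l) * S.k ^ l := by rw [← pow_add, Nat.sub_add_cancel hl, Sch.N]
  rw [e, gi]
  refine par_lt ?_ (Nat.mod_lt _ (par_pow H l))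
  split_ifs
  exacts [ha, hb]

theorem fw_lt (H : S.Ok) {l c y : ℕ} (hc : c < S.k * S.k) : S.fw l c y < S.k ^ (l + 2) := by
  have h1 : S.k ^ (l + 1) + S.k ^ (l + 1) ≤ S.k ^ (l + 2) := par_two H (l + 1)
  rw [Sch.fw]
  split_ifs with h
  · have h2 := par_lt (Nat.div_lt_of_lt_mul hc) h
    rw [← pow_succ'] at h2
    omega
  · have h2 := par_lt (Nat.mod_lt c (par_pos H)) (Nat.mod_lt y (par_pow H l))
    rw [← pow_succ'] at h2
    rw [add_assoc]
    exact (Nat.add_lt_add_left h2 _).trans_le h1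

theorem bk_lt (H : S.Ok) (l x : ℕ) : S.bk l x < S.k ^ (l + 1) := by
  have h1 := par_two H l
  have h2 := Nat.mod_lt x (par_pow H l)
  rw [Sch.bk]
  split_ifs <;> omega

theorem gi_fw (H : S.Ok) {l a b c : ℕ} (hc : c < S.k * S.k) (y : ℕ) :
    gi S.k (l + 1) a b (S.fw l c y) = gi S.k l (a * S.k + c / S.k) (b * S.k + c % S.k) y := by
  rw [Sch.fw, gi, gi]
  by_cases h : y < S.k ^ l
  · have h2 := par_lt (Nat.div_lt_of_lt_mul hc) h
    rw [← pow_succ'] at h2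
    rw [if_pos h, if_pos h, if_pos h2, Nat.mod_eq_of_lt h2, Nat.mod_eq_of_lt h]
    ring
  · have h2 := par_lt (Nat.mod_lt c (par_pos H)) (Nat.mod_lt y (par_pow H l))
    rw [← pow_succ'] at h2
    rw [if_neg h, if_neg h, add_assoc, if_neg (Nat.le_add_right _ _).not_gt, Nat.add_mod_left,
      Nat.mod_eq_of_lt h2]
    ring

theorem child_lt (H : S.Ok) {l a b c : ℕ} (hl : l + 1 ≤ S.L n) (hc : c < S.k * S.k)
    (ha : a < S.k ^ (S.L n - (l + 1))) (hb : b < S.k ^ (S.L n - (l + 1))) :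
    a * S.k + c / S.k < S.k ^ (S.L n - l) ∧ b * S.k + c % S.k < S.k ^ (S.L n - l) := by
  rw [show S.L n - l = S.L n - (l + 1) + 1 by omega, pow_succ]
  exact ⟨par_lt ha (Nat.div_lt_of_lt_mul hc), par_lt hb (Nat.mod_lt c (par_pos H))⟩

theorem par_sm (H : S.Ok) (r : ℕ) : [S.k * S.k, S.w n, S.ρ].getD r 0 ≤ S.R n := by
  have h := H.hρ
  rw [Sch.R]
  match r with
  | 0 => change S.k * S.k ≤ _; omega
  | 1 => change S.w n ≤ _; omega
  | 2 => change S.ρ ≤ _; omega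
  | r + 3 => exact Nat.zero_le _

theorem Sch.RO.Sm (H : S.Ok) {m : Mem} (h : S.RO n m) : Sm (S.R n) m :=
  fun r => (h.sm r).trans_le (par_sm H r)

theorem Sch.RO1.Sm (H : S.Ok) {m : Mem} (h : S.RO1 n m) : Sm (S.R n) m :=
  fun r => (h.sm r).trans_le (par_sm H r)

theorem Sch.RO.stab {m m' : Mem} (h : S.RO n m)
    (hm : ∀ a ∈ [7, 17, 18, 19, 20, 21, 22, 23], m' a = m a) : S.RO n m' :=
  ⟨by rw [hm 7 (by simp)]; exact h.sm, by rw [hm 17 (by simp)]; exact h.par,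
    by rw [hm 18 (by simp)]; exact h.pk, by rw [hm 19 (by simp)]; exact h.pρ,
    by rw [hm 20 (by simp)]; exact h.inv, by rw [hm 21 (by simp)]; exact h.cA,
    by rw [hm 22 (by simp)]; exact h.cB, by rw [hm 23 (by simp)]; exact h.cC⟩

theorem Sch.RO1.stab {m m' : Mem} (h : S.RO1 n m) (hm : ∀ a ∈ [7, 17, 18, 19, 26], m' a = m a) :
    S.RO1 n m' :=
  ⟨by rw [hm 7 (by simp)]; exact h.sm, by rw [hm 17 (by simp)]; exact h.par,
    by rw [hm 18 (by simp)]; exact h.pk, by rw [hm 19 (by simp)]; exact h.pρ,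
    by rw [hm 26 (by simp)]; exact h.p2⟩

theorem Kp.trans {l l' l'' : List ℕ} {m m' m'' : Mem} (h : Kp l m m') (h' : Kp l' m' m'')
    (h1 : ∀ a ∈ l, a ∈ l'') (h2 : ∀ a ∈ l', a ∈ l'') : Kp l'' m m'' :=
  fun a ha => (h' a fun e => ha (h2 a e)).trans (h a fun e => ha (h1 a e))

theorem kp_upd (m : Mem) (arr β σ : ℕ) (g : ℕ → ℕ) : Kp [arr] m (upd m arr β σ g) :=
  fun a ha => funext fun i => if_neg fun e => ha (List.mem_singleton.2 e.1)

theorem rp_upd {p : ℕ} (m : Mem) (arr off s : ℕ) (A : ℕ → ℕ → ZMod p) :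
    Rp (upd m arr off (s * s) fun e => (A (e / s) (e % s)).val) arr off s A := by
  intro i hi j hj
  have h0 : 0 < s := by omega
  rw [upd, if_pos ⟨rfl, Nat.le_add_right _ _, Nat.add_lt_add_left (par_lt hi hj) _⟩,
    Nat.add_sub_cancel_left, add_comm, Nat.add_mul_div_right _ _ h0, Nat.add_mul_mod_self_right,
    Nat.div_eq_of_lt hj, Nat.mod_eq_of_lt hj, zero_add]

theorem Rp.congr {p arr off s : ℕ} {m : Mem} {A A' : ℕ → ℕ → ZMod p} (h : Rp m arr off s A)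
    (e : ∀ i < s, ∀ j < s, A i j = A' i j) : Rp m arr off s A' :=
  fun i hi j hj => by rw [← e i hi j hj]; exact h i hi j hj

theorem kc_pos {κ : ℕ} (h : 1 ≤ κ) : 1 ≤ kc S n κ :=
  Nat.mul_pos h (pow_pos (Nat.succ_pos _) κ)

end Vale.Agent.P305
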