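import Vale.Agent.P305.MDef

/-! Numerical facts. Hints: Nat.le_pow_clog, Nat.clog_pos, Nat.exists_prime_lt_and_le_two_mul with Nat.find_min, Nat.geomSum / sum of powers of two below w is < 2 ^ w. -/

namespace Vale.Agent.P305

open Vale.Agent.P315 Finset

variable {S : Sch} {n : ℕ}

theorem k_two (H : S.Ok) : 2 ≤ S.k := by
  exact Nat.pow_le_pow_right (n := 2) (by norm_num) H.hk

theorem L_pos (H : S.Ok) : 1 ≤ S.L n := by
  exact Nat.clog_pos (k_two H) (by omega)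

theorem N_eq (H : S.Ok) : S.N n = 2 * S.h n := by
  refine (Nat.mul_div_cancel' ?_).symm
  exact dvd_pow (dvd_pow_self 2 (Nat.one_le_iff_ne_zero.1 H.hk))
    (Nat.one_le_iff_ne_zero.1 (L_pos H))

theorem n_lt_h (H : S.Ok) : n < S.h n := by
  have h1 : 2 * n + 2 ≤ S.N n := Nat.le_pow_clog (k_two H) _
  rw [N_eq H] at h1
  omega

theorem N_le (H : S.Ok) : S.N n ≤ S.k * (2 * n + 2) := by
  have h1 : S.k ^ (S.L n).pred < 2 * n + 2 := Nat.pow_pred_clog_lt_self (k_two H) (by omega)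
  have h2 : S.L n = (S.L n).pred + 1 := (Nat.succ_pred_eq_of_pos (L_pos H)).symm
  rw [Sch.N, h2, pow_succ']
  exact Nat.mul_le_mul_left _ h1.le

theorem two_w : 2 ^ S.w n = S.N n * S.N n * 2 ^ (S.D + 4) := by
  simp only [Sch.w, Sch.N, Sch.k, ← pow_mul, ← pow_add]
  congr 1
  ring

theorem p_gt : 2 ^ S.w n < S.p n := by
  exact (Nat.find_spec (Nat.exists_infinite_primes (2 ^ S.w n + 1))).1

theorem p_le : S.p n ≤ 2 * 2 ^ S.w n := by
  obtain ⟨q, h1, h2, h3⟩ := Nat.exists_prime_lt_and_le_two_mul (2 ^ S.w n) (by positivity)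
  exact (Nat.find_min' (Nat.exists_infinite_primes (2 ^ S.w n + 1)) ⟨h2, h1⟩).trans h3

theorem N_lt_p : S.N n < S.p n := by
  refine lt_of_le_of_lt ?_ p_gt
  have h1 : 0 < S.N n := by
    unfold Sch.N Sch.k
    positivity
  rw [two_w, mul_assoc]
  exact Nat.le_mul_of_pos_right _ (by positivity)

theorem D_ne (H : S.Ok) : (S.D : ZMod (S.p n)) ≠ 0 := by
  rw [Ne, ZMod.natCast_eq_zero_iff]
  refine Nat.not_dvd_of_pos_of_lt H.hD (lt_of_le_of_lt ?_ p_gt)
  exact Nat.lt_two_pow_self.le.trans (Nat.pow_le_pow_right (by norm_num) (by unfold Sch.w; omega))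

theorem val_lt (ρ : ℕ → Bool) (e : ℕ) : S.val n ρ e < S.p n := by
  refine lt_of_le_of_lt ?_ p_gt
  have h1 : ∀ m : ℕ, 1 + ∑ t ∈ range m, 2 ^ t = 2 ^ m := fun m => by
    induction m with
    | zero => simp
    | succ m ih => rw [sum_range_succ, ← add_assoc, ih, pow_succ, mul_two]
  rw [← h1]
  exact Nat.add_le_add_left (sum_le_sum fun t _ => by split_ifs <;> simp) 1

theorem val_ne (ρ : ℕ → Bool) (e : ℕ) : (S.val n ρ e : ZMod (S.p n)) ≠ 0 := by
  rw [Ne, ZMod.natCast_eq_zero_iff]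
  exact Nat.not_dvd_of_pos_of_lt (by unfold Sch.val; omega) (val_lt ρ e)

end Vale.Agent.P305
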