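import Vale.Agent.P305.ParA

/-! Numerical facts, part two. -/

namespace Vale.Agent.P305

open Vale.Agent.P315 Finset

variable {S : Sch} {n : ℕ}

theorem parb_k : 0 < S.k := Nat.two_pow_pos _

theorem parb_r (H : S.Ok) : 0 < S.ρ := (Nat.mul_pos parb_k parb_k).trans_le H.hρ

theorem parb_big {a b : ℕ} (ha : a ≤ S.w n + S.L n + 4)
    (hb : b ≤ S.ρ ^ (S.L n + 2) + 8 * 2 ^ S.w n) : a * b ≤ S.big n := Nat.mul_le_mul ha hb

theorem kk_le (H : S.Ok) (l : ℕ) : S.k ^ l * S.k ^ l ≤ S.ρ ^ l := by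
  rw [← mul_pow]
  exact Nat.pow_le_pow_left H.hρ l

theorem W_eq : S.W n = S.k ^ (S.L n + 1) * S.k ^ (S.L n + 1) := by
  rw [Sch.W, two_mul, pow_add]

theorem sq_le_W (H : S.Ok) {l : ℕ} (h : l ≤ S.L n) : S.k ^ (l + 1) * S.k ^ (l + 1) ≤ S.W n := by
  have h1 := Nat.pow_le_pow_right (parb_k (S := S)) (Nat.succ_le_succ h)
  rw [W_eq]
  exact Nat.mul_le_mul h1 h1

theorem big_p : 4 * S.p n ≤ S.big n := by
  have h1 := p_le (S := S) (n := n)
  rw [← one_mul (4 * S.p n)]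
  exact parb_big (by omega) (by omega)

theorem big_N : S.N n * S.N n * (S.w n + 4) ≤ S.big n := by
  have h1 : S.N n * S.N n ≤ 2 ^ S.w n := by
    rw [two_w]
    exact Nat.le_mul_of_pos_right _ (Nat.two_pow_pos _)
  rw [mul_comm]
  exact parb_big (by omega) (by omega)

theorem big_W (H : S.Ok) : (S.L n + 3) * S.W n ≤ S.big n := by
  have h1 := kk_le H (S.L n + 1)
  have h2 := Nat.pow_le_pow_right (parb_r H) (Nat.le_succ (S.L n + 1))
  rw [W_eq]
  exact parb_big (by omega) ((h1.trans h2).trans (Nat.le_add_right _ _))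

theorem big_cu (H : S.Ok) {l : ℕ} (h : l ≤ S.L n) : S.ρ * S.cu n l ≤ S.big n := by
  have h2 : S.ρ ^ (l + 2) ≤ S.ρ ^ (S.L n + 2) := Nat.pow_le_pow_right (parb_r H) (by omega)
  have e : S.ρ * S.cu n l = (S.L n + 3) * S.ρ ^ (l + 2) := by
    rw [Sch.cu]
    ring
  rw [e]
  exact parb_big (by omega) (h2.trans (Nat.le_add_right _ _))

theorem big_s : (S.w n + 4) * (8 * 2 ^ S.w n) ≤ S.big n := by
  exact parb_big (by omega) (Nat.le_add_left _ _)

theorem sq_le_cu (H : S.Ok) (l : ℕ) : S.k ^ (l + 1) * S.k ^ (l + 1) + 3 ≤ S.cu n l := by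
  have h1 := kk_le H (l + 1)
  have h2 : 0 < S.ρ ^ (l + 1) := Nat.pow_pos (parb_r H)
  have h3 : 4 * S.ρ ^ (l + 1) ≤ S.cu n l :=
    Nat.mul_le_mul_right _ (by have := L_pos (n := n) H; omega)
  omega

theorem cu_succ (l : ℕ) : S.cu n (l + 1) = S.ρ * S.cu n l := by
  simp only [Sch.cu]
  ring

end Vale.Agent.P305
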