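import Vale.Agent.P305.Mats
import Vale.Agent.P305.MM
import Vale.Agent.P305.OrdU

/-! After a recursive call. Sequence: m 8 0 := l + 1; 13 := D, 14 := E, mm; 13 := 1 - 30, 14 := D, mm; 13 := M, 14 := 30, mm; 13 := 1 - 30, 14 := M, mm; back; counter + 1. The result is loc_upd (Rp.congr). -/

namespace Vale.Agent.P305

open Vale.Agent.P315 Finset

/-- The invariant of the scratch phase. -/
structure PoI (S : Sch) (n V l : ℕ) (m0 m : Mem) : Prop where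
  ro : S.RO n m
  bd : Bd V m
  lv : m 8 0 = l + 1
  kp : Kp [13, 14, 15, 30] m0 m

theorem PoI.nx {S : Sch} {n V l : ℕ} {m0 m m' : Mem} (h : PoI S n V l m0 m) {L : List ℕ}
    (hb : Bd V m') (hk : Kp L m m') (hL : ∀ a ∈ L, a ∈ [13, 14, 15, 30]) : PoI S n V l m0 m' := by
  have e : ∀ a, a ∉ [13, 14, 15, 30] → m' a = m a := fun a ha => hk a fun c => ha (hL a c)
  refine ⟨h.ro.stab fun a ha => e a fun c => ?_, hb, by rw [e 8 (by decide), h.lv],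
    h.kp.trans hk (fun _ => id) hL⟩
  simp only [List.mem_cons, List.not_mem_nil, or_false] at ha c
  omega

theorem po_rp {p arr off s : ℕ} {m m' : Mem} {A : ℕ → ℕ → ZMod p} (h : Rp m arr off s A)
    {L : List ℕ} (hk : Kp L m m') (ha : arr ∉ L) : Rp m' arr off s A := by
  unfold Rp
  rw [hk arr ha]
  exact h

theorem post_ex (S : Sch) : Ex S fun n P B V K c => ∀ (tg u u' : ℕ → ℕ → ZMod (S.p n))
    (l a b t : ℕ) (m : Mem), l + 1 ≤ S.L n → a < S.k ^ (S.L n - (l + 1)) →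
    b < S.k ^ (S.L n - (l + 1)) → t < S.k * S.k → Ns (S.N n) u →
    Nd S n V tg u' l (a * S.k + t / S.k) (b * S.k + t % S.k) m → m 9 (3 * (l + 1)) = a →
    m 9 (3 * (l + 1) + 1) = b → m 9 (3 * (l + 1) + 2) = t →
    Rp m 11 ((l + 1) * S.W n) (S.k ^ (l + 2)) (S.loc n u (l + 1) a b) →
    Cp16 S n u l (a * S.k + t / S.k) (b * S.k + t % S.k) m →
    (∀ i j, ¬(i / S.k ^ l = a * S.k + t / S.k ∧ j / S.k ^ l = b * S.k + t % S.k) → u' i j = u i j) →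
    ∃ m', Does P B c m m' (60 * S.cu n (l + 1) * K) ∧ Fm S n (l + 1) m m' ∧
      Nd S n V tg u' (l + 1) a b m' ∧ m' 9 (3 * (l + 1) + 2) = t + 1 := by
  obtain ⟨c0, k0, H0⟩ := rec_st_ex 8 (by decide) (by decide) (by decide) (.c 0)
    (.add (.rd 8 (.c 0)) (.c 1)) rfl rfl
  obtain ⟨c1, k1, -, H1⟩ := dl_ex S 13 (Or.inl rfl)
  obtain ⟨c2, k2, -, H2⟩ := bk_ex S
  obtain ⟨c3, k3, -, H3⟩ := mm_ex S
  obtain ⟨c4, k4, -, H4⟩ := oms_ex S
  obtain ⟨c5, k5, -, H5⟩ := dl_ex S 14 (Or.inr rfl)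
  obtain ⟨c6, k6, -, H6⟩ := cp11_ex S 13 (Or.inl rfl)
  obtain ⟨c7, k7, -, H7⟩ := cp30_ex S
  obtain ⟨c8, k8, -, H8⟩ := cp11_ex S 14 (Or.inr rfl)
  obtain ⟨c9, k9, -, H9⟩ := back_ex S
  obtain ⟨ca, ka, Ha⟩ := rec_st_ex 9 (by decide) (by decide) (by decide)
    (.add (.mul (.c 3) (.rd 8 (.c 0))) (.c 2))
    (.add (.rd 9 (.add (.mul (.c 3) (.rd 8 (.c 0))) (.c 2))) (.c 1)) rfl rfl
  refine ⟨.seq c0 (.seq c1 (.seq c2 (.seq c3 (.seq c4 (.seq c5 (.seq c3 (.seq c6 (.seq c7 (.seq c3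
    (.seq c4 (.seq c8 (.seq c3 (.seq c9 ca))))))))))))),
    k0 + k1 + k2 + k3 + k4 + k5 + k6 + k7 + k8 + k9 + ka + 1, by omega, ?_⟩
  intro n P B V κ hκ cx tg u u' l a b t m hl ha hb ht hu h fa fb ft rm cp hs
  have ok := cx.ok
  have hK : 1 ≤ kc S n κ := kc_pos (by omega)
  have hV := cx.big
  have hW := big_W (n := n) ok
  have hq := sq_le_W (n := n) ok (show 0 ≤ S.L n by omega)
  have hk := k_two ok
  rw [zero_add, pow_one] at hq
  have hs4 : 2 * 2 ≤ S.k * S.k := Nat.mul_le_mul hk hk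
  have hW2 : (S.L n + 3) * 4 ≤ (S.L n + 3) * S.W n := Nat.mul_le_mul_left _ (by omega)
  have hW3 : 3 * S.W n ≤ (S.L n + 3) * S.W n := Nat.mul_le_mul_right _ (by omega)
  have D0 := H0 P B V _ κ (by omega) cx.env m 0 (l + 1) h.bd (h.ro.Sm ok) rfl (by omega) (by omega)
    (by simp only [FE.eval]; rw [Mem.set_arr _ _ _ (by decide), h.lv])
  set m0 := m.set 8 0 (l + 1) with hm0
  have e0 : Kp [8] m m0 := fun x hx => Mem.set_arr _ _ _ (by simpa using hx)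
  have i0 : PoI S n V l m0 m0 := ⟨h.ro.stab fun x hx => e0 x (by
    simp only [List.mem_cons, List.not_mem_nil, or_false] at hx ⊢
    omega), fill_bd_set h.bd _ _ (by omega), Mem.set_same _ _ _ _, fun _ _ => rfl⟩
  have g : ∀ {w}, PoI S n V l m0 w → ∀ x, x ∉ [8, 13, 14, 15, 30] → w x = m x := fun i x hx =>
    (e0.trans i.kp (by simp) (by simp) : Kp [8, 13, 14, 15, 30] _ _) x hx
  have g9 : ∀ {w}, PoI S n V l m0 w → w 9 (3 * (l + 1)) = a ∧ w 9 (3 * (l + 1) + 1) = b ∧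
      w 9 (3 * (l + 1) + 2) = t ∧ Rp w 10 0 (S.N n) u' ∧
      Cp16 S n u l (a * S.k + t / S.k) (b * S.k + t % S.k) w := fun i =>
    ⟨by rw [g i 9 (by decide), fa], by rw [g i 9 (by decide), fb], by rw [g i 9 (by decide), ft],
      po_rp h.ru (g i) (by decide), by unfold Cp16; rw [g i 16 (by decide)]; exact cp⟩
  obtain ⟨m1, D1, b1, e1, r1⟩ := H1 n P B V κ (by omega) cx u u' l a b t m0 hl ha hb ht i0.ro i0.bd
    i0.lv (g9 i0).1 (g9 i0).2.1 (g9 i0).2.2.1 (g9 i0).2.2.2.1 (g9 i0).2.2.2.2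
  have i1 := i0.nx b1 e1 (by simp)
  obtain ⟨m2, D2, b2, e2, r2⟩ := H2 n P B V κ (by omega) cx _ l m1 hl i1.ro b1 i1.lv
    (po_rp h.rm (g i1) (by decide))
  have i2 := i1.nx b2 e2 (by simp)
  obtain ⟨m3, D3, b3, e3, r3⟩ := H3 n P B V κ (by omega) cx m2 (l + 1) _ _ hl i2.ro b2 i2.lv
    (po_rp r1 e2 (by decide)) r2
  have i3 := i2.nx b3 e3 (by simp)
  obtain ⟨m4, D4, b4, e4, r4⟩ := H4 n P B V κ (by omega) cx _ l m3 hl i3.ro b3 i3.lv r3
  have i4 := i3.nx b4 e4 (by simp)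
  obtain ⟨m5, D5, b5, e5, r5⟩ := H5 n P B V κ (by omega) cx u u' l a b t m4 hl ha hb ht i4.ro i4.bd
    i4.lv (g9 i4).1 (g9 i4).2.1 (g9 i4).2.2.1 (g9 i4).2.2.2.1 (g9 i4).2.2.2.2
  have i5 := i4.nx b5 e5 (by simp)
  obtain ⟨m6, D6, b6, e6, r6⟩ := H3 n P B V κ (by omega) cx m5 (l + 1) _ _ hl i5.ro b5 i5.lv
    (po_rp r4 e5 (by decide)) r5
  have i6 := i5.nx b6 e6 (by simp)
  obtain ⟨m7, D7, b7, e7, r7⟩ := H6 n P B V κ (by omega) cx _ l m6 hl i6.ro b6 i6.lv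
    (po_rp rm (g i6) (by decide))
  have i7 := i6.nx b7 e7 (by simp)
  obtain ⟨m8, D8, b8, e8, r8⟩ := H7 n P B V κ (by omega) cx _ l m7 hl i7.ro b7 i7.lv
    (po_rp r6 e7 (by decide))
  have i8 := i7.nx b8 e8 (by simp)
  obtain ⟨m9, D9, b9, e9, r9⟩ := H3 n P B V κ (by omega) cx m8 (l + 1) _ _ hl i8.ro b8 i8.lv
    (po_rp r7 e8 (by decide)) r8
  have i9 := i8.nx b9 e9 (by simp)
  obtain ⟨ma, Da, ba, ea, ra⟩ := H4 n P B V κ (by omega) cx _ l m9 hl i9.ro b9 i9.lv r9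
  have ia := i9.nx ba ea (by simp)
  obtain ⟨mb, Db, bb, eb, rb⟩ := H8 n P B V κ (by omega) cx _ l ma hl ia.ro ba ia.lv
    (po_rp rm (g ia) (by decide))
  have ib := ia.nx bb eb (by simp)
  obtain ⟨mc, Dc, bc, ec, rc⟩ := H3 n P B V κ (by omega) cx mb (l + 1) _ _ hl ib.ro bb ib.lv
    (po_rp ra eb (by decide)) rb
  have ic := ib.nx bc ec (by simp)
  obtain ⟨md, Dd, bd, ed, fd, rd⟩ := H9 n P B V κ (by omega) cx _ l mc hl ic.ro bc ic.lv rc
  have ge : ∀ x, x ∉ [8, 11, 13, 14, 15, 30] → md x = m x :=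
    Kp.trans (g ic) ed (by simp) (by simp)
  have rod : S.RO n md := ic.ro.stab fun x hx => ed x (by
    simp only [List.mem_cons, List.not_mem_nil, or_false] at hx ⊢
    omega)
  have lvd : md 8 0 = l + 1 := by rw [ed 8 (by decide), ic.lv]
  have De := Ha P B V _ κ (by omega) cx.env md (3 * (l + 1) + 2) (t + 1) bd (rod.Sm ok)
    (by simp only [FE.eval, lvd]) (by omega) (by omega) (by
      simp only [FE.eval]
      rw [Mem.set_arr _ _ _ (show 8 ≠ 6 by decide), Mem.set_arr _ _ _ (by decide), lvd,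
        ge 9 (by decide), ft])
  have ef : Kp [9] md (md.set 9 (3 * (l + 1) + 2) (t + 1)) := fun x hx =>
    Mem.set_arr _ _ _ (by simpa using hx)
  have gf : Kp [8, 9, 11, 13, 14, 15, 30] m (md.set 9 (3 * (l + 1) + 2) (t + 1)) :=
    Kp.trans ge ef (by simp) (by simp)
  refine ⟨_, (D0.seq (D1.seq (D2.seq (D3.seq (D4.seq (D5.seq (D6.seq (D7.seq (D8.seq (D9.seq
    (Da.seq (Db.seq (Dc.seq (Dd.seq De)))))))))))))).mono ?_,
    ⟨gf.trans (fun _ _ => rfl : Kp [] _ _) (by simp) (by simp), fun i hi => ?_, fun i hi => ?_⟩,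
    ⟨rod.stab fun x hx => ef x (by
      simp only [List.mem_cons, List.not_mem_nil, or_false] at hx ⊢
      omega), fill_bd_set bd _ _ (by omega), by rw [ef 8 (by decide), lvd], ?_, ?_, h.ns,
      po_rp h.ru gf (by decide), po_rp h.rt gf (by decide),
      po_rp (rd.congr fun i hi j hj => (loc_upd ok hu h.ns hl ha hb ht hs hi hj).symm) ef
        (by decide)⟩, Mem.set_same _ _ _ _⟩
  · have h1 := (Nat.le_add_left _ _).trans (sq_le_cu (n := n) ok (l + 1))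
    have h2 := Nat.mul_le_mul_right (kc S n κ) h1
    change 2 * kc S n κ + (_ + (_ + (_ + (_ + (_ + (_ + (_ + (_ + (_ + (_ + (_ + (_ + (_ +
      2 * kc S n κ + 1) + 1) + 1) + 1) + 1) + 1) + 1) + 1) + 1) + 1) + 1) + 1) + 1) + 1 ≤ _
    simp only [mul_assoc]
    omega
  · rw [Mem.set_idx _ _ _ (by omega), ge 9 (by decide)]
  · rw [ef 11 (by decide), fd i hi, g ic 11 (by decide)]
  · rw [Mem.set_idx _ _ _ (by omega), ge 9 (by decide), fa]
  · rw [Mem.set_idx _ _ _ (by omega), ge 9 (by decide), fb]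

end Vale.Agent.P305
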