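import Vale.Agent.P305.Par

/-! Before a recursive call. Hints: rec_st_ex for the cells 3 l, 3 l + 1 of array 9 and cell 0 of array 8 (last); copy the block through array 13 (two rec_fl_ex: 13 := cells of 11 at fw indices, then 11 from l * W on := 13), gi_fw, fw_lt, rp_upd, sq_le_W. -/

namespace Vale.Agent.P305

open Vale.Agent.P315 Finset

/-- The level of the parent. -/
def pre_lam : FE := .rd 8 (.c 0)
/-- The base. -/
def pre_kk : FE := .rd 18 (.c 1)
/-- The size of a block of the child. -/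
def pre_k0 : FE := .rd 18 (.sub pre_lam (.c 1))
/-- The size of the matrix of the child. -/
def pre_k1 : FE := .rd 18 pre_lam
/-- The size of the matrix of the parent. -/
def pre_k2 : FE := .rd 18 (.add pre_lam (.c 1))
/-- The number of the child. -/
def pre_tt : FE := .rd 9 (.add (.mul (.c 3) pre_lam) (.c 2))
/-- The index map. -/
def pre_fw (y : FE) : FE :=
  .ifz (.sub (.add y (.c 1)) pre_k0) (.add (.mul (.div pre_tt pre_kk) pre_k0) y)
    (.add (.add pre_k1 (.mul (.mod pre_tt pre_kk) pre_k0)) (.mod y pre_k0))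

/-- What the expressions read. -/
structure pre_St (S : Sch) (n l t : ℕ) (w : Mem) : Prop where
  lv : w 8 0 = l + 1
  pk : ∀ i ≤ 2 * S.L n + 2, w 18 i = S.k ^ i
  tt : w 9 (3 * (l + 1) + 2) = t
  hW : w 17 3 = S.W n
  hl : l + 1 ≤ S.L n

variable {S : Sch} {n l t : ℕ} {w : Mem}

theorem pre_St.lam (h : pre_St S n l t w) : pre_lam.eval w = l + 1 := h.lv

theorem pre_St.kk (h : pre_St S n l t w) : pre_kk.eval w = S.k :=
  (h.pk 1 (by omega)).trans (pow_one _)

theorem pre_St.k0 (h : pre_St S n l t w) : pre_k0.eval w = S.k ^ l := by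
  have := h.hl
  simp only [pre_k0, FE.eval, h.lam, Nat.add_sub_cancel]
  exact h.pk l (by omega)

theorem pre_St.k1 (h : pre_St S n l t w) : pre_k1.eval w = S.k ^ (l + 1) := by
  have := h.hl
  simp only [pre_k1, FE.eval, h.lam]
  exact h.pk _ (by omega)

theorem pre_St.k2 (h : pre_St S n l t w) : pre_k2.eval w = S.k ^ (l + 2) := by
  have := h.hl
  simp only [pre_k2, FE.eval, h.lam]
  exact h.pk _ (by omega)

theorem pre_St.t' (h : pre_St S n l t w) : pre_tt.eval w = t := by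
  simp only [pre_tt, FE.eval, h.lam, h.tt]

theorem pre_St.fw (h : pre_St S n l t w) (y : FE) :
    (pre_fw y).eval w = S.fw l t (y.eval w) := by
  simp only [pre_fw, FE.eval, h.kk, h.k0, h.k1, h.t', Sch.fw]
  exact if_congr (by omega) rfl rfl

theorem pre_St.stab (h : pre_St S n l t w) {w' : Mem} (e8 : w' 8 = w 8) (e18 : w' 18 = w 18)
    (e17 : w' 17 = w 17) (e9 : w' 9 (3 * (l + 1) + 2) = w 9 (3 * (l + 1) + 2)) :
    pre_St S n l t w' :=
  ⟨by rw [e8, h.lv], fun i hi => by rw [e18, h.pk i hi], by rw [e9, h.tt], by rw [e17, h.hW], h.hl⟩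

theorem pre_St.var (h : pre_St S n l t w) (e : ℕ) : pre_St S n l t (w.set 6 0 e) :=
  h.stab (Mem.set_arr _ _ _ (by decide)) (Mem.set_arr _ _ _ (by decide))
    (Mem.set_arr _ _ _ (by decide)) (by rw [Mem.set_arr _ _ _ (by decide)])

theorem pre_ex (S : Sch) : Ex S fun n P B V K c => ∀ (tg u : ℕ → ℕ → ZMod (S.p n)) (l a b t : ℕ)
    (m : Mem), l + 1 ≤ S.L n → a < S.k ^ (S.L n - (l + 1)) → b < S.k ^ (S.L n - (l + 1)) →
    t < S.k * S.k → Nd S n V tg u (l + 1) a b m → m 9 (3 * (l + 1) + 2) = t →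
    ∃ m', Does P B c m m' (8 * S.cu n (l + 1) * K) ∧ Fm S n l m m' ∧
      Nd S n V tg u l (a * S.k + t / S.k) (b * S.k + t % S.k) m' := by
  obtain ⟨c1, k1, H1⟩ := rec_fl_ex 13 (by decide) (by decide) (by decide) (.c 0)
    (.mul pre_k1 pre_k1) (.rd 11 (.add (.mul pre_lam (.rd 17 (.c 3)))
      (.add (.mul (pre_fw (.div (.v 0) pre_k1)) pre_k2) (pre_fw (.mod (.v 0) pre_k1)))))
    rfl rfl rfl rfl
  obtain ⟨c2, k2, H2⟩ := rec_fl_ex 11 (by decide) (by decide) (by decide)
    (.mul (.sub pre_lam (.c 1)) (.rd 17 (.c 3))) (.mul pre_k1 pre_k1) (.rd 13 (.v 0))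
    rfl rfl rfl rfl
  obtain ⟨c3, k3, H3⟩ := rec_st_ex 9 (by decide) (by decide) (by decide)
    (.mul (.c 3) (.sub pre_lam (.c 1)))
    (.add (.mul (.rd 9 (.mul (.c 3) pre_lam)) pre_kk) (.div pre_tt pre_kk)) rfl rfl
  obtain ⟨c4, k4, H4⟩ := rec_st_ex 9 (by decide) (by decide) (by decide)
    (.add (.mul (.c 3) (.sub pre_lam (.c 1))) (.c 1))
    (.add (.mul (.rd 9 (.add (.mul (.c 3) pre_lam) (.c 1))) pre_kk) (.mod pre_tt pre_kk)) rfl rfl
  obtain ⟨c5, k5, H5⟩ := rec_st_ex 8 (by decide) (by decide) (by decide) (.c 0)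
    (.sub pre_lam (.c 1)) rfl rfl
  refine ⟨.seq c1 (.seq c2 (.seq c3 (.seq c4 c5))), k1 + k2 + k3 + k4 + k5 + 1, by omega, ?_⟩
  intro n P B V κ hκ cx tg u l a b t m hl ha hb ht h h9
  have ok := cx.ok
  have hK : 1 ≤ kc S n κ := kc_pos (by omega)
  have hV := cx.big
  have hp := big_p (S := S) (n := n)
  have hW := big_W (n := n) ok
  have hs := sq_le_W (n := n) ok (show l ≤ S.L n by omega)
  have hk := k_two ok
  have hs2 : 2 ≤ S.k ^ (l + 1) := hk.trans (Nat.le_self_pow (by omega) _)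
  have hs4 : 2 * 2 ≤ S.k ^ (l + 1) * S.k ^ (l + 1) := Nat.mul_le_mul hs2 hs2
  have hW1 : (l + 1) * S.W n ≤ (S.L n + 3) * S.W n := Nat.mul_le_mul_right _ (by omega)
  have hW2 : (S.L n + 3) * 4 ≤ (S.L n + 3) * S.W n := Nat.mul_le_mul_left _ (by omega)
  have hW3 : (l + 1) * S.W n = l * S.W n + S.W n := by ring
  obtain ⟨ca, cb⟩ := child_lt ok hl ht ha hb
  have hN : S.k ^ (S.L n - l) ≤ S.N n := Nat.pow_le_pow_right (by omega) (by omega)
  have hNp := N_lt_p (S := S) (n := n)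
  set s := S.k ^ (l + 1) with hsd
  set A := S.loc n u l (a * S.k + t / S.k) (b * S.k + t % S.k) with hA
  have hg : ∀ e < s * s, (A (e / s) (e % s)).val ≤ V := fun e _ => by
    have := ZMod.val_lt (A (e / s) (e % s))
    omega
  have s0 : pre_St S n l t m := ⟨h.lv, h.ro.pk, h9, h.ro.par 3 (by omega), hl⟩
  have D1 := H1 P B V _ κ (by omega) cx.env m (fun e => (A (e / s) (e % s)).val) 0 (s * s) h.bd
    (h.ro.Sm ok) rfl (by simp only [FE.eval, s0.k1, hsd]) (by omega) hg fun e _ => by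
      have s' := s0.var e
      simp only [FE.eval, s'.fw, s'.lam, s'.k1, s'.k2, s'.hW, Mem.set_same]
      rw [Mem.set_arr _ _ _ (by decide), h.rm _ (fw_lt ok ht) _ (fw_lt ok ht), hA]
      simp only [Sch.loc, gi_fw ok ht, hsd]
  set m1 := upd m 13 0 (s * s) fun e => (A (e / s) (e % s)).val with hm1
  have e1 : ∀ x, x ≠ 13 → m1 x = m x := fun x hx => upd_arr _ _ _ _ hx
  have s1 : pre_St S n l t m1 := s0.stab (e1 _ (by decide)) (e1 _ (by decide)) (e1 _ (by decide))
    (by rw [e1 _ (by decide)])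
  have b1 : Bd V m1 := h.bd.upd _ _ _ hg
  have sm : ∀ w : Mem, w 7 = m 7 → Sm (S.R n) w := fun w hw r => hw ▸ h.ro.Sm ok r
  have D2 := H2 P B V _ κ (by omega) cx.env m1 (fun e => (A (e / s) (e % s)).val) (l * S.W n)
    (s * s) b1 (sm _ (e1 _ (by decide)))
    (by simp only [FE.eval, s1.lam, s1.hW, Nat.add_sub_cancel])
    (by simp only [FE.eval, s1.k1, hsd]) (by omega) hg fun e he => by
      simp only [FE.eval, Mem.set_same]
      rw [Mem.set_arr _ _ _ (by decide), hm1, upd_in0 _ _ _ _ he]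
  set m2 := upd m1 11 (l * S.W n) (s * s) fun e => (A (e / s) (e % s)).val with hm2
  have e2 : ∀ x, x ≠ 11 → x ≠ 13 → m2 x = m x := fun x hx hx' =>
    (upd_arr _ _ _ _ hx).trans (e1 x hx')
  have s2 : pre_St S n l t m2 := s0.stab (e2 _ (by decide) (by decide))
    (e2 _ (by decide) (by decide)) (e2 _ (by decide) (by decide))
    (by rw [e2 _ (by decide) (by decide)])
  have b2 : Bd V m2 := b1.upd _ _ _ hg
  have D3 := H3 P B V _ κ (by omega) cx.env m2 (3 * l) (a * S.k + t / S.k) b2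
    (sm _ (e2 _ (by decide) (by decide))) (by simp only [FE.eval, s2.lam, Nat.add_sub_cancel])
    (by omega) (by omega) (by
      have s' := s2.var 0
      simp only [FE.eval, s'.lam, s'.kk, s'.t']
      rw [Mem.set_arr _ _ _ (by decide), e2 _ (by decide) (by decide), h.fa])
  set m3 := m2.set 9 (3 * l) (a * S.k + t / S.k) with hm3
  have e3 : ∀ x, x ≠ 9 → m3 x = m2 x := fun x hx => Mem.set_arr _ _ _ hx
  have s3 : pre_St S n l t m3 := s2.stab (e3 _ (by decide)) (e3 _ (by decide)) (e3 _ (by decide))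
    (Mem.set_idx _ _ _ (by omega))
  have b3 : Bd V m3 := fill_bd_set b2 _ _ (by omega)
  have D4 := H4 P B V _ κ (by omega) cx.env m3 (3 * l + 1) (b * S.k + t % S.k) b3
    (sm _ ((e3 _ (by decide)).trans (e2 _ (by decide) (by decide))))
    (by simp only [FE.eval, s3.lam, Nat.add_sub_cancel]) (by omega) (by omega) (by
      have s' := s3.var 0
      simp only [FE.eval, s'.lam, s'.kk, s'.t']
      rw [Mem.set_arr _ _ _ (by decide), hm3, Mem.set_idx _ _ _ (by omega),
        e2 _ (by decide) (by decide), h.fb])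
  set m4 := m3.set 9 (3 * l + 1) (b * S.k + t % S.k) with hm4
  have e4 : ∀ x, x ≠ 9 → m4 x = m2 x := fun x hx => (Mem.set_arr _ _ _ hx).trans (e3 x hx)
  have s4 : pre_St S n l t m4 := s3.stab (Mem.set_arr _ _ _ (by decide))
    (Mem.set_arr _ _ _ (by decide)) (Mem.set_arr _ _ _ (by decide)) (Mem.set_idx _ _ _ (by omega))
  have b4 : Bd V m4 := fill_bd_set b3 _ _ (by omega)
  have D5 := H5 P B V _ κ (by omega) cx.env m4 0 l b4
    (sm _ ((e4 _ (by decide)).trans (e2 _ (by decide) (by decide)))) rfl (by omega) (by omega) (by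
      have s' := s4.var 0
      simp only [FE.eval, s'.lam, Nat.add_sub_cancel])
  have e5 : ∀ x, x ≠ 8 → x ≠ 9 → m4.set 8 0 l x = m2 x := fun x hx hx' =>
    (Mem.set_arr _ _ _ hx).trans (e4 x hx')
  have e6 : ∀ x, x ≠ 8 → x ≠ 9 → x ≠ 11 → x ≠ 13 → m4.set 8 0 l x = m x := fun x h1 h2 h3 h4 =>
    (e5 x h1 h2).trans (e2 x h3 h4)
  refine ⟨m4.set 8 0 l, (D1.seq (D2.seq (D3.seq (D4.seq D5)))).mono ?_, ⟨fun x hx => ?_,
    fun i hi => ?_, fun i hi => ?_⟩, h.ro.stab fun x hx => ?_, fill_bd_set b4 _ _ (by omega),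
    Mem.set_same _ _ _ _, ?_, ?_, h.ns, ?_, ?_, ?_⟩
  · have h1 := sq_le_cu (n := n) ok l
    have h2 : S.cu n l ≤ S.cu n (l + 1) := by
      rw [cu_succ]
      exact Nat.le_mul_of_pos_left _ (lt_of_lt_of_le (Nat.mul_pos (by omega) (by omega)) ok.hρ)
    have h3 : (s * s + 3) * kc S n κ ≤ S.cu n (l + 1) * kc S n κ :=
      Nat.mul_le_mul_right _ (h1.trans h2)
    have h4 : 3 * kc S n κ ≤ S.cu n (l + 1) * kc S n κ :=
      Nat.mul_le_mul_right _ ((Nat.le_add_left _ _).trans (h1.trans h2))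
    change (s * s + 1) * kc S n κ + ((s * s + 1) * kc S n κ + (2 * kc S n κ +
      (2 * kc S n κ + 2 * kc S n κ + 1) + 1) + 1) + 1 ≤ _
    rw [mul_assoc 8]
    simp only [add_mul] at h3 ⊢
    omega
  · simp only [List.mem_cons, List.not_mem_nil, or_false, not_or] at hx
    exact e6 x hx.1 hx.2.1 hx.2.2.2.1 hx.2.2.2.2.1
  · rw [Mem.set_arr _ _ _ (by decide), hm4, Mem.set_idx _ _ _ (by omega), hm3,
      Mem.set_idx _ _ _ (by omega), e2 _ (by decide) (by decide)]
  · rw [e5 _ (by decide) (by decide), hm2, upd_out _ _ _ _ _ _ (by omega), e1 _ (by decide)]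
  · simp only [List.mem_cons, List.not_mem_nil, or_false] at hx
    exact e6 x (by omega) (by omega) (by omega) (by omega)
  · rw [Mem.set_arr _ _ _ (by decide), hm4, Mem.set_idx _ _ _ (by omega), hm3, Mem.set_same]
  · rw [Mem.set_arr _ _ _ (by decide), hm4, Mem.set_same]
  · intro i hi j hj
    rw [e6 _ (by decide) (by decide) (by decide) (by decide)]
    exact h.ru i hi j hj
  · intro i hi j hj
    rw [e6 _ (by decide) (by decide) (by decide) (by decide)]
    exact h.rt i hi j hj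
  · intro i hi j hj
    rw [e5 _ (by decide) (by decide)]
    exact rp_upd m1 11 (l * S.W n) s A i hi j hj

end Vale.Agent.P305
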