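import Vale.Agent.P305.Ideal

/-! Random skew matrices from blocks of bits. -/

namespace Vale.Agent.P305

open Finset

theorem blk_disj {β e e' i : ℕ} (h : e ≠ e') (h1 : e * β ≤ i) (h2 : i < e * β + β) :
    i < e' * β ∨ e' * β + β ≤ i := by
  rcases lt_or_gt_of_ne h with k | k
  · have := Nat.mul_le_mul_right β (show e + 1 ≤ e' from k)
    rw [add_mul] at this
    omega
  · have := Nat.mul_le_mul_right β (show e' + 1 ≤ e from k)
    rw [add_mul] at this
    omega

theorem idx_inj {N a b c d : ℕ} (hb : b < N) (hd : d < N) (h : a * N + b = c * N + d) :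
    a = c ∧ b = d := by
  have h1 := congrArg (· % N) h
  simp only [Nat.mul_add_mod_of_lt hb, Nat.mul_add_mod_of_lt hd] at h1
  rw [h1, add_left_inj] at h
  exact ⟨Nat.eq_of_mul_eq_mul_right (by omega) h, h1⟩

theorem rx_of {R N β p : ℕ} [Fact p.Prime] (hR : N * N * β ≤ R) (w : (Fin R → Bool) → ℕ → ℕ)
    (w0 : ∀ r e, 0 < w r e ∧ w r e < p)
    (w1 : ∀ r r' e, (∀ i : Fin R, e * β ≤ i → i < e * β + β → r i = r' i) ↔ w r e = w r' e)
    {X : (Fin R → Bool) → Matrix (Fin N) (Fin N) (ZMod p)}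
    (h1 : ∀ r a b, a < b → X r a b = w r (a * N + b)) (h2 : ∀ r a b, X r a b = -X r b a)
    (h3 : ∀ r a, X r a a = 0) :
    RX X (2 ^ β) (2 ^ R) := by
  have key : ∀ r s : Fin N, r < s → ∀ Bad : Finset (Fin R → Bool), (∀ ω ∈ Bad, ∀ ω' ∈ Bad,
      (∀ a b, ¬ pr (r, s) a b → X ω a b = X ω' a b) → X ω r s = X ω' r s) →
      Bad.card * 2 ^ β ≤ 2 ^ R := by
    intro r s hrs Bad h
    refine bits_card ((r * N + s) * β) β ?_ Bad fun ω hω ω' hω' e => ?_
    · have := Nat.mul_le_mul_right N (show r.1 + 1 ≤ N from r.2)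
      have := Nat.mul_le_mul_right β (show r.1 * N + s + 1 ≤ N * N by
        have := s.2
        rw [add_mul] at *
        omega)
      rw [add_mul] at this
      omega
    have k1 : ∀ a b, a < b → ¬ pr (r, s) a b → X ω a b = X ω' a b := fun a b hab hp => by
      rw [h1 _ _ _ hab, h1 _ _ _ hab, (w1 ω ω' _).1 fun i i1 i2 => e i (blk_disj (fun k => ?_) i1 i2)]
      obtain ⟨k1, k2⟩ := idx_inj b.2 s.2 k
      exact hp (Or.inl ⟨Fin.ext k1, Fin.ext k2⟩)
    have k2 := h ω hω ω' hω' fun a b hp => by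
      rcases lt_trichotomy a b with k | k | k
      · exact k1 a b k hp
      · rw [k, h3, h3]
      · rw [h2 ω, h2 ω', k1 b a k fun j => hp (pr_symm.1 j)]
    rw [h1 _ _ _ hrs, h1 _ _ _ hrs, ZMod.natCast_eq_natCast_iff', Nat.mod_eq_of_lt (w0 _ _).2,
      Nat.mod_eq_of_lt (w0 _ _).2] at k2
    funext i
    by_cases j : i.1 < (r * N + s) * β ∨ (r * N + s) * β + β ≤ i.1
    · exact e i j
    · exact (w1 ω ω' _).2 k2 i (by omega) (by omega)
  have ne : ∀ ω a b, a < b → X ω a b ≠ 0 := fun ω a b k => by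
    rw [h1 _ _ _ k, Ne, ZMod.natCast_eq_zero_iff]
    exact Nat.not_dvd_of_pos_of_lt (w0 _ _).1 (w0 _ _).2
  refine ⟨h2, fun ω a b k => ?_, fun r s hrs Bad h => ?_⟩
  · rcases lt_or_gt_of_ne k with k | k
    · exact ne ω a b k
    · rw [h2, neg_ne_zero]
      exact ne ω b a k
  · rcases lt_or_gt_of_ne hrs with k | k
    · exact key r s k Bad h
    · refine key s r k Bad fun ω hω ω' hω' e => ?_
      rw [h2 ω, h2 ω', h ω hω ω' hω' fun a b j => e a b fun j' => j (Or.symm j')]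

theorem two_ne {p : ℕ} [Fact p.Prime] (h : 2 < p) : (2 : ZMod p) ≠ 0 := fun e =>
  Nat.not_dvd_of_pos_of_lt two_pos h ((ZMod.natCast_eq_zero_iff 2 p).1 (by exact_mod_cast e))

theorem cast_one {p N : ℕ} [Fact p.Prime] (h : N < p) (k : ℕ) (hk : k ≤ Fintype.card (Fin N))
    (e : (k : ZMod p) = 1) : k = 1 := by
  rw [Fintype.card_fin] at hk
  rwa [← Nat.cast_one, ZMod.natCast_eq_natCast_iff', Nat.mod_eq_of_lt (by omega),
    Nat.mod_eq_of_lt (Fact.out : p.Prime).one_lt] at e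

end Vale.Agent.P305
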