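import Vale.Agent.P305.Ideal2
import Vale.Agent.P305.Rand
import Vale.Agent.P305.Ord

/-! The probability of success. -/

namespace Vale.Agent.P305

open Vale.Agent.P315 Finset

theorem prob_tr {n N h : ℕ} (hn : n ≤ h) (hN : n ≤ N) {G : SimpleGraph (Fin n)}
    {E : Fin N → Fin N → Prop}
    (hE : ∀ a b, E a b ↔ ∃ (ha : a.1 < n) (hb : b.1 < n), G.Adj ⟨a, ha⟩ ⟨b, hb⟩)
    {μ : Fin N → Fin N} (m1 : ∀ v, μ (μ v) = v ∧ μ v ≠ v)
    (m3 : ∀ a, a.1 < h → (μ a).1 < h → E a (μ a))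
    {_ : DecidablePred fun v : Fin N => v.1 < h ∧ (μ v).1 < h}
    (m4 : ∀ σ : Fin N → Fin N, (∀ v, σ (σ v) = v) → (∀ v, σ v ≠ v → E v (σ v)) →
      (univ.filter fun v => σ v ≠ v).card ≤ (univ.filter fun v => v.1 < h ∧ (μ v).1 < h).card) :
    ∃ ν : Fin n → Fin n, (∀ v, ν (ν v) = v) ∧ (∀ v, ν v ≠ v → G.Adj v (ν v)) ∧
      (∀ σ : Fin n → Fin n, (∀ v, σ (σ v) = v) → (∀ v, σ v ≠ v → G.Adj v (σ v)) →
        (univ.filter fun v => σ v ≠ v).card ≤ (univ.filter fun v => ν v ≠ v).card) ∧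
      ∀ a b : Fin n, Fin.castLE hN b = μ (Fin.castLE hN a) ↔ (ν a = b ∧ ν a ≠ a) := by
  let ι : Fin n → Fin N := Fin.castLE hN
  let ν : Fin n → Fin n := fun v => if e : (μ (ι v)).1 < n then ⟨_, e⟩ else v
  have n1 : ∀ v, (μ (ι v)).1 < n → ι (ν v) = μ (ι v) := fun v e => by
    simp only [ν, dif_pos e]
    rfl
  have n2 : ∀ v, ν v ≠ v ↔ (μ (ι v)).1 < n := fun v =>
    ⟨fun e => by_contra fun k => e (dif_neg k), fun e k => (m1 _).2 (by rw [← n1 v e, k])⟩
  refine ⟨ν, fun v => ?_, fun v hv => ?_, fun σ s1 s2 => ?_, fun a b => ⟨fun e => ?_, fun e => ?_⟩⟩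
  · by_cases e : (μ (ι v)).1 < n
    · have k : μ (ι (ν v)) = ι v := by rw [n1 v e, (m1 _).1]
      refine Fin.castLE_injective hN ((n1 _ ?_).trans k)
      rw [k]
      exact v.2
    · have : ν v = v := dif_neg e
      rw [this, this]
  · have e := (n2 v).1 hv
    obtain ⟨ha, hb, k⟩ := (hE _ _).1 (m3 (ι v) (v.2.trans_le hn) (e.trans_le hn))
    simp only [ν, dif_pos e]
    exact k
  · let σ' : Fin N → Fin N := fun a => if e : a.1 < n then ι (σ ⟨a, e⟩) else a
    have t1 : ∀ v, σ' (ι v) = ι (σ v) := fun v => dif_pos v.2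
    have t2 : ∀ a : Fin N, (∃ v, a = ι v) ∨ σ' a = a := fun a => by
      by_cases e : a.1 < n
      · exact Or.inl ⟨⟨a, e⟩, rfl⟩
      · exact Or.inr (dif_neg e)
    refine le_trans ?_ ((m4 σ' (fun a => ?_) fun a ha => ?_).trans ?_)
    · refine card_le_card_of_injOn ι (fun v hv => ?_) (Fin.castLE_injective _).injOn
      refine mem_filter.2 ⟨mem_univ _, fun e => (mem_filter.1 hv).2 ?_⟩
      rw [t1] at e
      exact Fin.castLE_injective _ e
    · rcases t2 a with ⟨v, rfl⟩ | e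
      · rw [t1, t1, s1]
      · rw [e, e]
    · rcases t2 a with ⟨v, rfl⟩ | e
      · rw [t1] at ha ⊢
        exact (hE _ _).2 ⟨v.2, (σ v).2, s2 v fun e => ha (congrArg ι e)⟩
      · exact absurd e ha
    · refine card_le_card_of_surjOn ι fun a ha => ?_
      obtain ⟨a1, a2⟩ := (mem_filter.1 ha).2
      obtain ⟨b1, b2, -⟩ := (hE _ _).1 (m3 a a1 a2)
      exact ⟨⟨a, b1⟩, mem_filter.2 ⟨mem_univ _, (n2 _).2 b2⟩, rfl⟩
  · have k : (μ (ι a)).1 < n := e ▸ b.2
    exact ⟨Fin.castLE_injective hN ((n1 a k).trans e.symm), (n2 a).2 k⟩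
  · rw [← e.1]
    exact n1 a ((n2 a).1 e.2)

section

variable {K : Type} [Field K] {N : ℕ}

theorem prob_skew (u : ℕ → ℕ → K) (a b : Fin N) : mat N u a b = -mat N u b a := by
  simp only [mat, Matrix.of_apply, alt]
  split_ifs with h1 h2 h2
  · omega
  · rw [neg_neg]
  · rfl
  · rw [neg_zero]

theorem prob_lt (u : ℕ → ℕ → K) {a b : Fin N} (h : a < b) : mat N u a b = u a b := if_pos h

theorem prob_dg (u : ℕ → ℕ → K) (a : Fin N) : mat N u a a = 0 := by simp [mat, alt]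

theorem prob_ext {A B : Matrix (Fin N) (Fin N) K} (hA : ∀ a b, A a b = -A b a)
    (hB : ∀ a b, B a b = -B b a) (h0 : ∀ a, A a a = B a a) (h : ∀ a b, a < b → A a b = B a b) :
    A = B := by
  ext a b
  rcases lt_trichotomy a b with k | k | k
  · exact h a b k
  · rw [k, h0]
  · rw [hA, hB, h b a k]

open Classical in
theorem prob_mix {u v : ℕ → ℕ → K} {D : Fin N → Fin N → Prop} (hD : ∀ a b, D a b → D b a)
    (h : ∀ a b : Fin N, a < b → u a b = if D a b then v a b else 0) :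
    mat N u = mix D 0 (mat N v) := by
  refine prob_ext (prob_skew u) (mix_skew hD (by simp) (prob_skew v)) (fun a => ?_) fun a b k => ?_
  · simp [mix, prob_dg]
  · rw [prob_lt u k, h a b k, mix, prob_lt v k]
    rfl

theorem prob_set (tg u : ℕ → ℕ → K) {i j : Fin N} (h : i < j) :
    mat N (up2 u i j (tg i j)) = setE (mat N tg) (mat N u) (i, j) := by
  refine prob_ext (prob_skew _) (fun a b => ?_) (fun a => ?_) fun a b k => ?_
  · unfold setE
    by_cases e : pr (i, j) a b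
    · rw [if_pos e, if_pos (pr_symm.1 e), prob_skew]
    · rw [if_neg e, if_neg fun k => e (pr_symm.1 k), prob_skew]
  · simp [setE, prob_dg]
  · rw [prob_lt _ k, setE, prob_lt _ k, prob_lt _ k, up2]
    by_cases e : pr (i, j) a b
    · rw [if_pos e]
      rcases e with ⟨rfl, rfl⟩ | ⟨rfl, rfl⟩
      · exact if_pos ⟨rfl, rfl⟩
      · exact absurd h k.not_gt
    · rw [if_neg e, if_neg fun c => e (Or.inl ⟨Fin.ext c.1, Fin.ext c.2⟩)]

/-- The pairs that matter. -/
def prL (N : ℕ) (l : List (ℕ × ℕ)) : List (Fin N × Fin N) :=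
  l.filterMap fun e => if h : e.1 < e.2 ∧ e.2 < N then some (⟨e.1, h.1.trans h.2⟩, ⟨e.2, h.2⟩) else none

theorem prob_fold (tg u : ℕ → ℕ → K) (l : List (ℕ × ℕ)) (h : ∀ e ∈ l, e.2 < N) :
    mat N (l.foldl (step N tg) u) = (prL N l).foldl (stepT (mat N tg)) (mat N u) := by
  induction l generalizing u with
  | nil => rfl
  | cons e l ih =>
    have h1 := h e List.mem_cons_self
    rw [List.foldl_cons, ih _ fun x hx => h x (List.mem_cons_of_mem _ hx)]
    by_cases k : e.1 < e.2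
    · rw [prL, prL, List.filterMap_cons_some (dif_pos ⟨k, h1⟩), List.foldl_cons, stepT,
        ← prob_set tg u (i := ⟨e.1, k.trans h1⟩) (j := ⟨e.2, h1⟩) k, step]
      congr 1
      split_ifs with c1 c2 c2
      · rfl
      · exact absurd c1.2 c2
      · exact absurd ⟨k, c2⟩ c1
      · rfl
    · rw [prL, prL, List.filterMap_cons_none (dif_neg fun c => k c.1), step, if_neg fun c => k c.1]

end

variable {S : Sch} {n : ℕ}

theorem prob_val {R : ℕ} (r r' : Fin R → Bool) (e : ℕ) :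
    (∀ i : Fin R, e * S.w n ≤ i → i < e * S.w n + S.w n → r i = r' i) ↔
      S.val n (ext r) e = S.val n (ext r') e := by
  unfold Sch.val
  refine ⟨fun h => congrArg _ (sum_congr rfl fun t ht => ?_), fun h i h1 h2 => ?_⟩
  · have := mem_range.1 ht
    have e1 : ext r (e * S.w n + t) = ext r' (e * S.w n + t) := by
      unfold ext
      split_ifs with k
      · exact h ⟨_, k⟩ (Nat.le_add_right _ _) (Nat.add_lt_add_left this _)
      · rfl
    rw [e1]
  · have := bits_inj (S.w n) (fun t => if ext r (e * S.w n + t) = true then 1 else 0)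
      (fun t => if ext r' (e * S.w n + t) = true then 1 else 0) (fun t => by split_ifs <;> omega)
      (fun t => by split_ifs <;> omega) (by simpa using h) (i - e * S.w n) (by omega)
    simp only [Nat.add_sub_cancel' h1, ext, i.2, dif_pos, Fin.eta] at this
    revert this
    cases r i <;> cases r' i <;> simp

theorem prob_num {x y c l M D : ℕ} (h1 : y + x = c) (h2 : x * (M * 2 ^ (D + 4)) ≤ 4 * l * c)
    (h3 : l ≤ M) (h4 : 0 < M) : 2 * c ≤ 3 * y := by
  have c4 : x * 16 * M ≤ 4 * c * M := by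
    have := Nat.mul_le_mul_left (x * M) (Nat.pow_le_pow_right two_pos (show 4 ≤ D + 4 by omega))
    have := Nat.mul_le_mul_right (4 * c) h3
    nlinarith
  have c5 := Nat.le_of_mul_le_mul_right c4 h4
  omega

/-- The edges on the large index set. -/
def prE (N : ℕ) (G : SimpleGraph (Fin n)) (a b : Fin N) : Prop :=
  ∃ (ha : a.1 < n) (hb : b.1 < n), G.Adj ⟨a, ha⟩ ⟨b, hb⟩

theorem prob_tau (H : S.Ok) (G : SimpleGraph (Fin n)) : ∃ τ : Fin (S.N n) → Fin (S.N n),
    Dbl (prE (S.N n) G) (fun v => v.1 < S.h n) τ ∧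
    ∀ a b : Fin (S.N n), b = τ a ↔ (b.1 = a + S.h n ∨ a.1 = b + S.h n) := by
  have hN := N_eq (n := n) H
  have hh := n_lt_h (n := n) H
  let τ : Fin (S.N n) → Fin (S.N n) := fun v =>
    if h : v.1 < S.h n then ⟨v + S.h n, by omega⟩ else ⟨v - S.h n, by omega⟩
  have t1 : ∀ v, (τ v).1 = if v.1 < S.h n then v.1 + S.h n else v.1 - S.h n := fun v => by
    simp only [τ]
    split_ifs <;> rfl
  have t2 : ∀ a b : Fin (S.N n), b = τ a ↔ (b.1 = a + S.h n ∨ a.1 = b + S.h n) := fun a b => by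
    rw [Fin.ext_iff, t1]
    split_ifs <;> omega
  refine ⟨τ, ⟨fun v => ((t2 _ _).2 ((t2 v _).1 rfl).symm).symm, fun v => ?_,
    fun a b ⟨x, y, z⟩ => ⟨y, x, z.symm⟩, fun a ⟨_, _, z⟩ => z.ne rfl,
    fun a b ⟨x, _⟩ => x.trans hh⟩, t2⟩
  have := (t2 v _).1 rfl
  omega

open Classical in
theorem prob_fin (H : S.Ok) (G : SimpleGraph (Fin n)) {τ : Fin (S.N n) → Fin (S.N n)}
    (hD : Dbl (prE (S.N n) G) (fun v => v.1 < S.h n) τ)
    (t2 : ∀ a b : Fin (S.N n), b = τ a ↔ (b.1 = a + S.h n ∨ a.1 = b + S.h n)) (ρ : ℕ → Bool)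
    {X : Matrix (Fin (S.N n)) (Fin (S.N n)) (ZMod (S.p n))}
    (hX : X = mat (S.N n) fun i j => ((S.val n ρ (i * S.N n + j) : ℕ) : ZMod (S.p n)))
    {l : List (Fin (S.N n) × Fin (S.N n))} (hl : l = prL (S.N n) (ord S.k (S.L n) 0 0)) :
    mat (S.N n) (S.fin G ρ) = l.foldl (stepT 0)
      (l.foldl (stepT (mix (K2 (prE (S.N n) G) fun v => v.1 < S.h n) 0 X))
        (l.foldl (stepT (mix (K1 (prE (S.N n) G) (fun v => v.1 < S.h n) τ) 0 X))
          (mat (S.N n) (S.u0 n)))) := by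
  have hN := N_eq (n := n) H
  have hh := n_lt_h (n := n) H
  have hk : 0 < S.k := by have := k_two H; omega
  have g0 : mat (S.N n) (S.tg G ρ 0) = mix (K1 (prE (S.N n) G) (fun v => v.1 < S.h n) τ) 0 X := by
    rw [hX]
    refine prob_mix hD.s1 fun a b k => if_congr ?_ rfl rfl
    have k' : a.1 < b.1 := k
    have := b.2
    refine ⟨fun ⟨⟨_, _, e⟩, _⟩ => ?_, fun e => ⟨⟨k, b.2, ?_⟩, Or.inl rfl⟩⟩
    · rcases e with e | e | e
      · exact Or.inl (Or.inl e)
      · exact Or.inl (Or.inr ⟨by omega, by omega, k.ne⟩)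
      · exact Or.inr ((t2 a b).2 (Or.inl e))
    · rcases e with (e | e) | e
      · exact Or.inl e
      · exact Or.inr (Or.inl (not_lt.1 e.1))
      · have := (t2 a b).1 e
        exact Or.inr (Or.inr (by omega))
  have g1 : mat (S.N n) (S.tg G ρ 1) = mix (K2 (prE (S.N n) G) fun v => v.1 < S.h n) 0 X := by
    rw [hX]
    refine prob_mix hD.s2 fun a b k => if_congr ?_ rfl rfl
    have k' : a.1 < b.1 := k
    have := b.2
    refine ⟨fun ⟨⟨_, _, e⟩, e'⟩ => ?_, fun e => ?_⟩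
    · rcases e with e | e | e
      · exact Or.inl e
      · exact Or.inr ⟨by omega, by omega, k.ne⟩
      · omega
    · rcases e with e | e
      · have := e.2.1
        exact ⟨⟨k, b.2, Or.inl e⟩, Or.inr ⟨rfl, by omega⟩⟩
      · have := not_lt.1 e.1
        exact ⟨⟨k, b.2, Or.inr (Or.inl this)⟩, Or.inr ⟨rfl, by omega⟩⟩
  have g2 : mat (S.N n) (S.tg G ρ 2) = 0 := by
    ext a b
    simp [mat, alt, Sch.tg]
  have hf := fun tg u => prob_fold (N := S.N n) (K := ZMod (S.p n)) tg u (ord S.k (S.L n) 0 0)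
    fun e he => (Nat.div_eq_zero_iff_lt (pow_pos hk _)).1 ((mem_ord hk _ _ _ e.1 e.2).1 he).2
  rw [Sch.fin, Sch.sw, Sch.sw, Sch.sw, hf, hf, hf, g0, g1, g2, hl]

open Classical in
theorem prob_good (H : S.Ok) (G : SimpleGraph (Fin n)) {R : ℕ} (hR : S.N n * S.N n * S.w n ≤ R) :
    (2 / 3 : ℝ) * 2 ^ R ≤
      ((univ.filter fun r : Fin R → Bool => S.Good G (S.fin G (ext r))).card : ℝ) := by
  have hN := N_eq (n := n) H
  have hh := n_lt_h (n := n) H
  have hp := N_lt_p (S := S) (n := n)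
  have hp2 : 2 < S.p n := by
    have := (Nat.pow_le_pow_right two_pos (show 1 ≤ S.w n by unfold Sch.w; omega)).trans_lt p_gt
    omega
  obtain ⟨τ, hD, t2⟩ := prob_tau H G
  have hX := rx_of hR (fun r e => S.val n (ext r) e)
    (fun r e => ⟨by unfold Sch.val; omega, val_lt _ _⟩) prob_val
    (X := fun r => mat (S.N n) fun i j => (S.val n (ext r) (i * S.N n + j) : ℕ))
    (fun r a b k => prob_lt _ k) (fun r => prob_skew _) fun r => prob_dg _
  have hk : 0 < S.k := by have := k_two H; omega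
  have hl : ∀ a b : Fin (S.N n), a < b → (a, b) ∈ prL (S.N n) (ord S.k (S.L n) 0 0) :=
    fun a b k => List.mem_filterMap.2 ⟨(a, b), (mem_ord hk _ _ _ _ _).2
      ⟨Nat.div_eq_of_lt a.2, Nat.div_eq_of_lt b.2⟩, dif_pos ⟨k, b.2⟩⟩
  have b1 : ∀ a b : Fin (S.N n), a < b → (mat (S.N n) (S.u0 n) a b ≠ 0 ↔ b = τ a) := fun a b k => by
    rw [prob_lt _ k, t2, Sch.u0]
    have : a.1 < b.1 := k
    split_ifs with e
    · exact iff_of_true one_ne_zero (Or.inl e)
    · exact iff_of_false (fun e => e rfl) (by omega)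
  obtain ⟨μ, m1, m3, m4, m5⟩ := ideal_main (two_ne hp2) (cast_one hp) hD hX
    (prob_skew (S.u0 n)) (fun a b => by
      rcases lt_trichotomy a b with k | k | k
      · exact b1 a b k
      · rw [k, prob_dg]
        exact iff_of_false (fun e => e rfl) (hD.ne b).symm
      · rw [prob_skew, neg_ne_zero, b1 b a k, t2, t2, or_comm])
    (prL (S.N n) (ord S.k (S.L n) 0 0)) fun a b e => by
      rcases lt_or_gt_of_ne e with k | k
      · exact ⟨_, hl a b k, Or.inl ⟨rfl, rfl⟩⟩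
      · exact ⟨_, hl b a k, Or.inr ⟨rfl, rfl⟩⟩
  obtain ⟨ν, n1, n2, n3, n4⟩ := prob_tr hh.le (show n ≤ S.N n by omega) (fun _ _ => Iff.rfl) m1 m3 m4
  simp only [← prob_fin H G hD t2 _ rfl rfl] at m5
  have c1 := card_filter_add_card_filter_not (s := univ)
    fun r : Fin R → Bool => S.Good G (S.fin G (ext r))
  have c0 : ∀ u : ℕ → ℕ → ZMod (S.p n), (∀ a b, mat (S.N n) u a b ≠ 0 ↔ b = μ a) → S.Good G u :=
    fun u k => ⟨ν, n1, n2, n3, fun a b =>
      (k (Fin.castLE (by omega) a) (Fin.castLE (by omega) b)).trans (n4 a b)⟩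
  have c2 : (univ.filter fun r : Fin R → Bool => ¬ S.Good G (S.fin G (ext r))).card * 2 ^ S.w n ≤
      4 * (prL (S.N n) (ord S.k (S.L n) 0 0)).length * 2 ^ R := by
    refine le_trans (Nat.mul_le_mul_right _ (card_le_card fun r hr => ?_)) m5
    exact mem_filter.2 ⟨mem_univ _, fun k => (mem_filter.1 hr).2 (c0 _ k)⟩
  rw [two_w] at c2
  rw [card_univ, Fintype.card_fun, Fintype.card_bool, Fintype.card_fin] at c1
  have c6 := prob_num c1 c2 ((List.length_filterMap_le _ _).trans_eq (length_ord _ _ _ _))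
    (Nat.mul_pos (by omega) (by omega))
  have c7 : (2 * 2 ^ R : ℝ) ≤ 3 * ((univ.filter fun r : Fin R → Bool =>
      S.Good G (S.fin G (ext r))).card : ℕ) := by exact_mod_cast c6
  linarith

end Vale.Agent.P305
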