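import Vale.Agent.P305.U0

/-! The root of the recursion. Hints: rec_fl_ex, rec_st_ex, rp_upd; gi k L 0 0 x = x % N; ns_u0; val_lt and ZMod.val_natCast_of_lt; - 1 is p - 1. In root_ex array 12 is filled with zeros. -/

namespace Vale.Agent.P305

open Vale.Agent.P315 Finset

/-- Zero exactly when `a = b + h`. -/
def root_eq (a b : FE) : FE :=
  .add (.sub a (.add b (.rd 17 (.c 4)))) (.sub (.add b (.rd 17 (.c 4))) a)

/-- The size of the local matrix. -/
def root_s : FE := .rd 18 (.add (.rd 17 (.c 2)) (.c 1))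

/-- The row index. -/
def root_i : FE := .mod (.div (.v 0) root_s) (.rd 17 (.c 1))

/-- The column index. -/
def root_j : FE := .mod (.mod (.v 0) root_s) (.rd 17 (.c 1))

theorem root_par {S : Sch} {n : ℕ} {m : Mem} (h : S.RO n m) : m 17 0 = S.p n ∧ m 17 1 = S.N n ∧
    m 17 2 = S.L n ∧ m 17 3 = S.W n ∧ m 17 4 = S.h n ∧ m 18 (S.L n + 1) = S.k ^ (S.L n + 1) :=
  ⟨h.par 0 (by omega), h.par 1 (by omega), h.par 2 (by omega), h.par 3 (by omega),
    h.par 4 (by omega), h.pk _ (by omega)⟩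

theorem root_ro {S : Sch} {n : ℕ} {m : Mem} (h : S.RO n m) {arr : ℕ} (h7 : 7 < arr)
    (h17 : arr < 17) (β σ : ℕ) (g : ℕ → ℕ) : S.RO n (upd m arr β σ g) :=
  h.stab fun a ha => upd_arr _ _ _ _ (by
    simp only [List.mem_cons, List.not_mem_nil, or_false] at ha
    omega)

theorem root_loc {S : Sch} {n : ℕ} (H : S.Ok) (x y : ℕ) :
    (S.loc n (S.u0 n) (S.L n) 0 0 x y).val = if y % S.N n = x % S.N n + S.h n then S.p n - 1
      else if x % S.N n = y % S.N n + S.h n then 1 else 0 := by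
  have h0 : 0 < S.N n := by have := N_eq (n := n) H; have := n_lt_h (n := n) H; omega
  have e : ∀ z, gi S.k (S.L n) 0 0 z = z % S.N n := fun z => by simp [gi, Sch.N]
  rw [Sch.loc, e, e, (ns_u0 H).2 _ (Nat.mod_lt _ h0) _ (Nat.mod_lt _ h0)]
  split_ifs
  · rw [ZMod.neg_val, if_neg one_ne_zero, ZMod.val_one]
  · exact ZMod.val_one _
  · exact ZMod.val_zero

theorem root_ex (S : Sch) : Ex S fun n P B V K c => ∀ m : Mem, S.RO n m → Bd V m →
    ∃ m', Does P B c m m' (40 * S.big n * K) ∧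
      Kp [8, 9, 10, 11, 12] m m' ∧ Nd S n V (fun _ _ => 0) (S.u0 n) (S.L n) 0 0 m' := by
  obtain ⟨c1, k1, H1⟩ := rec_fl_ex 8 (by decide) (by decide) (by decide) (.c 0) (.c 1)
    (.rd 17 (.c 2)) rfl rfl rfl rfl
  obtain ⟨c2, k2, H2⟩ := rec_fl_ex 9 (by decide) (by decide) (by decide)
    (.mul (.c 3) (.rd 17 (.c 2))) (.c 2) (.c 0) rfl rfl rfl rfl
  obtain ⟨c3, k3, H3⟩ := rec_fl_ex 10 (by decide) (by decide) (by decide) (.c 0)
    (.mul (.rd 17 (.c 1)) (.rd 17 (.c 1)))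
    (.ifz (root_eq (.mod (.v 0) (.rd 17 (.c 1))) (.div (.v 0) (.rd 17 (.c 1)))) (.c 1) (.c 0))
    rfl rfl rfl rfl
  obtain ⟨c4, k4, H4⟩ := rec_fl_ex 12 (by decide) (by decide) (by decide) (.c 0)
    (.mul (.rd 17 (.c 1)) (.rd 17 (.c 1))) (.c 0) rfl rfl rfl rfl
  obtain ⟨c5, k5, H5⟩ := rec_fl_ex 11 (by decide) (by decide) (by decide)
    (.mul (.rd 17 (.c 2)) (.rd 17 (.c 3))) (.mul root_s root_s)
    (.ifz (root_eq root_j root_i) (.sub (.rd 17 (.c 0)) (.c 1))
      (.ifz (root_eq root_i root_j) (.c 1) (.c 0))) rfl rfl rfl rfl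
  refine ⟨.seq c1 (.seq c2 (.seq c3 (.seq c4 c5))), k1 + k2 + k3 + k4 + k5 + 1, by omega, ?_⟩
  intro n P B V κ hκ C m R0 b0
  have H := C.ok
  have hV := C.big
  have v1 := big_p (S := S) (n := n)
  have v2 : S.N n * S.N n ≤ S.big n := (Nat.le_mul_of_pos_right _ (by omega)).trans big_N
  have v3 := big_W (n := n) H
  have v4 : (S.L n + 4) * 8 ≤ S.big n := Nat.mul_le_mul (by omega) (by
    have := Nat.two_pow_pos (S.w n)
    omega)
  have v5 := W_eq (S := S) (n := n)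
  have hv : ∀ x : ZMod (S.p n), x.val ≤ V := fun x => by have := ZMod.val_lt x; omega
  rw [add_mul] at v3
  have D1 := H1 P B V _ κ (by omega) C.env m (fun _ => S.L n) 0 1 b0 (R0.Sm H) rfl rfl (by omega)
    (fun _ _ => by omega) fun e _ => by
      simp only [FE.eval]
      rw [Mem.set_arr _ _ _ (by decide), (root_par R0).2.2.1]
  have R1 := root_ro R0 (arr := 8) (by omega) (by omega) 0 1 fun _ => S.L n
  have b1 := b0.upd 8 0 1 (g := fun _ => S.L n) fun _ _ => by omega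
  set m1 := upd m 8 0 1 fun _ => S.L n with hm1
  have D2 := H2 P B V _ κ (by omega) C.env m1 (fun _ => 0) (3 * S.L n) 2 b1 (R1.Sm H)
    (by simp only [FE.eval, (root_par R1).2.2.1]) rfl (by omega) (fun _ _ => by omega)
    fun e _ => rfl
  have R2 := root_ro R1 (arr := 9) (by omega) (by omega) (3 * S.L n) 2 fun _ => 0
  have b2 := b1.upd 9 (3 * S.L n) 2 (g := fun _ => 0) fun _ _ => by omega
  set m2 := upd m1 9 (3 * S.L n) 2 fun _ => 0 with hm2
  have D3 := H3 P B V _ κ (by omega) C.env m2 (fun e => (S.u0 n (e / S.N n) (e % S.N n)).val) 0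
    (S.N n * S.N n) b2 (R2.Sm H) rfl (by simp only [FE.eval, (root_par R2).2.1]) (by omega)
    (fun _ _ => hv _) fun e _ => by
      obtain ⟨-, a1, -, -, a4, -⟩ := root_par R2
      simp only [FE.eval, root_eq, Mem.set_same, Mem.set_arr _ _ _ (show 17 ≠ 6 by decide), a1, a4,
        Sch.u0]
      by_cases c : e % S.N n = e / S.N n + S.h n
      · rw [if_pos (by omega), if_pos c, ZMod.val_one]
      · rw [if_neg (by omega), if_neg c, ZMod.val_zero]
  have R3 := root_ro R2 (arr := 10) (by omega) (by omega) 0 (S.N n * S.N n)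
    fun e => (S.u0 n (e / S.N n) (e % S.N n)).val
  have b3 := b2.upd 10 0 (S.N n * S.N n) (g := fun e => (S.u0 n (e / S.N n) (e % S.N n)).val)
    fun _ _ => hv _
  have p3 := rp_upd m2 10 0 (S.N n) (S.u0 n)
  set m3 := upd m2 10 0 (S.N n * S.N n) fun e => (S.u0 n (e / S.N n) (e % S.N n)).val with hm3
  have D4 := H4 P B V _ κ (by omega) C.env m3 (fun _ => (0 : ZMod (S.p n)).val) 0
    (S.N n * S.N n) b3 (R3.Sm H) rfl (by simp only [FE.eval, (root_par R3).2.1]) (by omega)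
    (fun _ _ => hv _) fun e _ => ZMod.val_zero.symm
  have R4 := root_ro R3 (arr := 12) (by omega) (by omega) 0 (S.N n * S.N n)
    fun _ => (0 : ZMod (S.p n)).val
  have b4 := b3.upd 12 0 (S.N n * S.N n) (g := fun _ => (0 : ZMod (S.p n)).val) fun _ _ => hv _
  have p4 := rp_upd (p := S.p n) m3 12 0 (S.N n) fun _ _ => 0
  set m4 := upd m3 12 0 (S.N n * S.N n) fun _ => (0 : ZMod (S.p n)).val with hm4
  set s := S.k ^ (S.L n + 1) with hs
  have D5 := H5 P B V _ κ (by omega) C.env m4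
    (fun e => (S.loc n (S.u0 n) (S.L n) 0 0 (e / s) (e % s)).val) (S.L n * S.W n) (s * s) b4
    (R4.Sm H) (by simp only [FE.eval, (root_par R4).2.2.1, (root_par R4).2.2.2.1])
    (by simp only [FE.eval, root_s, (root_par R4).2.2.1, (root_par R4).2.2.2.2.2, hs]) (by omega)
    (fun _ _ => hv _) fun e _ => by
      obtain ⟨a0, a1, a2, -, a4, a5⟩ := root_par R4
      simp only [FE.eval, root_eq, root_i, root_j, root_s, Mem.set_same,
        Mem.set_arr _ _ _ (show 17 ≠ 6 by decide), Mem.set_arr _ _ _ (show 18 ≠ 6 by decide),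
        a0, a1, a2, a4, a5, ← hs, root_loc H]
      exact if_congr (by omega) rfl (if_congr (by omega) rfl rfl)
  refine ⟨_, (D1.seq (D2.seq (D3.seq (D4.seq D5)))).mono ?_, fun a ha => ?_,
    root_ro R4 (by omega) (by omega) _ _ _, b4.upd _ _ _ fun _ _ => hv _, ?_, ?_, ?_, (ns_u0 H).1,
    ?_, ?_, rp_upd _ _ _ _ _⟩
  · have k0 := kc_pos (S := S) (n := n) (κ := κ) (by omega)
    change _ ≤ 40 * S.big n * (κ * S.R n ^ κ)
    rw [kc] at k0
    have a1 := Nat.mul_le_mul_right (κ * S.R n ^ κ) v2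
    have a2 := Nat.mul_le_mul_right (κ * S.R n ^ κ) (show s * s ≤ S.big n by omega)
    have a3 := Nat.mul_le_mul_right (κ * S.R n ^ κ) (show 1 ≤ S.big n by omega)
    simp only [add_mul, mul_assoc 40]
    omega
  · simp only [List.mem_cons, List.not_mem_nil, or_false] at ha
    rw [upd_arr _ _ _ _ (by omega), hm4, upd_arr _ _ _ _ (by omega), hm3,
      upd_arr _ _ _ _ (by omega), hm2, upd_arr _ _ _ _ (by omega), hm1, upd_arr _ _ _ _ (by omega)]
  · rw [upd_arr _ _ _ _ (by omega), hm4, upd_arr _ _ _ _ (by omega), hm3,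
      upd_arr _ _ _ _ (by omega), hm2, upd_arr _ _ _ _ (by omega), hm1, upd_in0 _ _ _ _ one_pos]
  · rw [upd_arr _ _ _ _ (by omega), hm4, upd_arr _ _ _ _ (by omega), hm3,
      upd_arr _ _ _ _ (by omega), hm2]
    exact upd_in _ _ _ _ _ two_pos
  · rw [upd_arr _ _ _ _ (by omega), hm4, upd_arr _ _ _ _ (by omega), hm3,
      upd_arr _ _ _ _ (by omega), hm2]
    exact upd_in _ _ _ _ _ one_lt_two
  · intro i hi j hj
    rw [upd_arr _ _ _ _ (by omega), hm4, upd_arr _ _ _ _ (by omega)]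
    exact p3 i hi j hj
  · intro i hi j hj
    rw [upd_arr _ _ _ _ (by omega)]
    exact p4 i hi j hj

end Vale.Agent.P305
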