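import Vale.Agent.P305.Par

/-! The targets. Hints: two rec_fl_ex of size N * N (array 12 from 24 and 25, array 16 := array 10), rp_upd, val_lt, ZMod.val_natCast_of_lt; case φ = 0, φ = 1, else; a test a < b is ifz (sub b a). -/

namespace Vale.Agent.P305

open Vale.Agent.P315 Finset

open Classical in
theorem tgt_val (S : Sch) (φ : ℕ) {n : ℕ} (G : SimpleGraph (Fin n)) (ρ : ℕ → Bool) {i j : ℕ}
    (hj : j < S.N n) : (if j - i = 0 then 0 else if j - (i + S.h n) + (i + S.h n - j) = 0 then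
      (if φ = 0 then 1 else 0) * S.val n ρ (i * S.N n + j)
    else if (if ∃ (hi : i < n) (hj : j < n), G.Adj ⟨i, hi⟩ ⟨j, hj⟩ then 1 else 0) = 0 then
      (if S.h n - i = 0 then (if φ ≤ 1 then 1 else 0) * S.val n ρ (i * S.N n + j) else 0)
    else (if φ ≤ 1 then 1 else 0) * S.val n ρ (i * S.N n + j)) = (S.tg G ρ φ i j).val := by
  rw [Sch.tg, apply_ite ZMod.val, ZMod.val_natCast_of_lt (val_lt ρ _), ZMod.val_zero]
  by_cases hA : ∃ (hi : i < n) (hj : j < n), G.Adj ⟨i, hi⟩ ⟨j, hj⟩ <;>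
    simp only [Sch.HE, hA, if_true, if_false, one_ne_zero, true_or, false_or, and_true,
      ite_mul, one_mul, zero_mul] <;> split_ifs <;> first | rfl | omega

theorem tgt_ex (S : Sch) (φ : ℕ) : Ex S fun n P B V K c => ∀ (G : SimpleGraph (Fin n))
    (ρ : ℕ → Bool) (t u : ℕ → ℕ → ZMod (S.p n)) (m : Mem), S.Dat G ρ m →
    Nd S n V t u (S.L n) 0 0 m → ∃ m', Does P B c m m' (40 * S.big n * K) ∧ Kp [12, 16] m m' ∧
      Nd S n V (S.tg G ρ φ) u (S.L n) 0 0 m' ∧ Cp16 S n u (S.L n) 0 0 m' := by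
  obtain ⟨c1, k1, H1⟩ := rec_fl_ex 12 (by decide) (by decide) (by decide) (.c 0)
    (.mul (.rd 17 (.c 1)) (.rd 17 (.c 1)))
    (.ifz (.sub (.mod (.v 0) (.rd 17 (.c 1))) (.div (.v 0) (.rd 17 (.c 1)))) (.c 0)
      (.ifz (.add
        (.sub (.mod (.v 0) (.rd 17 (.c 1))) (.add (.div (.v 0) (.rd 17 (.c 1))) (.rd 17 (.c 4))))
        (.sub (.add (.div (.v 0) (.rd 17 (.c 1))) (.rd 17 (.c 4))) (.mod (.v 0) (.rd 17 (.c 1)))))
        (.mul (.c (if φ = 0 then 1 else 0)) (.rd 24 (.v 0)))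
        (.ifz (.rd 25 (.v 0))
          (.ifz (.sub (.rd 17 (.c 4)) (.div (.v 0) (.rd 17 (.c 1))))
            (.mul (.c (if φ ≤ 1 then 1 else 0)) (.rd 24 (.v 0))) (.c 0))
          (.mul (.c (if φ ≤ 1 then 1 else 0)) (.rd 24 (.v 0)))))) rfl rfl rfl rfl
  obtain ⟨c2, k2, H2⟩ := rec_fl_ex 16 (by decide) (by decide) (by decide) (.c 0)
    (.mul (.rd 17 (.c 1)) (.rd 17 (.c 1))) (.rd 10 (.v 0)) rfl rfl rfl rfl
  refine ⟨.seq c1 c2, k1 + k2 + 1, by omega, fun n P B V k hk C G ρ t u m hd h => ?_⟩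
  have hN : m 17 1 = S.N n := h.ro.par 1 (by decide)
  have hh : m 17 4 = S.h n := h.ro.par 4 (by decide)
  have b1 := big_N (S := S) (n := n)
  have b2 := big_p (S := S) (n := n)
  have b3 := C.big
  have b4 := N_lt_p (S := S) (n := n)
  have b5 : S.N n * S.N n ≤ S.big n := le_trans (Nat.le_mul_of_pos_right _ (by omega)) b1
  have hg : ∀ e < S.N n * S.N n, (S.tg G ρ φ (e / S.N n) (e % S.N n)).val ≤ V := fun e _ => by
    have := ZMod.val_lt (S.tg G ρ φ (e / S.N n) (e % S.N n))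
    omega
  have D1 := H1 P B V _ k (by omega) C.env m _ 0 _ h.bd (h.ro.Sm C.ok) rfl
    (by simp only [FE.eval, hN]) (by omega) hg fun e he => by
      have N0 : 0 < S.N n := Nat.pos_of_ne_zero fun h => by simp [h] at he
      have hi : e / S.N n < S.N n := Nat.div_lt_of_lt_mul he
      have hj := Nat.mod_lt e N0
      have a := hd.adj _ hi _ hj
      have b := tgt_val S φ G ρ (i := e / S.N n) hj
      rw [Nat.div_add_mod'] at a b
      simp only [FE.eval, Mem.set_same, Mem.set_arr _ _ _ (show 17 ≠ 6 by decide),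
        Mem.set_arr _ _ _ (show 24 ≠ 6 by decide), Mem.set_arr _ _ _ (show 25 ≠ 6 by decide), hN, hh,
        a, hd.val e he]
      exact b
  set w := upd m 12 0 (S.N n * S.N n) fun e => (S.tg G ρ φ (e / S.N n) (e % S.N n)).val with hw
  have kw : ∀ a, a ≠ 12 → w a = m a := fun a ha => kp_upd _ _ _ _ _ a (by simpa using ha)
  have bw : Bd V w := h.bd.upd _ _ _ hg
  have rw' : S.RO n w := h.ro.stab fun a ha => kw a (by rintro rfl; simp at ha)
  have D2 := H2 P B V _ k (by omega) C.env w (m 10) 0 (S.N n * S.N n) bw (rw'.Sm C.ok) rfl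
    (by simp only [FE.eval, kw 17 (by decide), hN]) (by omega)
    (fun e _ => h.bd 10 e (by decide)) fun e _ => by
      simp only [FE.eval, Mem.set_same, Mem.set_arr _ _ _ (show 10 ≠ 6 by decide),
        kw 10 (by decide)]
  set v := upd w 16 0 (S.N n * S.N n) (m 10) with hv
  have kv : ∀ a, a ≠ 16 → v a = w a := fun a ha => kp_upd _ _ _ _ _ a (by simpa using ha)
  have km : ∀ a, a ≠ 12 → a ≠ 16 → v a = m a := fun a h1 h2 => (kv a h2).trans (kw a h1)
  refine ⟨v, (D1.seq D2).mono ?_, fun a ha => km a (by rintro rfl; simp at ha)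
    (by rintro rfl; simp at ha), ⟨rw'.stab fun a ha => kv a (by rintro rfl; simp at ha),
    bw.upd _ _ _ fun e _ => h.bd 10 e (by decide), ?_, ?_, ?_, h.ns, ?_, ?_, ?_⟩,
    fun i hi j hj _ _ => ?_⟩
  · have := kc_pos (S := S) (n := n) (show 1 ≤ k by omega)
    unfold kc at *
    generalize k * S.R n ^ k = K at *
    have := Nat.mul_le_mul_right K (show 2 * (S.N n * S.N n + 1) + 1 ≤ 40 * S.big n by omega)
    nlinarith
  · rw [km 8 (by decide) (by decide), h.lv]
  · rw [km 9 (by decide) (by decide), h.fa]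
  · rw [km 9 (by decide) (by decide), h.fb]
  · intro i hi j hj
    rw [km 10 (by decide) (by decide), h.ru i hi j hj]
  · intro i hi j hj
    rw [kv 12 (by decide)]
    exact rp_upd m 12 0 _ (S.tg G ρ φ) i hi j hj
  · intro i hi j hj
    rw [km 11 (by decide) (by decide), h.rm i hi j hj]
  · rw [hv, upd_in0 _ _ _ _ (by nlinarith), ← h.ru i hi j hj, zero_add]

end Vale.Agent.P305
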