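import Vale.Agent.P305.Rec
import Vale.Agent.P305.Init1
import Vale.Agent.P305.Init2
import Vale.Agent.P305.Init3
import Vale.Agent.P305.Init4
import Vale.Agent.P305.InitC
import Vale.Agent.P305.Root
import Vale.Agent.P305.Tgt
import Vale.Agent.P305.Outp

/-! The whole program. -/

namespace Vale.Agent.P305

open Vale.Agent.P315 Finset

theorem prog_bd {n V R : ℕ} {G : SimpleGraph (Fin n)} {L : List (List ℕ)} (h : Rep G L)
    (r : Fin R → Bool) (h1 : 1 ≤ V) (h2 : n ≤ V) (h3 : n * n ≤ V) : Bd V (ginput n L r) := by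
  have e1 : ∀ i ≤ n, (L.take i).flatten.length ≤ i * n := by
    intro i
    induction i with
    | zero => simp
    | succ i ih =>
      intro hi
      have := h.len_le (show i < n by omega)
      have := ih (by omega)
      rw [take_len_succ, add_mul]
      omega
  intro a i _
  unfold ginput
  split_ifs with a0 a1 hi a2 a3 b1 b2
  · rcases i with _ | i
    · exact h2
    · exact Nat.zero_le _
  · exact ((e1 i hi).trans (Nat.mul_le_mul_right _ hi)).trans h3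
  · exact Nat.zero_le _
  · by_cases hi : i < L.flatten.length
    · rw [List.getD_eq_getElem _ _ hi]
      obtain ⟨l, hl, hx⟩ := List.mem_flatten.1 (List.getElem_mem hi)
      obtain ⟨u, hu, rfl⟩ := List.getElem_of_mem hl
      rw [← List.getD_eq_getElem _ [] hu] at hx
      obtain ⟨hw, -⟩ := ((h.2 ⟨u, h.1 ▸ hu⟩).2 _).1 hx
      omega
    · rw [List.getD_eq_default _ _ (by omega)]
      exact Nat.zero_le _
  · exact h1
  all_goals exact Nat.zero_le _

theorem prog_dat {S : Sch} {n : ℕ} {G : SimpleGraph (Fin n)} {ρ : ℕ → Bool} {m m' : Mem}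
    {l : List ℕ} (h : S.Dat G ρ m) (k : Kp l m m') (h1 : 24 ∉ l) (h2 : 25 ∉ l) : S.Dat G ρ m' :=
  ⟨by rw [k 25 h2]; exact h.adj, by rw [k 24 h1]; exact h.val⟩

theorem prog_sw (S : Sch) (φ : ℕ) : Ex S fun n P B V K c =>
    Sp S n P B V (.call 1) (S.L n) (100 * (S.L n + 1) * (S.ρ * S.cu n (S.L n)) * K) →
    ∀ (G : SimpleGraph (Fin n)) (ρ : ℕ → Bool) (t u : ℕ → ℕ → ZMod (S.p n)) (m : Mem),
      S.Dat G ρ m → Nd S n V t u (S.L n) 0 0 m →
      ∃ m', Does P B c m m' (140 * ((S.L n + 1) * S.big n * K) + 1) ∧ S.Dat G ρ m' ∧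
        Nd S n V (S.tg G ρ φ) (S.sw n (S.tg G ρ φ) u) (S.L n) 0 0 m' := by
  obtain ⟨c, κ, hκ, H⟩ := tgt_ex S φ
  refine ⟨.seq c (.call 1), κ, hκ, fun n P B V k hk X sp G ρ t u m dt nd => ?_⟩
  obtain ⟨m1, d1, k1, n1, c1⟩ := H n P B V k hk X G ρ t u m dt nd
  obtain ⟨m2, d2, f2, n2⟩ := sp _ u 0 0 m1 (by simp) (by simp) n1 c1
  refine ⟨m2, (d1.seq d2).mono ?_, prog_dat (prog_dat dt k1 (by decide) (by decide)) f2.kp
    (by decide) (by decide), n2⟩
  have h1 := Nat.mul_le_mul_right (kc S n k)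
    (Nat.mul_le_mul_left (S.L n + 1) (big_cu X.ok (le_refl (S.L n))))
  have h2 : S.big n * kc S n k ≤ (S.L n + 1) * S.big n * kc S n k :=
    Nat.mul_le_mul_right _ (Nat.le_mul_of_pos_left _ (by omega))
  rw [mul_assoc 40, mul_assoc 100, mul_assoc 100]
  omega

theorem prog_ex (S : Sch) : ∃ (P : List Cmd) (κ : ℕ), 1 ≤ κ ∧ ∀ n B V, Cx S n B V κ →
    ∀ (G : SimpleGraph (Fin n)) (L : List (List ℕ)), Rep G L → ∀ (R : ℕ) (r : Fin R → Bool),
    ∃ m', Does P B (.call 0) (ginput n L r) m' (1000 * (S.L n + 1) * S.big n * kc S n κ) ∧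
      (S.Good G (S.fin G (ext r)) → Out G m') := by
  obtain ⟨c1, k1, -, H1⟩ := init1_ex S
  obtain ⟨c2, k2, -, H2⟩ := init2_ex S
  obtain ⟨c3, k3, -, H3⟩ := init3_ex S
  obtain ⟨c4, k4, -, H4⟩ := init4_ex S
  obtain ⟨c5, k5, -, H5⟩ := root_ex S
  obtain ⟨c6, k6, -, H6⟩ := prog_sw S 0
  obtain ⟨c7, k7, -, H7⟩ := prog_sw S 1
  obtain ⟨c8, k8, -, H8⟩ := prog_sw S 2
  obtain ⟨c9, k9, -, H9⟩ := out_ex S
  obtain ⟨cr, k0, -, H0⟩ := rec_ex S
  refine ⟨[.seq c1 (.seq c2 (.seq c3 (.seq c4 (.seq c5 (.seq c6 (.seq c7 (.seq c8 c9))))))), cr],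
    k0 + k1 + k2 + k3 + k4 + k5 + k6 + k7 + k8 + k9 + 1, by omega, fun n B V X G L hL R r => ?_⟩
  generalize hP : [.seq c1 (.seq c2 (.seq c3 (.seq c4 (.seq c5 (.seq c6 (.seq c7 (.seq c8 c9))))))),
    cr] = P
  generalize hκ : k0 + k1 + k2 + k3 + k4 + k5 + k6 + k7 + k8 + k9 + 1 = κ at X
  have sp := H0 n P B V κ (by omega) X (by rw [← hP]; rfl) _ (le_refl (S.L n))
  have hn : n < S.N n := by
    have := N_eq (n := n) X.ok
    have := n_lt_h (n := n) X.ok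
    omega
  have hN : S.N n * S.N n ≤ S.big n := (Nat.le_mul_of_pos_right _ (by omega)).trans big_N
  have hN1 : S.N n ≤ S.N n * S.N n := Nat.le_mul_of_pos_left _ (by omega)
  have hN2 : n * n ≤ S.N n * S.N n := Nat.mul_le_mul hn.le hn.le
  have hb := X.big
  obtain ⟨m1, d1, b1, p1, r1⟩ := H1 n P B V κ (by omega) X (ginput n L r) rfl (fun _ => rfl)
    (prog_bd hL r (by omega) (by omega) (by omega))
  obtain ⟨m2, d2, b2, p2, r2, e2⟩ := H2 n P B V κ (by omega) X m1 r1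
    (fun i => by rw [p1 27 (by decide)]; rfl) b1
  obtain ⟨m3, d3, b3, p3, r3⟩ := H3 n P B V κ (by omega) X m2 r2 e2 b2
  have q : Kp [7, 17, 18, 19, 26, 29, 27, 28, 20, 21, 22, 23] (ginput n L r) m3 :=
    (p1.trans p2 (l'' := [7, 17, 18, 19, 26, 29, 27, 28]) (by decide) (by decide)).trans p3
      (by decide) (by decide)
  obtain ⟨m4, d4, b4, p4, t4⟩ := H4 n P B V κ (by omega) X G L (ext r) m3
    ⟨hL, by rw [q 0 (by decide)]; rfl, fun i hi => by rw [q 1 (by decide)]; simp [ginput, hi],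
      fun i => by rw [q 2 (by decide)]; rfl, fun i => by
        rw [q 3 (by decide)]
        by_cases h : i < R <;> simp [ginput, ext, h]⟩
    (r2.stab fun a ha => p3 a (by revert a; decide)) (fun i => by rw [q 25 (by decide)]; rfl) b3
  obtain ⟨m5, d5, p5, n5⟩ := H5 n P B V κ (by omega) X m4
    (r3.stab fun a ha => p4 a (by revert a; decide)) b4
  obtain ⟨m6, d6, t6, n6⟩ := H6 n P B V κ (by omega) X sp G _ _ _ m5
    (prog_dat t4 p5 (by decide) (by decide)) n5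
  obtain ⟨m7, d7, t7, n7⟩ := H7 n P B V κ (by omega) X sp G _ _ _ m6 t6 n6
  obtain ⟨m8, d8, -, n8⟩ := H8 n P B V κ (by omega) X sp G _ _ _ m7 t7 n7
  obtain ⟨m9, d9, o9⟩ := H9 n P B V κ (by omega) X G _ m8 n8.ro n8.bd n8.ru
  refine ⟨m9, (Does.call (by rw [← hP]; rfl) (d1.seq (d2.seq (d3.seq (d4.seq (d5.seq (d6.seq
    (d7.seq (d8.seq d9))))))))).mono ?_, o9⟩
  have h1 : 1 ≤ S.big n * kc S n κ := Nat.mul_pos (by omega) (kc_pos (by omega))
  have h2 : S.big n * kc S n κ ≤ (S.L n + 1) * S.big n * kc S n κ :=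
    Nat.mul_le_mul_right _ (Nat.le_mul_of_pos_left _ (by omega))
  rw [mul_assoc 40, mul_assoc 1000, mul_assoc 1000]
  omega

end Vale.Agent.P305
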