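import Vale.Agent.P305.Leaf
import Vale.Agent.P305.Pre
import Vale.Agent.P305.Post
import Vale.Agent.P305.Ord

/-! The recursion. -/

namespace Vale.Agent.P305

open Vale.Agent.P315 Finset

/-- Repeat a command. -/
def recRep : ℕ → Cmd → Cmd
  | 0, _ => .skip
  | j + 1, c => .seq (recRep j c) c

theorem rec_rep {P : List Cmd} {B T : ℕ} {c : Cmd} {I : ℕ → Mem → Prop} {m : Mem} (h0 : I 0 m)
    (J : ℕ) (h : ∀ t < J, ∀ m1, I t m1 → ∃ m2, Does P B c m1 m2 T ∧ I (t + 1) m2) :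
    ∃ m', Does P B (recRep J c) m m' (J * (T + 1) + 1) ∧ I J m' := by
  induction J with
  | zero => exact ⟨m, fun m0 e => ⟨m0, 1, Exec.skip _, e, by omega⟩, h0⟩
  | succ J ih =>
    obtain ⟨m1, d1, i1⟩ := ih fun t ht => h t (by omega)
    obtain ⟨m2, d2, i2⟩ := h J (by omega) m1 i1
    exact ⟨m2, (d1.seq d2).mono (by rw [add_mul]; omega), i2⟩

variable {S : Sch} {n : ℕ}

theorem Fm.rec_up {l : ℕ} {m m' : Mem} (h : Fm S n l m m') : Fm S n (l + 1) m m' :=
  ⟨h.kp, fun i hi => h.f9 i (by omega),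
    fun i hi => h.f11 i ((Nat.mul_le_mul_right _ (by omega)).trans hi)⟩

theorem Fm.rec_trans {l : ℕ} {m m' m'' : Mem} (h : Fm S n l m m') (h' : Fm S n l m' m'') :
    Fm S n l m m'' :=
  ⟨fun a ha => (h'.kp a ha).trans (h.kp a ha), fun i hi => (h'.f9 i hi).trans (h.f9 i hi),
    fun i hi => (h'.f11 i hi).trans (h.f11 i hi)⟩

theorem Cp16.rec_fm {u : ℕ → ℕ → ZMod (S.p n)} {l l' a b : ℕ} {m m' : Mem}
    (h : Cp16 S n u l a b m) (f : Fm S n l' m m') : Cp16 S n u l a b m' := by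
  intro i hi j hj h1 h2
  rw [f.kp 16 (by decide)]
  exact h i hi j hj h1 h2

theorem rec_child (H : S.Ok) {tg u : ℕ → ℕ → ZMod (S.p n)} {l a b t : ℕ} {m : Mem}
    (ht : t < S.k * S.k) (h : Cp16 S n u (l + 1) a b m) :
    Cp16 S n (((List.range t).flatMap fun c => ord S.k l (a * S.k + c / S.k)
      (b * S.k + c % S.k)).foldl (step (S.N n) tg) u) l (a * S.k + t / S.k)
      (b * S.k + t % S.k) m := by
  have hk : 0 < S.k := by have := k_two H; omega
  intro i hi j hj h1 h2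
  rw [fold_supp, h i hi j hj]
  · rw [pow_succ, ← Nat.div_div_eq_div_mul, h1, add_comm, Nat.add_mul_div_right _ _ hk,
      Nat.div_eq_of_lt (Nat.div_lt_of_lt_mul ht), zero_add]
  · rw [pow_succ, ← Nat.div_div_eq_div_mul, h2, add_comm, Nat.add_mul_div_right _ _ hk,
      Nat.div_eq_of_lt (Nat.mod_lt _ hk), zero_add]
  · refine Or.inl fun hm => ?_
    obtain ⟨c, hc, hm⟩ := List.mem_flatMap.1 hm
    rw [mem_ord hk, h1, h2] at hm
    have e1 := Nat.div_add_mod c S.k
    have e2 := Nat.div_add_mod t S.k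
    rw [List.mem_range] at hc
    have e3 : t / S.k = c / S.k := by omega
    rw [e3] at e2
    omega

theorem rec_ex (S : Sch) : Ex S fun n P B V K c => P[1]? = some c →
    ∀ l ≤ S.L n, Sp S n P B V (.call 1) l (100 * (l + 1) * (S.ρ * S.cu n l) * K) := by
  obtain ⟨cl, k1, -, H1⟩ := leaf_ex S
  obtain ⟨cp, k2, -, H2⟩ := pre_ex S
  obtain ⟨cq, k3, -, H3⟩ := post_ex S
  obtain ⟨c0, k4, H4⟩ := rec_st_ex 9 (by decide) (by decide) (by decide)
    (.add (.mul (.c 3) (.rd 8 (.c 0))) (.c 2)) (.c 0) rfl rfl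
  obtain ⟨c, k5, H5⟩ := ifF_ex (.rd 8 (.c 0)) rfl cl
    (.seq c0 (recRep (S.k * S.k) (.seq cp (.seq (.call 1) cq))))
  refine ⟨c, k1 + k2 + k3 + k4 + k5 + 1, by omega, fun n P B V κ hκ X hP => ?_⟩
  have H := X.ok
  have hK : 1 ≤ kc S n κ := kc_pos (by omega)
  have h5 : k5 * S.R n ^ k5 ≤ kc S n κ := cost_mono X.env.hR (by omega)
  have hk := k_two H
  have hρ : 4 ≤ S.ρ := (Nat.mul_le_mul hk hk).trans H.hρ
  intro l
  induction l with
  | zero =>
    intro _ tg u a b m ha hb nd cq16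
    obtain ⟨m', d, r⟩ := H1 n P B V κ (by omega) X tg u a b m ha hb nd cq16
    refine ⟨m', (Does.call hP (H5 P B V _ m m' _ (X.env.mono (by omega)) nd.bd (nd.ro.Sm H)
      (fun _ => d) fun h => absurd nd.lv h)).mono ?_, r⟩
    have h1 := sq_le_cu (n := n) H 0
    have h2 : kc S n κ ≤ S.cu n 0 * kc S n κ := Nat.le_mul_of_pos_left _ (by omega)
    have h3 : S.cu n 0 * kc S n κ ≤ S.ρ * (S.cu n 0 * kc S n κ) :=
      Nat.le_mul_of_pos_left _ (by omega)
    rw [mul_assoc 8, mul_assoc (100 * _), mul_assoc S.ρ]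
    omega
  | succ l ih =>
    intro hl tg u a b m ha hb nd cq16
    have hV : 3 * (l + 1) + 2 + 1 ≤ V := by
      have h1 := sq_le_W (n := n) H (Nat.zero_le _)
      have h2 := big_W (n := n) H
      have h3 := X.big
      rw [zero_add, pow_one] at h1
      have h4 : (S.L n + 3) * 4 ≤ (S.L n + 3) * S.W n :=
        Nat.mul_le_mul_left _ ((Nat.mul_le_mul hk hk).trans h1)
      omega
    have d0 := H4 P B V _ κ (by omega) X.env m (3 * (l + 1) + 2) 0 nd.bd (nd.ro.Sm H)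
      (by simp [FE.eval, nd.lv]) hV (Nat.zero_le _) rfl
    obtain ⟨m', d, f, nd', -⟩ := rec_rep (P := P) (B := B) (c := .seq cp (.seq (.call 1) cq))
      (T := (100 * (l + 1) + 68) * (S.cu n (l + 1) * kc S n κ) + 2)
      (m := m.set 9 (3 * (l + 1) + 2) 0)
      (I := fun t m1 => Fm S n (l + 1) m m1 ∧ Nd S n V tg (((List.range t).flatMap fun c =>
        ord S.k l (a * S.k + c / S.k) (b * S.k + c % S.k)).foldl (step (S.N n) tg) u)
        (l + 1) a b m1 ∧ m1 9 (3 * (l + 1) + 2) = t)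
      ⟨⟨fun x hx => Mem.set_arr _ _ _ (fun e => hx (by simp [e])),
          fun i hi => Mem.set_idx _ _ _ (by omega), fun i _ => by rw [Mem.set_arr _ _ _ (by decide)]⟩,
        ⟨nd.ro.stab fun x hx => Mem.set_arr _ _ _ (fun e => by subst e; simp at hx),
          nd.bd.comp_set _ _ (Nat.zero_le _), by rw [Mem.set_arr _ _ _ (by decide)]; exact nd.lv,
          (Mem.set_idx _ _ _ (by omega)).trans nd.fa, (Mem.set_idx _ _ _ (by omega)).trans nd.fb,
          nd.ns, fun i hi j hj => by rw [Mem.set_arr _ _ _ (by decide)]; exact nd.ru i hi j hj,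
          fun i hi j hj => by rw [Mem.set_arr _ _ _ (by decide)]; exact nd.rt i hi j hj,
          fun i hi j hj => by rw [Mem.set_arr _ _ _ (by decide)]; exact nd.rm i hi j hj⟩,
        Mem.set_same _ _ _ _⟩ (S.k * S.k) fun t ht m1 ⟨f1, n1, e1⟩ => by
      obtain ⟨m2, d2, f2, n2⟩ := H2 n P B V κ (by omega) X tg _ l a b t m1 hl ha hb ht n1 e1
      obtain ⟨ha', hb'⟩ := child_lt H hl ht ha hb
      have c2 := ((rec_child (tg := tg) H ht cq16).rec_fm f1).rec_fm f2
      obtain ⟨m3, d3, f3, n3⟩ := ih (by omega) tg _ _ _ m2 ha' hb' n2 c2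
      have f := f2.rec_trans f3
      obtain ⟨m4, d4, f4, n4, e4⟩ := H3 n P B V κ (by omega) X tg _ _ l a b t m3 hl ha hb ht n1.ns n3
        ((f.f9 _ (by omega)).trans n1.fa) ((f.f9 _ (by omega)).trans n1.fb)
        ((f.f9 _ (by omega)).trans e1)
        (fun i hi j hj => (f.f11 _ (Nat.le_add_right _ _)).trans (n1.rm i hi j hj))
        (c2.rec_fm f3) fun i j h => fold_supp _ _ _
          (Or.inl fun hm => h ((mem_ord (by omega) _ _ _ _ _).1 hm))
      refine ⟨m4, (d2.seq (d3.seq d4)).mono ?_, (f1.rec_trans f.rec_up).rec_trans f4, ?_, e4⟩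
      · rw [← cu_succ, add_mul (100 * _), mul_assoc 8, mul_assoc 60, mul_assoc (100 * _)]
        omega
      · rw [List.range_succ, List.flatMap_append, List.foldl_append, List.flatMap_singleton]
        exact n4
    refine ⟨m', (Does.call hP (H5 P B V _ m m' _ (X.env.mono (by omega)) nd.bd (nd.ro.Sm H)
      (fun h => absurd (nd.lv.symm.trans h) (by omega)) fun _ => d0.seq d)).mono ?_, f, nd'⟩
    have h1 := sq_le_cu (n := n) H (l + 1)
    have h2 : 3 * kc S n κ ≤ S.cu n (l + 1) * kc S n κ := Nat.mul_le_mul_right _ (by omega)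
    have h0 : κ * S.R n ^ κ = kc S n κ := rfl
    rw [h0, mul_assoc (100 * _), mul_assoc S.ρ]
    generalize S.cu n (l + 1) * kc S n κ = Y at *
    have h3 : S.k * S.k * ((100 * (l + 1) + 68) * Y + 2 + 1) ≤ S.ρ * ((100 * (l + 1) + 69) * Y) :=
      Nat.mul_le_mul H.hρ (by nlinarith)
    have h4 : Y ≤ S.ρ * Y := Nat.le_mul_of_pos_left _ (by omega)
    have h6 : 100 * (l + 1 + 1) * (S.ρ * Y) = S.ρ * ((100 * (l + 1) + 69) * Y) + 31 * (S.ρ * Y) := by
      ring
    omega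

end Vale.Agent.P305
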