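import Vale.Agent.P305.Bridge

/-! Transfer from the doubled vertex set. -/

namespace Vale.Agent.P305

open Finset Vale.Agent.P315

theorem out_of_mu {n N h : ℕ} (hn : n ≤ h) (hN : h ≤ N) {G : SimpleGraph (Fin n)}
    {E : Fin N → Fin N → Prop}
    (hE : ∀ a b, E a b ↔ ∃ (ha : a.1 < n) (hb : b.1 < n), G.Adj ⟨a, ha⟩ ⟨b, hb⟩)
    {μ : Fin N → Fin N} (m1 : ∀ v, μ (μ v) = v ∧ μ v ≠ v)
    (m3 : ∀ a, a.1 < h → (μ a).1 < h → E a (μ a))
    [DecidablePred fun v : Fin N => v.1 < h ∧ (μ v).1 < h]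
    (m4 : ∀ σ : Fin N → Fin N, (∀ v, σ (σ v) = v) → (∀ v, σ v ≠ v → E v (σ v)) →
      (univ.filter fun v => σ v ≠ v).card ≤ (univ.filter fun v => v.1 < h ∧ (μ v).1 < h).card)
    {m : Mem} (hm : ∀ u : Fin N, u.1 < n → m 4 u = if (μ u).1 < n then (μ u).1 + 1 else 0) :
    Out G m := by
  let ι : Fin n → Fin N := Fin.castLE (hn.trans hN)
  let ν : Fin n → Fin n := fun v => if e : (μ (ι v)).1 < n then ⟨_, e⟩ else v
  have n1 : ∀ v, (μ (ι v)).1 < n → ι (ν v) = μ (ι v) := fun v e => by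
    simp only [ν, dif_pos e]
    rfl
  have n2 : ∀ v, ν v ≠ v ↔ (μ (ι v)).1 < n := fun v =>
    ⟨fun e => by_contra fun k => e (dif_neg k), fun e k => (m1 _).2 (by rw [← n1 v e, k])⟩
  refine out_of_inv (μ := ν) (fun v => ?_) (fun v hv => ?_) (fun σ s1 s2 => ?_) fun u => ?_
  · by_cases e : (μ (ι v)).1 < n
    · have k : μ (ι (ν v)) = ι v := by rw [n1 v e, (m1 _).1]
      refine Fin.castLE_injective (hn.trans hN) ((n1 _ ?_).trans k)
      rw [k]
      exact v.2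
    · have : ν v = v := dif_neg e
      rw [this, this]
  · have e := (n2 v).1 hv
    obtain ⟨ha, hb, k⟩ := (hE _ _).1 (m3 (ι v) (v.2.trans_le hn) (e.trans_le hn))
    simp only [ν, dif_pos e]
    exact k
  · let σ' : Fin N → Fin N := fun a => if e : a.1 < n then ι (σ ⟨a, e⟩) else a
    have t1 : ∀ v, σ' (ι v) = ι (σ v) := fun v => dif_pos v.2
    have t2 : ∀ a : Fin N, (∃ v, a = ι v) ∨ σ' a = a := fun a => by
      by_cases e : a.1 < n
      · exact Or.inl ⟨⟨a, e⟩, rfl⟩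
      · exact Or.inr (dif_neg e)
    refine le_trans ?_ ((m4 σ' (fun a => ?_) fun a ha => ?_).trans ?_)
    · refine card_le_card_of_injOn ι (fun v hv => ?_) (Fin.castLE_injective _).injOn
      refine mem_filter.2 ⟨mem_univ _, fun e => (mem_filter.1 hv).2 ?_⟩
      rw [t1] at e
      exact Fin.castLE_injective _ e
    · rcases t2 a with ⟨v, rfl⟩ | e
      · rw [t1, t1, s1]
      · rw [e, e]
    · rcases t2 a with ⟨v, rfl⟩ | e
      · rw [t1] at ha ⊢
        exact (hE _ _).2 ⟨v.2, (σ v).2, s2 v fun e => ha (congrArg ι e)⟩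
      · exact absurd e ha
    · refine card_le_card_of_surjOn ι fun a ha => ?_
      obtain ⟨a1, a2⟩ := (mem_filter.1 ha).2
      obtain ⟨b1, b2, -⟩ := (hE _ _).1 (m3 a a1 a2)
      exact ⟨⟨a, b1⟩, mem_filter.2 ⟨mem_univ _, (n2 _).2 b2⟩, rfl⟩
  · refine (hm (ι u) u.2).trans ?_
    by_cases e : (μ (ι u)).1 < n
    · rw [if_pos e, if_neg ((n2 u).2 e), ← n1 u e]
      rfl
    · rw [if_neg e, if_pos (show ν u = u from dif_neg e)]

end Vale.Agent.P305
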