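import Vale.Agent.P305.Par
import Vale.Agent.P305.Alg

/-! The first state. -/

namespace Vale.Agent.P305

open Vale.Agent.P315 Finset

variable {S : Sch} {n : ℕ}

/-- The explicit inverse of the first state. -/
def u0_inv (K : Type) [Ring K] (N h : ℕ) : Matrix (Fin N) (Fin N) K :=
  Matrix.of fun i j => if (j : ℕ) = i + h then -1 else if (i : ℕ) = j + h then 1 else 0

theorem u0_mul {K : Type} [Field K] {N h : ℕ} (hN : N = 2 * h) (hh : 0 < h) :
    mat N (fun i j => if j = i + h then (1 : K) else 0) * u0_inv K N h = 1 := by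
  ext i j
  have hi := i.2
  have hj := j.2
  rw [Matrix.mul_apply, Matrix.one_apply]
  by_cases hlt : (i : ℕ) < h
  · rw [Finset.sum_eq_single (⟨i + h, by omega⟩ : Fin N)]
    · simp only [mat, u0_inv, alt, Matrix.of_apply, Fin.ext_iff]
      split_ifs <;> first | omega | simp
    · intro b _ hb
      have hb' : (b : ℕ) ≠ i + h := fun e => hb (Fin.ext e)
      simp only [mat, u0_inv, alt, Matrix.of_apply]
      split_ifs <;> first | omega | simp
    · simp
  · rw [Finset.sum_eq_single (⟨i - h, by omega⟩ : Fin N)]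
    · simp only [mat, u0_inv, alt, Matrix.of_apply, Fin.ext_iff]
      split_ifs <;> first | omega | simp
    · intro b _ hb
      have hb' : (b : ℕ) ≠ i - h := fun e => hb (Fin.ext e)
      have := b.2
      simp only [mat, u0_inv, alt, Matrix.of_apply]
      split_ifs <;> first | omega | simp
    · simp

theorem ns_u0 (H : S.Ok) : Ns (S.N n) (S.u0 n) ∧ ∀ i < S.N n, ∀ j < S.N n,
    iv (S.N n) (S.u0 n) i j = if j = i + S.h n then -1 else if i = j + S.h n then 1 else 0 := by
  have hh : 0 < S.h n := lt_of_le_of_lt (Nat.zero_le _) (n_lt_h H)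
  have hm : mat (S.N n) (S.u0 n) * u0_inv (ZMod (S.p n)) (S.N n) (S.h n) = 1 :=
    u0_mul (N_eq H) hh
  refine ⟨(Matrix.isUnit_det_of_right_inverse hm).ne_zero, fun i hi j hj => ?_⟩
  unfold iv
  rw [dif_pos ⟨hi, hj⟩, Matrix.inv_eq_right_inv hm]
  rfl

end Vale.Agent.P305
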